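import Vale.Agent.P358.Tens

/-!
# Product phase ensembles (module G)
-/

open Matrix Finset
open scoped ComplexOrder

namespace Vale.Agent.P358

/-! ### Product matrices -/

/-- The tensor product of `2 × 2` matrices. -/
noncomputable def prodMat {n : ℕ} (φ : Fin n → Matrix (Fin 2) (Fin 2) ℂ) :
    Matrix (Qb n) (Qb n) ℂ :=
  Matrix.of fun a b => ∏ i, φ i (a i) (b i)

theorem sum_prod_qb {α : Type*} [Fintype α] {R : Type*} [CommSemiring R] {n : ℕ}
    (f : Fin n → α → R) :
    ∑ c : Fin n → α, ∏ i, f i (c i) = ∏ i, ∑ x, f i x := by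
  have h2 := Finset.prod_univ_sum (fun _ : Fin n => (Finset.univ : Finset α)) f
  rw [Fintype.piFinset_univ] at h2
  exact h2.symm

theorem prodMat_mul {n : ℕ} (φ ψ : Fin n → Matrix (Fin 2) (Fin 2) ℂ) :
    prodMat φ * prodMat ψ = prodMat fun i => φ i * ψ i := by
  ext a b
  rw [Matrix.mul_apply]
  simp only [prodMat, Matrix.of_apply, Matrix.mul_apply]
  rw [← sum_prod_qb fun i x => φ i (a i) x * ψ i x (b i)]
  refine Finset.sum_congr rfl fun c _ => ?_
  rw [Finset.prod_mul_distrib]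

theorem prodMat_conjTranspose {n : ℕ} (φ : Fin n → Matrix (Fin 2) (Fin 2) ℂ) :
    (prodMat φ)ᴴ = prodMat fun i => (φ i)ᴴ := by
  ext a b
  simp only [prodMat, Matrix.conjTranspose_apply, Matrix.of_apply, star_prod]

theorem prodMat_diagonal {n : ℕ} (d : Fin n → Fin 2 → ℂ) :
    prodMat (fun i => diagonal (d i)) = diagonal fun a => ∏ i, d i (a i) := by
  ext a b
  simp only [prodMat, Matrix.of_apply]
  by_cases h : a = b
  · subst h
    simp
  · rw [Matrix.diagonal_apply_ne _ h]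
    obtain ⟨i, hi⟩ : ∃ i, a i ≠ b i := by
      by_contra h'
      push Not at h'
      exact h (funext h')
    refine Finset.prod_eq_zero (Finset.mem_univ i) ?_
    rw [Matrix.diagonal_apply_ne _ hi]

theorem prodMat_trace {n : ℕ} (φ : Fin n → Matrix (Fin 2) (Fin 2) ℂ) :
    (prodMat φ).trace = ∏ i, (φ i).trace := by
  simp only [Matrix.trace, Matrix.diag_apply, prodMat, Matrix.of_apply]
  rw [sum_prod_qb fun i x => φ i x x]

theorem gad_eq_sum (γ ν : ℝ) (ψ : Matrix (Fin 2) (Fin 2) ℂ) (a b : Fin 2) :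
    gad γ ν ψ a b = ∑ c, ∑ d, gad γ ν (Matrix.single c d 1) a b * ψ c d := by
  fin_cases a <;> fin_cases b <;> simp [gad, Fin.sum_univ_two] <;> ring

theorem tpow_prodMat (γ ν : ℝ) {n : ℕ} (ψ : Fin n → Matrix (Fin 2) (Fin 2) ℂ) :
    tpow (gad γ ν) n (prodMat ψ) = prodMat fun i => gad γ ν (ψ i) := by
  ext a b
  rw [tpow_apply]
  simp only [prodMat, Matrix.of_apply]
  simp_rw [gad_eq_sum γ ν (ψ _)]
  rw [← sum_prod_qb fun i c => ∑ d, gad γ ν (Matrix.single c d 1) (a i) (b i) * ψ i c d]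
  refine Finset.sum_congr rfl fun c _ => ?_
  rw [← sum_prod_qb fun i d => gad γ ν (Matrix.single (c i) d 1) (a i) (b i) * ψ i (c i) d]
  refine Finset.sum_congr rfl fun d _ => ?_
  rw [Finset.prod_mul_distrib]

/-! ### Entropy of product matrices -/

theorem negMulLog_prod {α : Type*} [DecidableEq α] (s : Finset α) (x : α → ℝ) :
    Real.negMulLog (∏ j ∈ s, x j) =
      ∑ i ∈ s, ∏ j ∈ s, (if j = i then Real.negMulLog (x j) else x j) := by
  induction s using Finset.induction_on with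
  | empty => simp
  | insert a s ha ih =>
    rw [Finset.prod_insert ha, Real.negMulLog_mul, ih, Finset.sum_insert ha,
      Finset.prod_insert ha, if_pos rfl, Finset.mul_sum]
    congr 1
    · rw [mul_comm]
      congr 1
      refine Finset.prod_congr rfl fun j hj => ?_
      rw [if_neg]
      rintro rfl
      exact ha hj
    · refine Finset.sum_congr rfl fun i hi => ?_
      rw [Finset.prod_insert ha, if_neg]
      rintro rfl
      exact ha hi

theorem sum_negMulLog_prod {n : ℕ} (d : Fin n → Fin 2 → ℝ) (hd : ∀ i, ∑ z, d i z = 1) :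
    ∑ a : Qb n, Real.negMulLog (∏ i, d i (a i)) = ∑ i, ∑ z, Real.negMulLog (d i z) := by
  simp_rw [negMulLog_prod]
  rw [Finset.sum_comm]
  refine Finset.sum_congr rfl fun i _ => ?_
  have h := sum_prod_qb (n := n) fun j (z : Fin 2) =>
    (if j = i then Real.negMulLog (d j z) else d j z)
  rw [h, Finset.prod_eq_single i]
  · simp
  · intro j _ hj
    simp only [if_neg hj]
    exact hd j
  · simp

theorem exists_polar {φ : Matrix (Fin 2) (Fin 2) ℂ} (hφ : φ.PosSemidef) :
    ∃ (M : Matrix (Fin 2) (Fin 2) ℂ) (d : Fin 2 → ℝ), (∀ z, 0 ≤ d z) ∧ φ = M * Mᴴ ∧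
      Mᴴ * M = diagonal (fun z => (d z : ℂ)) ∧ ∑ z, Real.negMulLog (d z) = ent φ ∧
      ∑ z, d z = φ.trace.re := by
  have h := hφ.1.spectral_theorem
  rw [Unitary.conjStarAlgAut_apply] at h
  set U : Matrix (Fin 2) (Fin 2) ℂ := (hφ.1.eigenvectorUnitary : Matrix (Fin 2) (Fin 2) ℂ) with hU
  have hUU : star U * U = 1 := Unitary.coe_star_mul_self hφ.1.eigenvectorUnitary
  set R : Matrix (Fin 2) (Fin 2) ℂ := diagonal (fun z => ((√(hφ.1.eigenvalues z) : ℝ) : ℂ)) with hR
  have hRH : Rᴴ = R := by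
    rw [hR, Matrix.diagonal_conjTranspose]
    congr 1; ext z; simp
  have hRR : R * R = diagonal (fun z => ((hφ.1.eigenvalues z : ℝ) : ℂ)) := by
    rw [hR, Matrix.diagonal_mul_diagonal]
    congr 1; ext z
    rw [← Complex.ofReal_mul, Real.mul_self_sqrt (hφ.eigenvalues_nonneg z)]
  refine ⟨U * R, hφ.1.eigenvalues, hφ.eigenvalues_nonneg, ?_, ?_, ?_, ?_⟩
  · rw [Matrix.conjTranspose_mul, hRH]
    calc φ = U * diagonal (RCLike.ofReal ∘ hφ.1.eigenvalues : Fin 2 → ℂ) * star U := h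
      _ = U * (R * R) * star U := by rw [hRR]; rfl
      _ = U * R * (R * Uᴴ) := by
        rw [Matrix.star_eq_conjTranspose]; simp only [Matrix.mul_assoc]
  · rw [Matrix.conjTranspose_mul, hRH]
    calc R * Uᴴ * (U * R) = R * (star U * U) * R := by
          rw [Matrix.star_eq_conjTranspose]; simp only [Matrix.mul_assoc]
      _ = _ := by rw [hUU, Matrix.mul_one, hRR]
  · rw [ent_of_isHermitian hφ.1]
  · rw [hφ.1.trace_eq_sum_eigenvalues]
    simp

theorem prodMat_posSemidef {n : ℕ} {φ : Fin n → Matrix (Fin 2) (Fin 2) ℂ}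
    (hφ : ∀ i, (φ i).PosSemidef) : (prodMat φ).PosSemidef := by
  choose M d hd hM hM' hent htr using fun i => exists_polar (hφ i)
  have h1 : prodMat φ = prodMat M * (prodMat M)ᴴ := by
    rw [prodMat_conjTranspose, prodMat_mul]
    congr 1; ext1 i; exact hM i
  rw [h1]
  exact posSemidef_self_mul_conjTranspose _

theorem ent_prodMat {n : ℕ} {φ : Fin n → Matrix (Fin 2) (Fin 2) ℂ}
    (hφ : ∀ i, (φ i).PosSemidef) (htr : ∀ i, (φ i).trace = 1) :
    ent (prodMat φ) = ∑ i, ent (φ i) := by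
  choose M d hd hM hM' hent htr' using fun i => exists_polar (hφ i)
  have h1 : prodMat φ = prodMat M * (prodMat M)ᴴ := by
    rw [prodMat_conjTranspose, prodMat_mul]
    congr 1; ext1 i; exact hM i
  have h2 : (prodMat M)ᴴ * prodMat M =
      diagonal fun a : Qb n => ((∏ i, d i (a i) : ℝ) : ℂ) := by
    rw [prodMat_conjTranspose, prodMat_mul]
    have : (fun i => (M i)ᴴ * M i) = fun i => diagonal (fun z => (d i z : ℂ)) := by
      ext1 i; exact hM' i
    rw [this, prodMat_diagonal]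
    congr 1; ext1 a; push_cast; rfl
  rw [h1, ent_mul_conjTranspose, h2, ent_diagonal _ fun a => Finset.prod_nonneg fun i _ => hd i _,
    sum_negMulLog_prod d fun i => by rw [htr', htr i]; simp]
  exact Finset.sum_congr rfl fun i _ => hent i

/-! ### The phase pair ensemble -/

/-- the pure states `(√(1-q), ±√q)` -/
noncomputable def psi (q : ℝ) (z : Fin 2) : Matrix (Fin 2) (Fin 2) ℂ :=
  !![((1 - q : ℝ) : ℂ), (((if z = 0 then 1 else -1) * (√(1 - q) * √q) : ℝ) : ℂ);
    (((if z = 0 then 1 else -1) * (√(1 - q) * √q) : ℝ) : ℂ), ((q : ℝ) : ℂ)]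

theorem psi_isState {q : ℝ} (hq : 0 ≤ q) (hq1 : q ≤ 1) (z : Fin 2) : IsState (psi q z) := by
  constructor
  · set v : Fin 2 → ℂ := ![((√(1 - q) : ℝ) : ℂ), (((if z = 0 then 1 else -1) * √q : ℝ) : ℂ)]
      with hv
    have h1 : psi q z = vecMulVec v (star v) := by
      have e1 : (√(1 - q)) * √(1 - q) = 1 - q := Real.mul_self_sqrt (by linarith)
      have e2 : √q * √q = q := Real.mul_self_sqrt hq
      ext i j
      rw [Matrix.vecMulVec_apply, Pi.star_apply]
      fin_cases i <;> fin_cases j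
      · simp only [psi, hv, Matrix.of_apply, Matrix.cons_val', Matrix.cons_val_zero,
          Fin.zero_eta, Fin.isValue, Matrix.cons_val_fin_one, Complex.star_def, Complex.conj_ofReal]
        rw [← Complex.ofReal_mul, e1]
      · simp only [psi, hv, Matrix.of_apply, Matrix.cons_val', Matrix.cons_val_zero,
          Fin.zero_eta, Fin.isValue, Matrix.cons_val_fin_one, Complex.star_def, Complex.conj_ofReal,
          Fin.mk_one, Matrix.cons_val_one]
        rw [← Complex.ofReal_mul]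
        congr 1; ring
      · simp only [psi, hv, Matrix.of_apply, Matrix.cons_val', Matrix.cons_val_zero,
          Fin.zero_eta, Fin.isValue, Matrix.cons_val_fin_one, Complex.star_def, Complex.conj_ofReal,
          Fin.mk_one, Matrix.cons_val_one]
        rw [← Complex.ofReal_mul]
        congr 1; ring
      · simp only [psi, hv, Matrix.of_apply, Matrix.cons_val', Matrix.cons_val_fin_one,
          Fin.isValue, Complex.star_def, Complex.conj_ofReal, Fin.mk_one, Matrix.cons_val_one]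
        rw [← Complex.ofReal_mul]
        congr 1
        split_ifs
        · rw [one_mul, e2]
        · linarith [e2]
    rw [h1]
    exact posSemidef_vecMulVec_self_star v
  · simp [psi, Matrix.trace, Fin.sum_univ_two]

theorem gad_trace (γ ν : ℝ) (ψ : Matrix (Fin 2) (Fin 2) ℂ) : (gad γ ν ψ).trace = ψ.trace := by
  simp only [gad, Matrix.trace, Fin.sum_univ_two, Matrix.diag_apply, Matrix.of_apply,
    Matrix.cons_val', Matrix.cons_val_zero, Matrix.cons_val_one, Matrix.cons_val_fin_one]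
  ring

theorem gad_posSemidef {γ ν : ℝ} (hγ : 0 ≤ γ) (hγ1 : γ ≤ 1) (hν : 0 ≤ ν) (hν1 : ν ≤ 1)
    {ψ : Matrix (Fin 2) (Fin 2) ℂ} (hψ : ψ.PosSemidef) : (gad γ ν ψ).PosSemidef := by
  have h1 : gad γ ν ψ = ∑ j, kr γ ν j * ψ * (kr γ ν j)ᴴ := by
    ext a b
    rw [gad_eq_sum, Matrix.sum_apply]
    simp_rw [gad_single hγ hγ1 hν hν1, Finset.sum_mul]
    have h2 : ∀ c, ∑ d, ∑ j, kr γ ν j a c * star (kr γ ν j b d) * ψ c d =
        ∑ j, ∑ d, kr γ ν j a c * star (kr γ ν j b d) * ψ c d := fun c => Finset.sum_comm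
    simp_rw [h2]
    rw [Finset.sum_comm]
    refine Finset.sum_congr rfl fun j _ => ?_
    rw [Matrix.mul_apply]
    simp only [Matrix.mul_apply, Matrix.conjTranspose_apply, Finset.sum_mul]
    rw [Finset.sum_comm]
    refine Finset.sum_congr rfl fun d _ => Finset.sum_congr rfl fun c _ => ?_
    ring
  rw [h1]
  exact Matrix.posSemidef_sum _ fun j _ => hψ.mul_mul_conjTranspose_same _

theorem gad_isState {γ ν : ℝ} (hγ : 0 ≤ γ) (hγ1 : γ ≤ 1) (hν : 0 ≤ ν) (hν1 : ν ≤ 1)
    {ψ : Matrix (Fin 2) (Fin 2) ℂ} (hψ : IsState ψ) : IsState (gad γ ν ψ) :=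
  ⟨gad_posSemidef hγ hγ1 hν hν1 hψ.1, by rw [gad_trace, hψ.2]⟩

theorem ent_gad_psi {γ ν : ℝ} (hγ : 0 ≤ γ) (hγ1 : γ ≤ 1) (hν : 0 ≤ ν) (hν1 : ν ≤ 1) {q : ℝ}
    (hq : 0 ≤ q) (hq1 : q ≤ 1) (z : Fin 2) : ent (gad γ ν (psi q z)) = sg γ ν (1 - q) q := by
  have hs := gad_isState hγ hγ1 hν hν1 (psi_isState hq hq1 z)
  rw [ent_two hs.1, hs.2]
  have hdet : (gad γ ν (psi q z)).det.re = detOut γ ν (1 - q) q := by
    have e1 : (√(1 - q)) * √(1 - q) = 1 - q := Real.mul_self_sqrt (by linarith)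
    have e2 : √q * √q = q := Real.mul_self_sqrt hq
    have e3 : (√(1 - γ)) * √(1 - γ) = 1 - γ := Real.mul_self_sqrt (by linarith)
    set ss : ℝ := if z = 0 then 1 else -1 with hss
    have e4 : ss * ss = 1 := by rw [hss]; split_ifs <;> norm_num
    rw [Matrix.det_fin_two]
    have h1 : (gad γ ν (psi q z)) 0 0 = (((1 - q) + q - ((1 - γ) * q + γ * ν * ((1 - q) + q)) : ℝ) : ℂ) := by
      simp only [gad, psi, Matrix.of_apply, Matrix.cons_val', Matrix.cons_val_zero,
        Matrix.cons_val_one, Matrix.cons_val_fin_one]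
      push_cast; ring
    have h2 : (gad γ ν (psi q z)) 1 1 = ((((1 - γ) * q + γ * ν * ((1 - q) + q)) : ℝ) : ℂ) := by
      simp only [gad, psi, Matrix.of_apply, Matrix.cons_val', Matrix.cons_val_zero,
        Matrix.cons_val_one, Matrix.cons_val_fin_one]
      push_cast; ring
    have h3 : (gad γ ν (psi q z)) 0 1 = ((√(1 - γ) * (ss * (√(1 - q) * √q)) : ℝ) : ℂ) := by
      simp only [gad, psi, Matrix.of_apply, Matrix.cons_val', Matrix.cons_val_zero,
        Matrix.cons_val_one, Matrix.cons_val_fin_one, hss]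
      push_cast; ring
    have h4 : (gad γ ν (psi q z)) 1 0 = ((√(1 - γ) * (ss * (√(1 - q) * √q)) : ℝ) : ℂ) := by
      simp only [gad, psi, Matrix.of_apply, Matrix.cons_val', Matrix.cons_val_zero,
        Matrix.cons_val_one, Matrix.cons_val_fin_one, hss]
      push_cast; ring
    rw [h1, h2, h3, h4, ← Complex.ofReal_mul, ← Complex.ofReal_mul, ← Complex.ofReal_sub,
      Complex.ofReal_re, detOut]
    have h5 : √(1 - γ) * (ss * (√(1 - q) * √q)) * (√(1 - γ) * (ss * (√(1 - q) * √q))) =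
        (1 - γ) * ((1 - q) * q) := by
      calc _ = (√(1 - γ) * √(1 - γ)) * (ss * ss) * ((√(1 - q) * √(1 - q)) * (√q * √q)) := by ring
        _ = _ := by rw [e1, e2, e3, e4]; ring
    rw [h5]; ring
  rw [hdet, sg]
  simp

theorem average_prodMat {n : ℕ} (φ : Fin 2 → Matrix (Fin 2) (Fin 2) ℂ) (c : ℂ) :
    ∑ a : Qb n, (c ^ n) • prodMat (fun i => φ (a i)) = prodMat (fun _ => ∑ z, c • φ z) := by
  ext x y
  rw [Matrix.sum_apply]
  simp only [Matrix.smul_apply, prodMat, Matrix.of_apply, Matrix.sum_apply, smul_eq_mul]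
  rw [← sum_prod_qb fun i z => c * φ z (x i) (y i)]
  refine Finset.sum_congr rfl fun a _ => ?_
  rw [Finset.prod_mul_distrib]
  simp

theorem gad_average (γ ν q : ℝ) :
    ∑ z, (1 / 2 : ℂ) • gad γ ν (psi q z) =
      diagonal (fun z : Fin 2 => (((![1 - ((1 - γ) * q + γ * ν), (1 - γ) * q + γ * ν] : Fin 2 → ℝ) z
        : ℝ) : ℂ)) := by
  ext x y
  fin_cases x <;> fin_cases y <;>
    simp [gad, psi, Fin.sum_univ_two] <;> ring

theorem attain {γ ν : ℝ} (hγ : 0 ≤ γ) (hγ1 : γ ≤ 1) (hν : 0 ≤ ν) (hν1 : ν ≤ 1) (n : ℕ) {q : ℝ}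
    (hq : 0 ≤ q) (hq1 : q ≤ 1) :
    (n * (Real.binEntropy ((1 - γ) * q + γ * ν) - sg γ ν (1 - q) q)) / Real.log 2 ∈
      holevoSet (tpow (gad γ ν) n) := by
  set t : ℝ := (1 - γ) * q + γ * ν with ht
  have ht0 : 0 ≤ t := by
    have h1 : 0 ≤ (1 - γ) * q := mul_nonneg (by linarith) hq
    have h2 : 0 ≤ γ * ν := mul_nonneg hγ hν
    linarith
  have ht1 : t ≤ 1 := by
    have h1 : (1 - γ) * q ≤ (1 - γ) * 1 := mul_le_mul_of_nonneg_left hq1 (by linarith)
    have h2 : γ * ν ≤ γ * 1 := mul_le_mul_of_nonneg_left hν1 hγ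
    linarith
  set e := Fintype.equivFin (Qb n) with he
  have hcard : Fintype.card (Qb n) = 2 ^ n := by simp
  have hout : ∀ a : Qb n, tpow (gad γ ν) n (prodMat fun i => psi q (a i)) =
      prodMat fun i => gad γ ν (psi q (a i)) := fun a => tpow_prodMat γ ν _
  have hent : ∀ a : Qb n, ent (tpow (gad γ ν) n (prodMat fun i => psi q (a i))) =
      n * sg γ ν (1 - q) q := by
    intro a
    rw [hout, ent_prodMat (fun i => (gad_isState hγ hγ1 hν hν1 (psi_isState hq hq1 _)).1)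
      (fun i => (gad_isState hγ hγ1 hν hν1 (psi_isState hq hq1 _)).2)]
    simp_rw [ent_gad_psi hγ hγ1 hν hν1 hq hq1]
    simp
  have havg : ∑ a : Qb n, ((((1 / 2 : ℝ) ^ n : ℝ)) : ℂ) •
      tpow (gad γ ν) n (prodMat fun i => psi q (a i)) =
      prodMat (fun _ => diagonal (fun z : Fin 2 => (((![1 - t, t] : Fin 2 → ℝ) z : ℝ) : ℂ))) := by
    rw [← gad_average γ ν q, ← average_prodMat]
    refine Finset.sum_congr rfl fun a _ => ?_
    rw [hout]
    push_cast
    rfl
  have hentavg : ent (prodMat (n := n) (fun _ => diagonal (fun z : Fin 2 =>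
      (((![1 - t, t] : Fin 2 → ℝ) z : ℝ) : ℂ)))) = n * Real.binEntropy t := by
    have hpos : ∀ z, 0 ≤ (![1 - t, t] : Fin 2 → ℝ) z := by
      intro z; fin_cases z
      · simpa using ht1
      · simpa using ht0
    rw [ent_prodMat]
    · rw [ent_diagonal _ hpos]
      simp [Fin.sum_univ_two, Real.binEntropy_eq_negMulLog_add_negMulLog_one_sub]
      ring
    · intro i
      refine Matrix.PosSemidef.diagonal ?_
      intro z
      exact Complex.zero_le_real.2 (hpos z)
    · intro i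
      simp [Matrix.trace, Fin.sum_univ_two]
  refine ⟨Fintype.card (Qb n), fun _ => (1 / 2 : ℝ) ^ n,
    fun j => prodMat fun i => psi q (e.symm j i), fun _ => by positivity, ?_, ?_, ?_⟩
  · rw [Finset.sum_const, Finset.card_univ, Fintype.card_fin, hcard, nsmul_eq_mul]
    push_cast
    rw [← mul_pow]; norm_num
  · intro j
    refine ⟨prodMat_posSemidef fun i => (psi_isState hq hq1 _).1, ?_⟩
    rw [prodMat_trace]
    exact Finset.prod_eq_one fun i _ => (psi_isState hq hq1 _).2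
  · have h1 : ∑ j, ((((1 / 2 : ℝ) ^ n : ℝ)) : ℂ) •
        tpow (gad γ ν) n (prodMat fun i => psi q (e.symm j i)) =
        ∑ a : Qb n, ((((1 / 2 : ℝ) ^ n : ℝ)) : ℂ) •
        tpow (gad γ ν) n (prodMat fun i => psi q (a i)) :=
      e.symm.sum_comp fun a : Qb n => ((((1 / 2 : ℝ) ^ n : ℝ)) : ℂ) •
        tpow (gad γ ν) n (prodMat fun i => psi q (a i))
    rw [h1, havg, hentavg]
    simp_rw [hent]
    rw [Finset.sum_const, Finset.card_univ, Fintype.card_fin, hcard, nsmul_eq_mul]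
    push_cast
    congr 1
    rw [← mul_assoc, ← mul_pow]
    norm_num
    ring

/-! ### One use -/

theorem gad_isHermitian (γ ν : ℝ) {ψ : Matrix (Fin 2) (Fin 2) ℂ} (hψ : ψ.IsHermitian) :
    (gad γ ν ψ).IsHermitian := by
  have h00 := congrFun (congrFun hψ 0) 0
  have h01 := congrFun (congrFun hψ 0) 1
  have h10 := congrFun (congrFun hψ 1) 0
  have h11 := congrFun (congrFun hψ 1) 1
  rw [Matrix.conjTranspose_apply] at h00 h01 h10 h11
  ext x y
  rw [Matrix.conjTranspose_apply]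
  fin_cases x <;> fin_cases y
  · simp [gad] at h00 h11 ⊢
    rw [h00, h11]
  · simp [gad] at h01 ⊢
    left; exact h01
  · simp [gad] at h10 ⊢
    left; exact h10
  · simp [gad] at h00 h11 ⊢
    rw [h00, h11]

theorem ent_eq_roots {ι : Type*} [Fintype ι] [DecidableEq ι] {X : Matrix ι ι ℂ}
    (hX : X.IsHermitian) : ent X = (X.charpoly.roots.map fun z => Real.negMulLog z.re).sum := by
  rw [ent_of_isHermitian hX, hX.roots_charpoly_eq_eigenvalues, Multiset.map_map]
  rfl

theorem ent_submatrix_equiv' {ι κ : Type*} [Fintype ι] [DecidableEq ι] [Fintype κ] [DecidableEq κ]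
    (e : κ ≃ ι) {X : Matrix ι ι ℂ} (hX : X.IsHermitian) :
    ent (X.submatrix e e) = ent X := by
  rw [ent_eq_roots (hX.submatrix e), ent_eq_roots hX]
  have := Matrix.charpoly_reindex e.symm X
  rw [Matrix.reindex_apply, Equiv.symm_symm] at this
  rw [this]

/-- relabelling of the basis: `Fin 2` versus `Qb 1` -/
def e1 : Qb 1 ≃ Fin 2 := Equiv.funUnique (Fin 1) (Fin 2)

theorem tpow_one (γ ν : ℝ) (ρ : Matrix (Qb 1) (Qb 1) ℂ) :
    tpow (gad γ ν) 1 ρ = (gad γ ν (ρ.submatrix e1.symm e1.symm)).submatrix e1 e1 := by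
  ext a b
  rw [tpow_apply, Matrix.submatrix_apply, gad_eq_sum]
  rw [← e1.symm.sum_comp]
  refine Finset.sum_congr rfl fun c _ => ?_
  rw [← e1.symm.sum_comp]
  refine Finset.sum_congr rfl fun d _ => ?_
  rw [Matrix.submatrix_apply]
  simp [e1, Equiv.funUnique]

theorem submatrix_isState {ι κ : Type*} [Fintype ι] [Fintype κ] [DecidableEq ι] [DecidableEq κ]
    (e : κ ≃ ι) {X : Matrix ι ι ℂ} (hX : IsState X) : IsState (X.submatrix e e) :=
  ⟨hX.1.submatrix e, by
    rw [← hX.2, Matrix.trace, Matrix.trace]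
    exact e.sum_comp fun i => X i i⟩

theorem holevoSet_tpow_one (γ ν : ℝ) :
    holevoSet (tpow (gad γ ν) 1) = holevoSet (gad γ ν) := by
  have hherm : ∀ {m : ℕ} (w : Fin m → ℝ) (ρ : Fin m → Matrix (Fin 2) (Fin 2) ℂ),
      (∀ a, IsState (ρ a)) → (∑ a, (w a : ℂ) • gad γ ν (ρ a)).IsHermitian := by
    intro m w ρ hρ
    rw [Matrix.IsHermitian, Matrix.conjTranspose_sum]
    refine Finset.sum_congr rfl fun a _ => ?_
    rw [Matrix.conjTranspose_smul, gad_isHermitian γ ν (hρ a).1.1]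
    simp
  ext x
  constructor
  · rintro ⟨m, w, ρ, hw, hw1, hρ, rfl⟩
    refine ⟨m, w, fun a => (ρ a).submatrix e1.symm e1.symm, hw, hw1,
      fun a => submatrix_isState e1.symm (hρ a), ?_⟩
    simp_rw [tpow_one]
    have h1 : ∀ a, ent ((gad γ ν ((ρ a).submatrix e1.symm e1.symm)).submatrix e1 e1) =
        ent (gad γ ν ((ρ a).submatrix e1.symm e1.symm)) := fun a =>
      ent_submatrix_equiv' e1 (gad_isHermitian γ ν (submatrix_isState e1.symm (hρ a)).1.1)
    have h2 : ∑ a, (w a : ℂ) • (gad γ ν ((ρ a).submatrix e1.symm e1.symm)).submatrix e1 e1 =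
        (∑ a, (w a : ℂ) • gad γ ν ((ρ a).submatrix e1.symm e1.symm)).submatrix e1 e1 := by
      ext i j
      simp only [Matrix.sum_apply, Matrix.smul_apply, Matrix.submatrix_apply]
    simp_rw [h1]
    rw [h2, ent_submatrix_equiv' e1 (hherm w _ fun a => submatrix_isState e1.symm (hρ a))]
  · rintro ⟨m, w, ρ, hw, hw1, hρ, rfl⟩
    refine ⟨m, w, fun a => (ρ a).submatrix e1 e1, hw, hw1,
      fun a => submatrix_isState e1 (hρ a), ?_⟩
    simp_rw [tpow_one]
    have h0 : ∀ a, ((ρ a).submatrix e1 e1).submatrix e1.symm e1.symm = ρ a := by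
      intro a; ext i j; simp
    simp_rw [h0]
    have h1 : ∀ a, ent ((gad γ ν (ρ a)).submatrix e1 e1) = ent (gad γ ν (ρ a)) := fun a =>
      ent_submatrix_equiv' e1 (gad_isHermitian γ ν (hρ a).1.1)
    have h2 : ∑ a, (w a : ℂ) • (gad γ ν (ρ a)).submatrix e1 e1 =
        (∑ a, (w a : ℂ) • gad γ ν (ρ a)).submatrix e1 e1 := by
      ext i j
      simp only [Matrix.sum_apply, Matrix.smul_apply, Matrix.submatrix_apply]
    simp_rw [h1]
    rw [h2, ent_submatrix_equiv' e1 (hherm w _ hρ)]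

end Vale.Agent.P358
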