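import Vale.Agent.P358.CountA

/-!
# Layer-cake lower bound (module K3b)
-/

open Matrix Finset MeasureTheory
open scoped ComplexOrder

namespace Vale.Agent.P358.Gen

variable {m k : Type} [Fintype m] [DecidableEq m] [Fintype k] [DecidableEq k]

open Polynomial in
/-- the nonzero eigenvalues of `c A Aᴴ` are those of `c Aᴴ A`. -/
theorem sum_eig_transfer (A : Matrix m k ℂ) (c : ℝ) (hP : ((c : ℂ) • (A * Aᴴ)).IsHermitian)
    (hQ : (Aᴴ * A).IsHermitian) (f : ℝ → ℝ) (hf : f 0 = 0) :
    ∑ i, f (hP.eigenvalues i) = ∑ i, f (c * hQ.eigenvalues i) := by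
  have h1 := charpoly_mul_comm' ((c : ℂ) • A) Aᴴ
  rw [Matrix.smul_mul, hP.charpoly_eq] at h1
  have h2 : (Aᴴ * (c : ℂ) • A).charpoly = ∏ i, (X - C ((c * hQ.eigenvalues i : ℝ) : ℂ)) := by
    have h := hQ.spectral_theorem
    rw [Unitary.conjStarAlgAut_apply] at h
    have hUU : star (hQ.eigenvectorUnitary : Matrix k k ℂ) * (hQ.eigenvectorUnitary : Matrix k k ℂ)
        = 1 := Unitary.coe_star_mul_self hQ.eigenvectorUnitary
    rw [Matrix.mul_smul]
    conv_lhs => rw [h]
    rw [← Matrix.smul_mul, ← Matrix.mul_smul, charpoly_mul_comm, ← Matrix.mul_assoc, hUU,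
      Matrix.one_mul, ← diagonal_smul, charpoly_diagonal]
    simp
  rw [h2] at h1
  have hne1 : (X ^ Fintype.card k * ∏ i, (X - C ((hP.eigenvalues i : ℝ) : ℂ))) ≠ 0 := by
    refine mul_ne_zero (pow_ne_zero _ X_ne_zero) ?_
    exact Finset.prod_ne_zero_iff.2 fun i _ => X_sub_C_ne_zero _
  have hne2 : (X ^ Fintype.card m * ∏ i, (X - C ((c * hQ.eigenvalues i : ℝ) : ℂ))) ≠ 0 := by
    refine mul_ne_zero (pow_ne_zero _ X_ne_zero) ?_
    exact Finset.prod_ne_zero_iff.2 fun i _ => X_sub_C_ne_zero _
  have h3 := congrArg Polynomial.roots h1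
  have hne1' : (X ^ Fintype.card k * ∏ i, (X - C (RCLike.ofReal (hP.eigenvalues i) : ℂ))) ≠ 0 :=
    hne1
  rw [roots_mul hne1', roots_mul hne2, roots_X_pow, roots_X_pow, roots_prod _ _
    (Finset.prod_ne_zero_iff.2 fun i _ => X_sub_C_ne_zero _), roots_prod _ _
    (Finset.prod_ne_zero_iff.2 fun i _ => X_sub_C_ne_zero _)] at h3
  simp only [roots_X_sub_C, Multiset.bind_singleton] at h3
  have h4 := congrArg (fun s : Multiset ℂ => (s.map fun z => f z.re).sum) h3
  simp only [Multiset.map_add, Multiset.sum_add, Multiset.map_nsmul, Multiset.map_singleton,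
    Complex.zero_re, hf, Multiset.sum_nsmul, Multiset.sum_singleton, smul_zero, zero_add,
    Multiset.map_map, Function.comp_def, Complex.ofReal_re] at h4
  simpa using h4

/-- integral of a step -/
theorem integral_step (g : ℝ) {T : ℝ} (hT : 0 ≤ T) :
    ∫ s in (0:ℝ)..T, (if s < g then (1 : ℝ) else 0) = min (max g 0) T := by
  rw [intervalIntegral.integral_of_le hT]
  have h1 : (fun s : ℝ => if s < g then (1 : ℝ) else 0) = Set.indicator (Set.Iio g) 1 := by
    ext s
    simp [Set.indicator_apply]
  rw [h1, integral_indicator measurableSet_Iio, Measure.restrict_restrict measurableSet_Iio]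
  simp only [Pi.one_apply, integral_const, smul_eq_mul, mul_one]
  rw [measureReal_restrict_apply_univ]
  rcases le_total g 0 with hg | hg
  · have : Set.Iio g ∩ Set.Ioc 0 T = ∅ := by
      ext s
      simp only [Set.mem_inter_iff, Set.mem_Iio, Set.mem_Ioc, Set.mem_empty_iff_false, iff_false]
      rintro ⟨h, h', _⟩
      linarith
    rw [this, max_eq_right hg, min_eq_left hT]
    simp
  · rw [max_eq_left hg]
    rcases le_or_gt g T with h | h
    · have : Set.Iio g ∩ Set.Ioc 0 T = Set.Ioo 0 g := by
        ext s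
        simp only [Set.mem_inter_iff, Set.mem_Iio, Set.mem_Ioc, Set.mem_Ioo]
        constructor
        · rintro ⟨h1, h2, _⟩; exact ⟨h2, h1⟩
        · rintro ⟨h1, h2⟩; exact ⟨h2, h1, by linarith⟩
      rw [this, min_eq_left h, Real.volume_real_Ioo_of_le hg, sub_zero]
    · have : Set.Iio g ∩ Set.Ioc 0 T = Set.Ioc 0 T := by
        ext s
        simp only [Set.mem_inter_iff, Set.mem_Iio, Set.mem_Ioc]
        constructor
        · rintro ⟨_, h2⟩; exact h2
        · rintro ⟨h1, h2⟩; exact ⟨by linarith, h1, h2⟩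
      rw [this, min_eq_right h.le, Real.volume_real_Ioc_of_le hT, sub_zero]

theorem step_integrable (g T : ℝ) :
    IntervalIntegrable (fun s : ℝ => if s < g then (1 : ℝ) else 0) volume 0 T := by
  refine Antitone.intervalIntegrable fun a b hab => ?_
  by_cases h : b < g
  · rw [if_pos h, if_pos (by linarith)]
  · rw [if_neg h]
    split_ifs <;> norm_num

theorem intInt_sum {α : Type*} (t : Finset α) (f : α → ℝ → ℝ) (T : ℝ)
    (h : ∀ a ∈ t, IntervalIntegrable (f a) volume 0 T) :
    IntervalIntegrable (fun x => ∑ a ∈ t, f a x) volume 0 T := by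
  have := IntervalIntegrable.sum t h
  have e : (∑ i ∈ t, f i) = fun x => ∑ a ∈ t, f a x := by
    ext x; simp
  rwa [e] at this

/-- level structure: finitely many positive levels `ρ j` with
`δ #{j | ρ j < r} ≤ H r ≤ δ #{j | ρ j < r} + δ`. -/
theorem exists_levels (H : ℝ → ℝ) (Hmax : ℝ) (hmono : MonotoneOn H (Set.Ici 0))
    (hcont : ContinuousOn H (Set.Ici 0)) (hH0 : H 0 = 0) (hmax : ∀ r, 0 ≤ r → H r ≤ Hmax)
    {δ : ℝ} (hδ : 0 < δ) :
    ∃ (J : Finset ℕ) (ρ : ℕ → ℝ), (∀ j ∈ J, 0 < ρ j) ∧ δ * J.card ≤ Hmax ∧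
      (∀ r, 0 ≤ r → δ * (J.filter fun j => ρ j < r).card ≤ H r) ∧
      (∀ r, 0 ≤ r → H r ≤ δ * (J.filter fun j => ρ j < r).card + δ) := by
  classical
  have hHmax : 0 ≤ Hmax := hH0 ▸ hmax 0 le_rfl
  set N := ⌊Hmax / δ⌋₊ with hN
  set S : ℕ → Set ℝ := fun j => {r | 0 ≤ r ∧ j * δ ≤ H r} with hS
  set J : Finset ℕ := (Finset.Icc 1 N).filter fun j => (S j).Nonempty with hJ
  set ρ : ℕ → ℝ := fun j => sInf (S j) with hρ
  have hclosed : ∀ j, IsClosed (S j) := by
    intro j
    have : S j = Set.Ici 0 ∩ H ⁻¹' (Set.Ici (j * δ)) := by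
      ext r; simp [hS]
    rw [this]
    exact hcont.preimage_isClosed_of_isClosed isClosed_Ici isClosed_Ici
  have hbdd : ∀ j, BddBelow (S j) := fun j => ⟨0, fun r hr => hr.1⟩
  have hmem : ∀ j, (S j).Nonempty → ρ j ∈ S j := fun j hj => (hclosed j).csInf_mem hj (hbdd j)
  have hmemJ : ∀ j ∈ J, 1 ≤ j ∧ ρ j ∈ S j := by
    intro j hj
    rw [hJ, Finset.mem_filter, Finset.mem_Icc] at hj
    exact ⟨hj.1.1, hmem j hj.2⟩
  refine ⟨J, ρ, ?_, ?_, ?_, ?_⟩
  · intro j hj
    obtain ⟨h1, h2, h3⟩ := hmemJ j hj
    rcases h2.eq_or_lt with h | h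
    · rw [← h, hH0] at h3
      have : (0 : ℝ) < j * δ := mul_pos (by exact_mod_cast h1) hδ
      linarith
    · exact h
  · have h1 : J.card ≤ N := by
      refine (Finset.card_filter_le _ _).trans ?_
      simp
    have h2 : (N : ℝ) ≤ Hmax / δ := Nat.floor_le (by positivity)
    calc δ * J.card ≤ δ * N := by
          have : (J.card : ℝ) ≤ N := by exact_mod_cast h1
          gcongr
      _ ≤ δ * (Hmax / δ) := by gcongr
      _ = Hmax := by field_simp
  · intro r hr
    set F := J.filter fun j => ρ j < r with hF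
    rcases F.eq_empty_or_nonempty with h | h
    · rw [h]
      simp only [Finset.card_empty, Nat.cast_zero, mul_zero]
      rw [← hH0]
      exact hmono (by simp) hr hr
    · set j0 := F.max' h with hj0
      have hj0F : j0 ∈ F := F.max'_mem h
      have hj0J : j0 ∈ J := (Finset.mem_filter.1 hj0F).1
      have hj0r : ρ j0 < r := (Finset.mem_filter.1 hj0F).2
      obtain ⟨h1, h2, h3⟩ := hmemJ j0 hj0J
      have hsub : F ⊆ Finset.Icc 1 j0 := by
        intro j hj
        rw [Finset.mem_Icc]
        exact ⟨(hmemJ j (Finset.mem_filter.1 hj).1).1, F.le_max' j hj⟩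
      have hcard : F.card ≤ j0 := by
        have := Finset.card_le_card hsub
        simpa using this
      calc δ * (F.card : ℝ) ≤ δ * j0 := by
            have : (F.card : ℝ) ≤ j0 := by exact_mod_cast hcard
            gcongr
        _ = j0 * δ := by ring
        _ ≤ H (ρ j0) := h3
        _ ≤ H r := hmono h2 hr hj0r.le
  · intro r hr
    set F := J.filter fun j => ρ j < r with hF
    by_contra hcon
    push Not at hcon
    -- all `1 ≤ j ≤ F.card + 1` are in `F`
    have hsub : Finset.Icc 1 (F.card + 1) ⊆ F := by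
      intro j hj
      rw [Finset.mem_Icc] at hj
      have hjδ : j * δ < H r := by
        have : (j : ℝ) ≤ F.card + 1 := by exact_mod_cast hj.2
        nlinarith
      have hr0 : 0 < r := by
        rcases hr.eq_or_lt with h | h
        · rw [← h, hH0] at hjδ
          have : (0 : ℝ) < j * δ := mul_pos (by exact_mod_cast hj.1) hδ
          linarith
        · exact h
      have hjN : j ≤ N := by
        rw [hN]
        refine Nat.le_floor ?_
        rw [le_div_iff₀ hδ]
        exact hjδ.le.trans (hmax r hr)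
      have hne : (S j).Nonempty := ⟨r, hr, hjδ.le⟩
      have hjJ : j ∈ J := by
        rw [hJ, Finset.mem_filter, Finset.mem_Icc]
        exact ⟨⟨hj.1, hjN⟩, hne⟩
      -- by continuity there is a smaller point
      have hρr : ρ j < r := by
        have hcr : ContinuousWithinAt H (Set.Ici 0) r := hcont r hr
        have hev : ∀ᶠ x in nhdsWithin r (Set.Ici 0), (j : ℝ) * δ < H x :=
          hcr.eventually (lt_mem_nhds hjδ)
        have hev' : ∀ᶠ x in nhdsWithin r (Set.Iio r), (j : ℝ) * δ < H x := by
          have hnn : nhdsWithin r (Set.Ici 0) = nhds r := by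
            refine nhdsWithin_eq_nhds.2 (Ici_mem_nhds hr0)
          rw [hnn] at hev
          exact hev.filter_mono nhdsWithin_le_nhds
        have hev'' : ∀ᶠ x in nhdsWithin r (Set.Iio r), 0 ≤ x := by
          have : ∀ᶠ x in nhds r, 0 ≤ x := (lt_mem_nhds hr0).mono fun x hx => le_of_lt hx
          exact this.filter_mono nhdsWithin_le_nhds
        have hev3 : ∀ᶠ x in nhdsWithin r (Set.Iio r), x < r := eventually_mem_nhdsWithin
        obtain ⟨x, hx1, hx2, hx3⟩ := (hev'.and (hev''.and hev3)).exists
        exact lt_of_le_of_lt (csInf_le (hbdd j) ⟨hx2, hx1.le⟩) hx3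
      rw [hF, Finset.mem_filter]
      exact ⟨hjJ, hρr⟩
    have := Finset.card_le_card hsub
    simp at this

theorem count_lower (A : Matrix m k ℂ) (Z : Matrix m m ℂ) (hZ : Z.PosSemidef) (H : ℝ → ℝ)
    (Hmax : ℝ) (hmono : MonotoneOn H (Set.Ici 0)) (hcont : ContinuousOn H (Set.Ici 0))
    (hH0 : H 0 = 0) (hmax : ∀ r, 0 ≤ r → H r ≤ Hmax) {T ε : ℝ} (hT : 0 < T) (hε : 0 < ε) :
    ∃ W : ℝ → ℝ, IntervalIntegrable W MeasureTheory.volume 0 T ∧
      (∀ s : ℝ, 0 < s → ∀ h : (Aᴴ * ((s : ℂ) • 1 + Z)⁻¹ * A).IsHermitian,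
        W s ≤ ∑ i, H (h.eigenvalues i)) ∧
      ∑ i, (∫ s in (0:ℝ)..T, H ((posSemidef_conjTranspose_mul_self A).1.eigenvalues i / s))
        - Hmax * Z.trace.re - ε ≤ ∫ s in (0:ℝ)..T, W s := by
  classical
  set δ : ℝ := ε / ((Fintype.card k + 1) * T) with hδd
  have hcard0 : (0 : ℝ) ≤ Fintype.card k := by positivity
  have hδ : 0 < δ := by positivity
  obtain ⟨J, ρ, hρ, hJ, hlow, hup⟩ := exists_levels H Hmax hmono hcont hH0 hmax hδ
  have hHmax : 0 ≤ Hmax := hH0 ▸ hmax 0 le_rfl
  have hAA : (A * Aᴴ).PosSemidef := posSemidef_self_mul_conjTranspose A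
  have hQ := (posSemidef_conjTranspose_mul_self A)
  have hP : ∀ j ∈ J, ((((ρ j)⁻¹ : ℝ) : ℂ) • (A * Aᴴ)).PosSemidef := fun j hj =>
    hAA.smul (by exact_mod_cast (inv_pos.2 (hρ j hj)).le)
  have hG : ∀ j, ((((ρ j)⁻¹ : ℝ) : ℂ) • (A * Aᴴ) - Z).IsHermitian := by
    intro j
    refine IsHermitian.sub ?_ hZ.1
    have h1 := hAA.1
    unfold IsHermitian at h1 ⊢
    rw [conjTranspose_smul, h1]
    simp
  set W : ℝ → ℝ := fun s => δ * ∑ j ∈ J, ∑ i, (if s < (hG j).eigenvalues i then (1 : ℝ) else 0)
    with hW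
  have hZtr : 0 ≤ Z.trace.re := (Complex.le_def.1 hZ.trace_nonneg).1
  have ha0 : ∀ i, 0 ≤ hQ.1.eigenvalues i := hQ.eigenvalues_nonneg
  have hWint : ∫ s in (0:ℝ)..T, W s =
      δ * ∑ j ∈ J, ∑ i, min (max ((hG j).eigenvalues i) 0) T := by
    rw [hW, intervalIntegral.integral_const_mul]
    congr 1
    rw [intervalIntegral.integral_finsetSum fun j _ =>
      intInt_sum _ _ _ fun i _ => step_integrable _ _]
    refine Finset.sum_congr rfl fun j _ => ?_
    rw [intervalIntegral.integral_finsetSum fun i _ => step_integrable _ _]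
    exact Finset.sum_congr rfl fun i _ => integral_step _ hT.le
  refine ⟨W, ?_, ?_, ?_⟩
  · refine IntervalIntegrable.const_mul ?_ _
    exact intInt_sum _ _ _ fun j _ => intInt_sum _ _ _ fun i _ => step_integrable _ _
  · intro s hs h
    have hXp : ((s : ℂ) • (1 : Matrix m m ℂ) + Z).PosDef :=
      (PosDef.one.smul (by exact_mod_cast hs)).add_posSemidef hZ
    have hMp : (Aᴴ * ((s : ℂ) • 1 + Z)⁻¹ * A).PosSemidef :=
      hXp.inv.posSemidef.conjTranspose_mul_mul_same A
    have hm0 : ∀ i, 0 ≤ h.eigenvalues i := hMp.eigenvalues_nonneg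
    calc W s = δ * ∑ j ∈ J, ((univ.filter fun i => s < (hG j).eigenvalues i).card : ℝ) := by
          show δ * ∑ j ∈ J, ∑ i, (if s < (hG j).eigenvalues i then (1 : ℝ) else 0) = _
          congr 1
          refine Finset.sum_congr rfl fun j _ => ?_
          rw [Finset.sum_ite]
          simp
      _ ≤ δ * ∑ j ∈ J, ((univ.filter fun i => ρ j < h.eigenvalues i).card : ℝ) := by
          refine mul_le_mul_of_nonneg_left ?_ hδ.le
          refine Finset.sum_le_sum fun j hj => ?_
          exact_mod_cast card_count A Z hZ hs (hρ j hj) (hG j) h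
      _ = ∑ i, δ * ((J.filter fun j => ρ j < h.eigenvalues i).card : ℝ) := by
          rw [← Finset.mul_sum]
          congr 1
          have e1 : ∀ j, ((univ.filter fun i => ρ j < h.eigenvalues i).card : ℝ) =
              ∑ i, if ρ j < h.eigenvalues i then (1 : ℝ) else 0 := by
            intro j
            rw [Finset.sum_ite]
            simp
          have e2 : ∀ i, ((J.filter fun j => ρ j < h.eigenvalues i).card : ℝ) =
              ∑ j ∈ J, if ρ j < h.eigenvalues i then (1 : ℝ) else 0 := by
            intro i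
            rw [Finset.sum_ite]
            simp
          simp only [e1, e2]
          rw [Finset.sum_comm]
      _ ≤ ∑ i, H (h.eigenvalues i) := Finset.sum_le_sum fun i _ => hlow _ (hm0 i)
  · rw [hWint]
    have h1 : ∀ j ∈ J, ∑ i, min (max (hQ.1.eigenvalues i / ρ j) 0) T - Z.trace.re ≤
        ∑ i, min (max ((hG j).eigenvalues i) 0) T := by
      intro j hj
      refine le_trans (le_of_eq ?_) (trunc_trace _ Z (hP j hj) hZ (hG j) hT.le)
      congr 1
      have := sum_eig_transfer A ((ρ j)⁻¹) (hP j hj).1 hQ.1 (fun x => min (max x 0) T)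
        (by simp [hT.le])
      rw [this]
      refine Finset.sum_congr rfl fun i _ => ?_
      rw [div_eq_inv_mul]
    have h2 : δ * ∑ j ∈ J, (∑ i, min (max (hQ.1.eigenvalues i / ρ j) 0) T - Z.trace.re) ≤
        δ * ∑ j ∈ J, ∑ i, min (max ((hG j).eigenvalues i) 0) T :=
      mul_le_mul_of_nonneg_left (Finset.sum_le_sum h1) hδ.le
    refine le_trans ?_ h2
    rw [Finset.sum_sub_distrib, Finset.sum_const, nsmul_eq_mul, mul_sub]
    have h3 : δ * (J.card * Z.trace.re) ≤ Hmax * Z.trace.re := by
      have := mul_le_mul_of_nonneg_right hJ hZtr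
      linarith
    have h4 : ∑ i, (∫ s in (0:ℝ)..T, H (hQ.1.eigenvalues i / s)) - ε ≤
        δ * ∑ j ∈ J, ∑ i, min (max (hQ.1.eigenvalues i / ρ j) 0) T := by
      have h5 : ∀ i, (∫ s in (0:ℝ)..T, H (hQ.1.eigenvalues i / s)) ≤
          δ * ∑ j ∈ J, min (max (hQ.1.eigenvalues i / ρ j) 0) T + δ * T := by
        intro i
        have hint : IntervalIntegrable (fun s => δ * ∑ j ∈ J,
            (if s < hQ.1.eigenvalues i / ρ j then (1 : ℝ) else 0) + δ) volume 0 T := by
          refine IntervalIntegrable.add ?_ intervalIntegrable_const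
          refine IntervalIntegrable.const_mul ?_ _
          exact intInt_sum _ _ _ fun j _ => step_integrable _ _
        have hle : (∫ s in (0:ℝ)..T, H (hQ.1.eigenvalues i / s)) ≤
            ∫ s in (0:ℝ)..T, (δ * ∑ j ∈ J,
            (if s < hQ.1.eigenvalues i / ρ j then (1 : ℝ) else 0) + δ) := by
          refine intervalIntegral.integral_mono_on_of_le_Ioo hT.le ?_ hint ?_
          · -- integrability: antitone in s on (0,T)
            rw [intervalIntegrable_iff_integrableOn_Ioc_of_le hT.le]
            have hanti : AntitoneOn (fun s => H (hQ.1.eigenvalues i / s)) (Set.Ioc 0 T) := by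
              intro a ha b hb hab
              refine hmono ?_ ?_ ?_
              · exact div_nonneg (ha0 i) hb.1.le
              · exact div_nonneg (ha0 i) ha.1.le
              · exact div_le_div_of_nonneg_left (ha0 i) ha.1 hab
            have hmeas : AEStronglyMeasurable (fun s => H (hQ.1.eigenvalues i / s))
                (volume.restrict (Set.Ioc 0 T)) :=
              (aemeasurable_restrict_of_antitoneOn measurableSet_Ioc hanti).aestronglyMeasurable
            refine Integrable.of_bound hmeas Hmax ?_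
            rw [ae_restrict_iff' measurableSet_Ioc]
            refine Filter.Eventually.of_forall fun s hs => ?_
            have h6 : 0 ≤ hQ.1.eigenvalues i / s := div_nonneg (ha0 i) hs.1.le
            have h7 : 0 ≤ H (hQ.1.eigenvalues i / s) := by
              rw [← hH0]; exact hmono (by simp) h6 h6
            rw [Real.norm_eq_abs, abs_of_nonneg h7]
            exact hmax _ h6
          · intro s hs
            refine (hup _ (div_nonneg (ha0 i) hs.1.le)).trans (le_of_eq ?_)
            congr 2
            rw [Finset.card_filter]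
            push_cast
            refine Finset.sum_congr rfl fun j hj => ?_
            have hρj := hρ j hj
            have : ρ j < hQ.1.eigenvalues i / s ↔ s < hQ.1.eigenvalues i / ρ j := by
              rw [lt_div_iff₀ hs.1, lt_div_iff₀ hρj, mul_comm]
            simp [this]
        refine hle.trans (le_of_eq ?_)
        rw [intervalIntegral.integral_add, intervalIntegral.integral_const_mul,
          intervalIntegral.integral_finsetSum fun j _ => step_integrable _ _,
          intervalIntegral.integral_const]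
        · congr 1
          · congr 1
            exact Finset.sum_congr rfl fun j _ => integral_step _ hT.le
          · simp [mul_comm]
        · refine IntervalIntegrable.const_mul ?_ _
          exact intInt_sum _ _ _ fun j _ => step_integrable _ _
        · exact intervalIntegrable_const
      have h6 := Finset.sum_le_sum fun i (_ : i ∈ univ) => h5 i
      rw [Finset.sum_add_distrib, ← Finset.mul_sum, Finset.sum_comm, Finset.sum_const,
        nsmul_eq_mul, Finset.card_univ] at h6
      have h7 : (Fintype.card k : ℝ) * (δ * T) ≤ ε := by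
        rw [hδd]
        have : (Fintype.card k : ℝ) * (ε / ((Fintype.card k + 1) * T) * T) =
            ε * (Fintype.card k / (Fintype.card k + 1)) := by
          field_simp
        rw [this]
        have h8 : (Fintype.card k : ℝ) / (Fintype.card k + 1) ≤ 1 := by
          rw [div_le_one (by positivity)]
          linarith
        nlinarith
      linarith
    linarith

end Vale.Agent.P358.Gen
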