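import Vale.Agent.P358.Defs

/-!
# Inertia and truncated traces (module K3a)
-/

open Matrix Finset
open scoped ComplexOrder

namespace Vale.Agent.P358.Gen

variable {m k : Type} [Fintype m] [DecidableEq m] [Fintype k] [DecidableEq k]

/-- the quadratic form in eigencoordinates -/
theorem quad_eig (M : Matrix k k ℂ) (hM : M.IsHermitian) (v : k → ℂ) :
    (star v ⬝ᵥ (M *ᵥ v)).re = ∑ i, hM.eigenvalues i *
      ‖((star (hM.eigenvectorUnitary : Matrix k k ℂ)) *ᵥ v) i‖ ^ 2 := by
  have h := hM.spectral_theorem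
  rw [Unitary.conjStarAlgAut_apply] at h
  set U : Matrix k k ℂ := (hM.eigenvectorUnitary : Matrix k k ℂ) with hU
  set c := (star U) *ᵥ v with hc
  have h1 : star v ⬝ᵥ (M *ᵥ v) = star c ⬝ᵥ ((diagonal (RCLike.ofReal ∘ hM.eigenvalues : k → ℂ)) *ᵥ c) := by
    conv_lhs => rw [h]
    rw [hc, Matrix.mulVec_mulVec, Matrix.star_mulVec, ← Matrix.dotProduct_mulVec,
      Matrix.mulVec_mulVec]
    congr 2
    rw [← Matrix.star_eq_conjTranspose, star_star, Matrix.mul_assoc]
  rw [h1, dotProduct, Complex.re_sum]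
  refine Finset.sum_congr rfl fun i _ => ?_
  rw [Matrix.mulVec_diagonal, Pi.star_apply, Complex.star_def]
  have h2 : (starRingEnd ℂ) (c i) * ((RCLike.ofReal ∘ hM.eigenvalues : k → ℂ) i * c i) =
      ((hM.eigenvalues i * ‖c i‖ ^ 2 : ℝ) : ℂ) := by
    have h3 : (starRingEnd ℂ) (c i) * c i = ((‖c i‖ ^ 2 : ℝ) : ℂ) := by
      rw [mul_comm, Complex.mul_conj, Complex.normSq_eq_norm_sq]
    rw [Complex.ofReal_mul, ← h3]
    simp only [Function.comp_apply, Complex.coe_algebraMap]
    ring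
  rw [h2, Complex.ofReal_re]

theorem norm_eig (M : Matrix k k ℂ) (hM : M.IsHermitian) (v : k → ℂ) :
    (star v ⬝ᵥ v).re = ∑ i,
      ‖((star (hM.eigenvectorUnitary : Matrix k k ℂ)) *ᵥ v) i‖ ^ 2 := by
  set U : Matrix k k ℂ := (hM.eigenvectorUnitary : Matrix k k ℂ) with hU
  have hUU' : U * star U = 1 := Unitary.coe_mul_star_self hM.eigenvectorUnitary
  set c := (star U) *ᵥ v with hc
  have h1 : star v ⬝ᵥ v = star c ⬝ᵥ c := by
    rw [hc, Matrix.star_mulVec, ← Matrix.dotProduct_mulVec, Matrix.mulVec_mulVec,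
      ← Matrix.star_eq_conjTranspose, star_star, hUU', Matrix.one_mulVec]
  rw [h1, dotProduct, Complex.re_sum]
  refine Finset.sum_congr rfl fun i _ => ?_
  rw [Pi.star_apply, Complex.star_def, mul_comm, Complex.mul_conj, Complex.normSq_eq_norm_sq,
    Complex.ofReal_re]

/-- inertia lemma -/
theorem finrank_le_card_eigenvalues (M : Matrix k k ℂ) (hM : M.IsHermitian) (r : ℝ)
    (V : Submodule ℂ (k → ℂ))
    (hV : ∀ v ∈ V, v ≠ 0 → r * (star v ⬝ᵥ v).re < (star v ⬝ᵥ (M *ᵥ v)).re) :
    Module.finrank ℂ V ≤ (univ.filter fun i => r < hM.eigenvalues i).card := by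
  set U : Matrix k k ℂ := (hM.eigenvectorUnitary : Matrix k k ℂ) with hU
  let φ : V →ₗ[ℂ] ({i // r < hM.eigenvalues i} → ℂ) :=
    (LinearMap.funLeft ℂ ℂ (Subtype.val : {i // r < hM.eigenvalues i} → k)) ∘ₗ
      (Matrix.toLin' (star U)) ∘ₗ V.subtype
  have hφ : Function.Injective φ := by
    rw [← LinearMap.ker_eq_bot, LinearMap.ker_eq_bot']
    intro v hv
    by_contra hne
    have hne' : (v : k → ℂ) ≠ 0 := fun h => hne (Subtype.ext h)
    have h1 := hV v v.2 hne'
    rw [quad_eig M hM, norm_eig M hM, Finset.mul_sum] at h1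
    refine absurd h1 (not_lt.2 ?_)
    refine Finset.sum_le_sum fun i _ => ?_
    by_cases hi : r < hM.eigenvalues i
    · have h2 : ((star U) *ᵥ (v : k → ℂ)) i = 0 := congrFun hv ⟨i, hi⟩
      rw [← hU, h2]
      simp
    · exact mul_le_mul_of_nonneg_right (not_lt.1 hi) (by positivity)
  have h := LinearMap.finrank_le_finrank_of_injective hφ
  rwa [Module.finrank_fintype_fun_eq_card, Fintype.card_subtype] at h

/-- counting: `#{eig (r⁻¹ A Aᴴ - Z) > s} ≤ #{eig (Aᴴ (s+Z)⁻¹ A) > r}`. -/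
theorem card_count (A : Matrix m k ℂ) (Z : Matrix m m ℂ) (hZ : Z.PosSemidef) {s r : ℝ}
    (hs : 0 < s) (hr : 0 < r) (hG : (((r⁻¹ : ℝ) : ℂ) • (A * Aᴴ) - Z).IsHermitian)
    (hM : (Aᴴ * ((s : ℂ) • 1 + Z)⁻¹ * A).IsHermitian) :
    (univ.filter fun i => s < hG.eigenvalues i).card ≤
      (univ.filter fun i => r < hM.eigenvalues i).card := by
  set G : Matrix m m ℂ := ((r⁻¹ : ℝ) : ℂ) • (A * Aᴴ) - Z with hGd
  set X : Matrix m m ℂ := (s : ℂ) • 1 + Z with hXd
  have hXp : X.PosDef := by
    rw [hXd]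
    refine Matrix.PosDef.add_posSemidef ?_ hZ
    exact Matrix.PosDef.one.smul (by exact_mod_cast hs)
  have hXdet : IsUnit X.det := (Matrix.isUnit_iff_isUnit_det X).1 hXp.isUnit
  set U : Matrix m m ℂ := (hG.eigenvectorUnitary : Matrix m m ℂ) with hU
  have hUU : star U * U = 1 := Unitary.coe_star_mul_self hG.eigenvectorUnitary
  -- extension by zero
  let ext0 : ({i // s < hG.eigenvalues i} → ℂ) →ₗ[ℂ] (m → ℂ) :=
    { toFun := fun c i => if h : s < hG.eigenvalues i then c ⟨i, h⟩ else 0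
      map_add' := by
        intro c d; ext i
        by_cases h : s < hG.eigenvalues i <;> simp [h]
      map_smul' := by
        intro a c; ext i
        by_cases h : s < hG.eigenvalues i <;> simp [h] }
  let ψ : ({i // s < hG.eigenvalues i} → ℂ) →ₗ[ℂ] (k → ℂ) :=
    (Matrix.toLin' Aᴴ) ∘ₗ (Matrix.toLin' U) ∘ₗ ext0
  have key : ∀ c : {i // s < hG.eigenvalues i} → ℂ, c ≠ 0 →
      0 < (star (ψ c) ⬝ᵥ ψ c).re ∧
      r * (star (ψ c) ⬝ᵥ ψ c).re < (star (ψ c) ⬝ᵥ ((Aᴴ * X⁻¹ * A) *ᵥ ψ c)).re := by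
    intro c hc
    set w : m → ℂ := U *ᵥ ext0 c with hw
    have hψ : ψ c = Aᴴ *ᵥ w := rfl
    have hUw : (star U) *ᵥ w = ext0 c := by
      rw [hw, Matrix.mulVec_mulVec, hUU, Matrix.one_mulVec]
    -- w ≠ 0
    have hsum : 0 < ∑ i, ‖(ext0 c) i‖ ^ 2 := by
      obtain ⟨i, hi⟩ : ∃ i, c i ≠ 0 := by
        by_contra h
        push Not at h
        exact hc (funext h)
      refine Finset.sum_pos' (fun _ _ => by positivity) ⟨i.1, Finset.mem_univ _, ?_⟩
      have h1 : (ext0 c) i.1 = c i := by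
        change (if h : s < hG.eigenvalues i.1 then c ⟨i.1, h⟩ else 0) = c i
        rw [dif_pos i.2]
      rw [h1]
      have := norm_pos_iff.2 hi
      positivity
    have hnw : (star w ⬝ᵥ w).re = ∑ i, ‖(ext0 c) i‖ ^ 2 := by
      rw [norm_eig G hG w, ← hU, hUw]
    have hw0 : w ≠ 0 := by
      intro h
      rw [h] at hnw
      simp only [star_zero, dotProduct_zero, Complex.zero_re] at hnw
      linarith
    have hGw : s * (star w ⬝ᵥ w).re < (star w ⬝ᵥ (G *ᵥ w)).re := by
      rw [quad_eig G hG w, hnw, ← hU, hUw, Finset.mul_sum]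
      obtain ⟨i, hi⟩ : ∃ i, c i ≠ 0 := by
        by_contra h
        push Not at h
        exact hc (funext h)
      have h1 : (ext0 c) i.1 = c i := by
        change (if h : s < hG.eigenvalues i.1 then c ⟨i.1, h⟩ else 0) = c i
        rw [dif_pos i.2]
      refine Finset.sum_lt_sum (fun j _ => ?_) ⟨i.1, Finset.mem_univ _, ?_⟩
      · by_cases hj : s < hG.eigenvalues j
        · exact mul_le_mul_of_nonneg_right hj.le (by positivity)
        · have h2 : (ext0 c) j = 0 := by
            change (if h : s < hG.eigenvalues j then c ⟨j, h⟩ else 0) = 0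
            rw [dif_neg hj]
          rw [h2]
          simp
      · rw [h1]
        have := norm_pos_iff.2 hi
        exact mul_lt_mul_of_pos_right i.2 (by positivity)
    -- abbreviations
    set b : m → ℂ := (A * Aᴴ) *ᵥ w with hb
    set τ : ℝ := (star w ⬝ᵥ b).re with hτ
    set ξ : ℝ := (star w ⬝ᵥ (X *ᵥ w)).re with hξ
    have hξpos : 0 < ξ := by
      have := hXp.dotProduct_mulVec_pos hw0
      exact (Complex.lt_def.1 this).1
    have hτξ : r * ξ < τ := by
      have h1 : (star w ⬝ᵥ (G *ᵥ w)).re = r⁻¹ * τ - (star w ⬝ᵥ (Z *ᵥ w)).re := by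
        rw [hGd, Matrix.sub_mulVec, Matrix.smul_mulVec, dotProduct_sub, dotProduct_smul,
          Complex.sub_re, smul_eq_mul, Complex.re_ofReal_mul]
      have h2 : ξ = s * (star w ⬝ᵥ w).re + (star w ⬝ᵥ (Z *ᵥ w)).re := by
        rw [hξ, hXd, Matrix.add_mulVec, Matrix.smul_mulVec, Matrix.one_mulVec, dotProduct_add,
          dotProduct_smul, Complex.add_re, smul_eq_mul, Complex.re_ofReal_mul]
      rw [h1] at hGw
      have h3 : ξ < r⁻¹ * τ := by rw [h2]; linarith
      have h4 := mul_lt_mul_of_pos_left h3 hr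
      rwa [← mul_assoc, mul_inv_cancel₀ hr.ne', one_mul] at h4
    have hvv : star (ψ c) ⬝ᵥ ψ c = star w ⬝ᵥ b := by
      rw [hψ, hb, Matrix.star_mulVec, Matrix.conjTranspose_conjTranspose,
        ← Matrix.dotProduct_mulVec, Matrix.mulVec_mulVec]
    have hvM : star (ψ c) ⬝ᵥ ((Aᴴ * X⁻¹ * A) *ᵥ ψ c) = star b ⬝ᵥ (X⁻¹ *ᵥ b) := by
      have h1 : star b = star w ᵥ* (A * Aᴴ) := by
        rw [hb, Matrix.star_mulVec, Matrix.conjTranspose_mul, Matrix.conjTranspose_conjTranspose]
      rw [h1, hψ, Matrix.star_mulVec, Matrix.conjTranspose_conjTranspose, hb,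
        ← Matrix.dotProduct_mulVec, ← Matrix.dotProduct_mulVec]
      simp only [Matrix.mulVec_mulVec, Matrix.mul_assoc]
    -- Cauchy-Schwarz
    have hXi : (X⁻¹)ᴴ = X⁻¹ := hXp.isHermitian.inv
    set z : m → ℂ := X⁻¹ *ᵥ b - (r : ℂ) • w with hz
    have hcs := (Complex.le_def.1 (hXp.posSemidef.dotProduct_mulVec_nonneg z)).1
    have hXz : X *ᵥ z = b - (r : ℂ) • (X *ᵥ w) := by
      rw [hz, Matrix.mulVec_sub, Matrix.mulVec_mulVec, Matrix.mul_nonsing_inv _ hXdet,
        Matrix.one_mulVec, Matrix.mulVec_smul]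
    have hsz : star z = star b ᵥ* X⁻¹ - (r : ℂ) • star w := by
      rw [hz, star_sub, star_smul, Matrix.star_mulVec, hXi, Complex.star_def, Complex.conj_ofReal]
    have hbw : (star b ⬝ᵥ w).re = τ := by
      have h1 : star b ⬝ᵥ w = star (star w ⬝ᵥ b) := by
        rw [← Matrix.star_dotProduct]
      rw [h1, hτ, Complex.star_def, Complex.conj_re]
    have hexp : (star z ⬝ᵥ (X *ᵥ z)).re =
        (star b ⬝ᵥ (X⁻¹ *ᵥ b)).re - 2 * r * τ + r ^ 2 * ξ := by
      have hXX : X⁻¹ *ᵥ (X *ᵥ w) = w := by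
        rw [Matrix.mulVec_mulVec, Matrix.nonsing_inv_mul _ hXdet, Matrix.one_mulVec]
      rw [hXz, hsz, sub_dotProduct, dotProduct_sub, dotProduct_sub, dotProduct_smul,
        dotProduct_smul, smul_dotProduct, smul_dotProduct, ← Matrix.dotProduct_mulVec,
        ← Matrix.dotProduct_mulVec, hXX]
      simp only [smul_eq_mul, Complex.sub_re, Complex.re_ofReal_mul]
      rw [hbw, ← hτ, ← hξ]
      ring
    rw [hexp, Complex.zero_re] at hcs
    have hτpos : 0 < τ := lt_trans (mul_pos hr hξpos) hτξ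
    have h5 : r ^ 2 * ξ < r * τ := by
      have := mul_lt_mul_of_pos_left hτξ hr
      calc r ^ 2 * ξ = r * (r * ξ) := by ring
        _ < _ := this
    refine ⟨?_, ?_⟩
    · rw [hvv]; exact hτpos
    · rw [hvv, hvM, ← hτ]; linarith
  have hinj : Function.Injective ψ := by
    rw [← LinearMap.ker_eq_bot, LinearMap.ker_eq_bot']
    intro c hc
    by_contra hne
    have := (key c hne).1
    rw [hc] at this
    simp at this
  have h1 := finrank_le_card_eigenvalues (Aᴴ * X⁻¹ * A) hM r (LinearMap.range ψ) (by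
    rintro v ⟨c, rfl⟩ hv
    refine (key c ?_).2
    rintro rfl
    exact hv (map_zero ψ))
  rw [LinearMap.finrank_range_of_inj hinj, Module.finrank_fintype_fun_eq_card,
    Fintype.card_subtype] at h1
  exact h1

/-- Peierls inequality for the diagonal in an arbitrary orthonormal basis. -/
theorem peierls {P : Matrix m m ℂ} (hP : P.IsHermitian) (W : Matrix m m ℂ)
    (hW : star W * W = 1) (hW' : W * star W = 1) {g : ℝ → ℝ} (hg : ConvexOn ℝ Set.univ g) :
    ∑ j, g (((star W * P * W) j j).re) ≤ ∑ i, g (hP.eigenvalues i) := by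
  have h := hP.spectral_theorem
  rw [Unitary.conjStarAlgAut_apply] at h
  set U : Matrix m m ℂ := (hP.eigenvectorUnitary : Matrix m m ℂ) with hU
  set lam := hP.eigenvalues with hlam
  have hUU : star U * U = 1 := Unitary.coe_star_mul_self hP.eigenvectorUnitary
  have hUU' : U * star U = 1 := Unitary.coe_mul_star_self hP.eigenvectorUnitary
  set Q : Matrix m m ℂ := star W * U with hQ
  have hQQ : star Q * Q = 1 := by
    rw [hQ, star_mul, star_star]
    calc star U * W * (star W * U) = star U * (W * star W) * U := by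
          simp only [Matrix.mul_assoc]
      _ = 1 := by rw [hW', Matrix.mul_one, hUU]
  have hQQ' : Q * star Q = 1 := by
    rw [hQ, star_mul, star_star]
    calc star W * U * (star U * W) = star W * (U * star U) * W := by
          simp only [Matrix.mul_assoc]
      _ = 1 := by rw [hUU', Matrix.mul_one, hW]
  have hrow : ∀ i, ∑ j, ‖Q i j‖ ^ 2 = 1 := by
    intro i
    have h1 := congrFun (congrFun hQQ' i) i
    rw [Matrix.mul_apply, Matrix.one_apply_eq] at h1
    have h2 : ∀ j, Q i j * (star Q) j i = ((‖Q i j‖ ^ 2 : ℝ) : ℂ) := by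
      intro j
      rw [Matrix.star_apply, Complex.star_def, Complex.mul_conj, Complex.normSq_eq_norm_sq]
    simp only [h2] at h1
    exact_mod_cast h1
  have hcol : ∀ j, ∑ i, ‖Q i j‖ ^ 2 = 1 := by
    intro j
    have h1 := congrFun (congrFun hQQ j) j
    rw [Matrix.mul_apply, Matrix.one_apply_eq] at h1
    have h2 : ∀ i, (star Q) j i * Q i j = ((‖Q i j‖ ^ 2 : ℝ) : ℂ) := by
      intro i
      rw [Matrix.star_apply, Complex.star_def, mul_comm, Complex.mul_conj,
        Complex.normSq_eq_norm_sq]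
    simp only [h2] at h1
    exact_mod_cast h1
  have hPQ : star W * P * W = Q * diagonal (RCLike.ofReal ∘ lam : m → ℂ) * star Q := by
    rw [hQ, star_mul, star_star]
    conv_lhs => rw [h]
    simp only [Matrix.mul_assoc]
  have hdiag : ∀ i, ((star W * P * W) i i).re = ∑ j, ‖Q i j‖ ^ 2 • lam j := by
    intro i
    rw [hPQ, Matrix.mul_apply]
    have h2 : ∀ j, (Q * diagonal (RCLike.ofReal ∘ lam : m → ℂ)) i j * (star Q) j i =
        ((‖Q i j‖ ^ 2 • lam j : ℝ) : ℂ) := by
      intro j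
      rw [Matrix.mul_diagonal, Matrix.star_apply, Complex.star_def]
      have h3 : Q i j * (starRingEnd ℂ) (Q i j) = ((‖Q i j‖ ^ 2 : ℝ) : ℂ) := by
        rw [Complex.mul_conj, Complex.normSq_eq_norm_sq]
      rw [smul_eq_mul, Complex.ofReal_mul, ← h3]
      simp only [Function.comp_apply, Complex.coe_algebraMap]
      ring
    simp only [h2]
    rw [← Complex.ofReal_sum, Complex.ofReal_re]
  have hjen : ∀ i, g (((star W * P * W) i i).re) ≤ ∑ j, ‖Q i j‖ ^ 2 • g (lam j) := by
    intro i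
    rw [hdiag i]
    exact hg.map_sum_le (fun j _ => by positivity) (hrow i) (fun j _ => Set.mem_univ _)
  calc ∑ i, g (((star W * P * W) i i).re) ≤ ∑ i, ∑ j, ‖Q i j‖ ^ 2 • g (lam j) :=
        Finset.sum_le_sum fun i _ => hjen i
    _ = ∑ j, (∑ i, ‖Q i j‖ ^ 2) * g (lam j) := by
        simp only [Finset.sum_mul, smul_eq_mul]
        rw [Finset.sum_comm]
    _ = ∑ j, g (lam j) := by
        refine Finset.sum_congr rfl fun j _ => ?_
        rw [hcol j, one_mul]

/-- `κ_T(x) = min (max x 0) T`; `Σ κ_T(λ_i(P)) - Σ κ_T(λ_i(P-Z)) ≤ Tr Z` for `P, Z ≥ 0`. -/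
theorem trunc_trace (P Z : Matrix m m ℂ) (hP : P.PosSemidef) (hZ : Z.PosSemidef)
    (hQ : (P - Z).IsHermitian) {T : ℝ} (hT : 0 ≤ T) :
    ∑ i, min (max (hP.1.eigenvalues i) 0) T - Z.trace.re ≤
      ∑ i, min (max (hQ.eigenvalues i) 0) T := by
  have hk : ∀ x : ℝ, min (max x 0) T = max x 0 - max (x - T) 0 := by
    intro x
    rcases le_total x 0 with h | h
    · rw [max_eq_right h, max_eq_right (by linarith), min_eq_left hT]; ring
    · rw [max_eq_left h]
      rcases le_total x T with h' | h'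
      · rw [min_eq_left h', max_eq_right (by linarith)]; ring
      · rw [min_eq_right h', max_eq_left (by linarith)]; ring
  have hg : ConvexOn ℝ Set.univ (fun x : ℝ => max (x - T) 0) := by
    have h1 : ConvexOn ℝ Set.univ (fun x : ℝ => x - T) := by
      refine ⟨convex_univ, fun x _ y _ a b _ _ hab => le_of_eq ?_⟩
      have hb : b = 1 - a := by linarith
      subst hb
      simp only [smul_eq_mul]
      ring
    exact h1.sup (convexOn_const 0 convex_univ)
  have h := hQ.spectral_theorem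
  rw [Unitary.conjStarAlgAut_apply] at h
  set W : Matrix m m ℂ := (hQ.eigenvectorUnitary : Matrix m m ℂ) with hW
  have hWW : star W * W = 1 := Unitary.coe_star_mul_self hQ.eigenvectorUnitary
  have hWW' : W * star W = 1 := Unitary.coe_mul_star_self hQ.eigenvectorUnitary
  have hp := peierls hP.1 W hWW hWW' hg
  have hmu : ∀ j, hQ.eigenvalues j = ((star W * P * W) j j).re - ((star W * Z * W) j j).re := by
    intro j
    have h1 : star W * (P - Z) * W = diagonal (RCLike.ofReal ∘ hQ.eigenvalues : m → ℂ) := by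
      conv_lhs => rw [h]
      calc star W * (W * diagonal (RCLike.ofReal ∘ hQ.eigenvalues : m → ℂ) * star W) * W
          = (star W * W) * diagonal (RCLike.ofReal ∘ hQ.eigenvalues : m → ℂ) * (star W * W) := by
            simp only [Matrix.mul_assoc]
        _ = _ := by rw [hWW, Matrix.one_mul, Matrix.mul_one]
    have h2 := congrArg Complex.re (congrFun (congrFun h1 j) j)
    rw [Matrix.mul_sub, Matrix.sub_mul, Matrix.sub_apply, Complex.sub_re, Matrix.diagonal_apply_eq]
      at h2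
    simpa using h2.symm
  have hZd : ∀ j, 0 ≤ ((star W * Z * W) j j).re := by
    intro j
    have h1 := hZ.conjTranspose_mul_mul_same W
    have := (Complex.le_def.1 (h1.diag_nonneg (i := j))).1
    simpa [Matrix.star_eq_conjTranspose] using this
  have hupper : ∑ j, max (hQ.eigenvalues j - T) 0 ≤ ∑ i, max (hP.1.eigenvalues i - T) 0 := by
    refine le_trans (Finset.sum_le_sum fun j _ => ?_) hp
    have := hZd j
    rw [hmu j]
    exact max_le_max (by linarith) le_rfl
  have htP : ∑ i, max (hP.1.eigenvalues i) 0 = P.trace.re := by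
    rw [hP.1.trace_eq_sum_eigenvalues, Complex.re_sum]
    refine Finset.sum_congr rfl fun i _ => ?_
    rw [max_eq_left (hP.eigenvalues_nonneg i)]
    simp
  have htQ : (P - Z).trace.re ≤ ∑ i, max (hQ.eigenvalues i) 0 := by
    rw [hQ.trace_eq_sum_eigenvalues, Complex.re_sum]
    refine Finset.sum_le_sum fun i _ => ?_
    simp
  rw [Matrix.trace_sub, Complex.sub_re] at htQ
  simp only [hk, Finset.sum_sub_distrib]
  linarith

end Vale.Agent.P358.Gen
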