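import Mathlib

open Matrix
open scoped ComplexOrder

namespace Vale.Agent.P358

/-- Labels of the computational basis of `n` qubits (`0` is the ground state). -/
abbrev Qb (n : ℕ) := Fin n → Fin 2

/-- The generalized amplitude damping channel `𝒜_{γ,ν}` (extended linearly to all `2 × 2`
matrices): for `ρ = [[1-q, z], [z̄, q]]` it is `[[1-t, √(1-γ) z], [√(1-γ) z̄, t]]` with
`t = (1-γ) q + γ ν`. -/
noncomputable def gad (γ ν : ℝ) (ρ : Matrix (Fin 2) (Fin 2) ℂ) : Matrix (Fin 2) (Fin 2) ℂ :=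
  !![ρ 0 0 + ρ 1 1 - ((1 - γ) * ρ 1 1 + γ * ν * (ρ 0 0 + ρ 1 1)), (√(1 - γ) : ℝ) * ρ 0 1;
     (√(1 - γ) : ℝ) * ρ 1 0, (1 - γ) * ρ 1 1 + γ * ν * (ρ 0 0 + ρ 1 1)]

/-- The `n`-fold tensor power `N^{⊗ n}` of a linear map `N` on `2 × 2` matrices. -/
noncomputable def tpow (N : Matrix (Fin 2) (Fin 2) ℂ → Matrix (Fin 2) (Fin 2) ℂ) (n : ℕ)
    (ρ : Matrix (Qb n) (Qb n) ℂ) : Matrix (Qb n) (Qb n) ℂ :=
  fun a b => ∑ c, ∑ d, (∏ i, N (Matrix.single (c i) (d i) 1) (a i) (b i)) * ρ c d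

/-- Entropy `-Tr X log X` (natural logarithm) of a Hermitian matrix, by eigenvalues
(junk value `0` if `X` is not Hermitian). -/
noncomputable def ent {ι : Type*} [Fintype ι] [DecidableEq ι] (X : Matrix ι ι ℂ) : ℝ :=
  haveI := Classical.propDecidable X.IsHermitian
  if h : X.IsHermitian then ∑ i, Real.negMulLog (h.eigenvalues i) else 0

/-- Density matrices. -/
def IsState {ι : Type*} [Fintype ι] (ρ : Matrix ι ι ℂ) : Prop := ρ.PosSemidef ∧ ρ.trace = 1

/-- The set of all values of the Holevo quantity (in bits) of finite ensembles of inputs of the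
map `N`. -/
def holevoSet {ι : Type*} [Fintype ι] [DecidableEq ι] (N : Matrix ι ι ℂ → Matrix ι ι ℂ) : Set ℝ :=
  {x | ∃ (m : ℕ) (w : Fin m → ℝ) (ρ : Fin m → Matrix ι ι ℂ), (∀ a, 0 ≤ w a) ∧ ∑ a, w a = 1 ∧
    (∀ a, IsState (ρ a)) ∧
    x = (ent (∑ a, (w a : ℂ) • N (ρ a)) - ∑ a, w a * ent (N (ρ a))) / Real.log 2}

/-- The Holevo capacity `χ(N)` (in bits). -/
noncomputable def holevo {ι : Type*} [Fintype ι] [DecidableEq ι]
    (N : Matrix ι ι ℂ → Matrix ι ι ℂ) : ℝ := sSup (holevoSet N)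

/-- The classical capacity `C(N) = sup_{n ≥ 1} χ(N^{⊗ n}) / n` (in bits) of a qubit channel. -/
noncomputable def capacity (N : Matrix (Fin 2) (Fin 2) ℂ → Matrix (Fin 2) (Fin 2) ℂ) : ℝ :=
  ⨆ n : ℕ, holevo (tpow N (n + 1)) / (n + 1)

/-- Entropy (natural logarithm) of the spectrum with sum `w` and product `D`:
the entropy of a positive `2 × 2` matrix with trace `w` and determinant `D`. -/
noncomputable def eta2 (w D : ℝ) : ℝ :=
  Real.negMulLog ((w + √(w ^ 2 - 4 * D)) / 2) + Real.negMulLog ((w - √(w ^ 2 - 4 * D)) / 2)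

/-- Determinant of the output of `gad γ ν` on the unnormalised pure state `(√p, √k)`. -/
noncomputable def detOut (γ ν p k : ℝ) : ℝ :=
  (1 - γ) * γ * (k - ν * (p + k)) ^ 2 + γ * ν * (1 - ν) * (p + k) ^ 2

/-- `σ(p,k)`: homogeneous form of `s(q)`. -/
noncomputable def sg (γ ν p k : ℝ) : ℝ := eta2 (p + k) (detOut γ ν p k) - Real.negMulLog (p + k)

end Vale.Agent.P358
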