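import Vale.Agent.P358.Defs

/-! The determinant identity for the output of the generalized amplitude damping channel. -/

open Matrix Finset
open scoped ComplexOrder

namespace Vale.Agent.P358.Gen

variable {m k : Type} [Fintype m] [DecidableEq m] [Fintype k] [DecidableEq k]

omit [Fintype m] in
theorem posDef_shift {Z : Matrix m m ℂ} (hZ : Z.PosSemidef) {s c : ℝ} (hs : 0 < s) (hc : 0 ≤ c) :
    ((s : ℂ) • (1 : Matrix m m ℂ) + (c : ℂ) • Z).PosDef := by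
  refine PosDef.add_posSemidef ?_ (hZ.smul (by exact_mod_cast hc))
  exact PosDef.one.smul (by exact_mod_cast hs)

/-- the second determinant -/
theorem det_pair (M L : Matrix k k ℂ) (hM : M.PosSemidef) {c0 c2 e q : ℝ} (h0 : 0 ≤ c0)
    (he : e ^ 2 = c0 * c2 - q) :
    (fromBlocks (1 + (c0 : ℂ) • M) ((e : ℂ) • L) ((e : ℂ) • M) (1 + (c2 : ℂ) • L)).det =
      (1 + (c0 : ℂ) • M + (c2 : ℂ) • L + (q : ℂ) • (M * L)).det := by
  have hP : (1 + (c0 : ℂ) • M).PosDef :=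
    PosDef.one.add_posSemidef (hM.smul (by exact_mod_cast h0))
  set P : Matrix k k ℂ := 1 + (c0 : ℂ) • M with hPdef
  have hPu : IsUnit P.det := (Matrix.isUnit_iff_isUnit_det P).1 hP.isUnit
  have hcomm : P * M = M * P := by
    rw [hPdef, Matrix.add_mul, Matrix.mul_add, Matrix.one_mul, Matrix.mul_one, Matrix.smul_mul,
      Matrix.mul_smul]
  have hPM : P * M * P⁻¹ = M := by
    rw [hcomm, Matrix.mul_assoc, Matrix.mul_nonsing_inv P hPu, Matrix.mul_one]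
  let hPi : Invertible P := hP.isUnit.invertible
  rw [det_fromBlocks₁₁, invOf_eq_nonsing_inv, ← det_mul, Matrix.mul_sub, Matrix.mul_add,
    Matrix.mul_one]
  congr 1
  have h1 : P * ((e : ℂ) • M * P⁻¹ * (e : ℂ) • L) = ((e ^ 2 : ℝ) : ℂ) • (M * L) := by
    simp only [Matrix.smul_mul, Matrix.mul_smul, smul_smul]
    rw [← Matrix.mul_assoc, ← Matrix.mul_assoc, hPM]
    push_cast
    rw [sq]
  have h2 : P * (c2 : ℂ) • L = (c2 : ℂ) • L + ((c0 * c2 : ℝ) : ℂ) • (M * L) := by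
    rw [hPdef, Matrix.add_mul, Matrix.one_mul, Matrix.smul_mul, Matrix.mul_smul, smul_smul]
    push_cast
    rfl
  rw [h1, h2, he]
  push_cast
  rw [sub_smul]
  abel

theorem det_identity (A B : Matrix m k ℂ) {s c0 c1 c2 c3 e : ℝ} (hs : 0 < s)
    (h0 : 0 ≤ c0) (h1 : 0 ≤ c1) (_h2 : 0 ≤ c2) (h3 : 0 ≤ c3) (he : e ^ 2 = c0 * c2 - c1 * c3)
    (X Y : Matrix m m ℂ) (hX : X = (s : ℂ) • 1 + (c1 : ℂ) • (B * Bᴴ))
    (hY : Y = (s : ℂ) • 1 + (c3 : ℂ) • (A * Aᴴ)) :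
    (1 + ((s⁻¹ : ℝ) : ℂ) • fromBlocks
        ((c0 : ℂ) • (A * Aᴴ) + (c1 : ℂ) • (B * Bᴴ)) ((e : ℂ) • (A * Bᴴ))
        ((e : ℂ) • (B * Aᴴ)) ((c3 : ℂ) • (A * Aᴴ) + (c2 : ℂ) • (B * Bᴴ))).det =
      (1 + ((s⁻¹ : ℝ) : ℂ) • ((c1 : ℂ) • (B * Bᴴ))).det *
      (1 + ((s⁻¹ : ℝ) : ℂ) • ((c3 : ℂ) • (A * Aᴴ))).det *
      (1 + (c0 : ℂ) • (Aᴴ * X⁻¹ * A) + (c2 : ℂ) • (Bᴴ * Y⁻¹ * B)
        + ((c1 * c3 : ℝ) : ℂ) • ((Aᴴ * X⁻¹ * A) * (Bᴴ * Y⁻¹ * B))).det := by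
  have hXp : X.PosDef := hX ▸ posDef_shift (posSemidef_self_mul_conjTranspose B) hs h1
  have hYp : Y.PosDef := hY ▸ posDef_shift (posSemidef_self_mul_conjTranspose A) hs h3
  have hXu : IsUnit X.det := (Matrix.isUnit_iff_isUnit_det X).1 hXp.isUnit
  have hYu : IsUnit Y.det := (Matrix.isUnit_iff_isUnit_det Y).1 hYp.isUnit
  have hsC : ((s⁻¹ : ℝ) : ℂ) * (s : ℂ) = 1 := by
    rw [← Complex.ofReal_mul, inv_mul_cancel₀ hs.ne', Complex.ofReal_one]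
  set t : ℂ := ((s⁻¹ : ℝ) : ℂ) with ht
  have htX : t • X = 1 + t • ((c1 : ℂ) • (B * Bᴴ)) := by
    rw [hX, smul_add, smul_smul, hsC, one_smul]
  have htY : t • Y = 1 + t • ((c3 : ℂ) • (A * Aᴴ)) := by
    rw [hY, smul_add, smul_smul, hsC, one_smul]
  have hM : (Aᴴ * X⁻¹ * A).PosSemidef := hXp.inv.posSemidef.conjTranspose_mul_mul_same A
  rw [← det_pair _ _ hM h0 he, ← htX, ← htY, ← det_fromBlocks_zero₁₂ (t • X) 0 (t • Y)]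
  -- `1 + t ρ = D (1 + (D⁻¹ t W) (K Wᴴ))`
  set W1 : Matrix (m ⊕ m) (k ⊕ k) ℂ := fromBlocks (X⁻¹ * A) 0 0 (Y⁻¹ * B) with hW1
  set W2 : Matrix (k ⊕ k) (m ⊕ m) ℂ :=
    fromBlocks ((c0 : ℂ) • Aᴴ) ((e : ℂ) • Bᴴ) ((e : ℂ) • Aᴴ) ((c2 : ℂ) • Bᴴ) with hW2
  have e1 : (1 + W1 * W2).det =
      (fromBlocks (1 + (c0 : ℂ) • (Aᴴ * X⁻¹ * A)) ((e : ℂ) • (Bᴴ * Y⁻¹ * B))
        ((e : ℂ) • (Aᴴ * X⁻¹ * A)) (1 + (c2 : ℂ) • (Bᴴ * Y⁻¹ * B))).det := by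
    rw [det_one_add_mul_comm]
    congr 1
    rw [hW1, hW2, fromBlocks_multiply, ← fromBlocks_one, fromBlocks_add]
    simp only [Matrix.mul_zero, add_zero, zero_add, Matrix.smul_mul, Matrix.mul_assoc]
  rw [← e1, ← det_mul]
  congr 1
  rw [hW1, hW2, fromBlocks_multiply, ← fromBlocks_one, fromBlocks_add, fromBlocks_multiply,
    fromBlocks_smul, fromBlocks_add]
  have f1 : X * (X⁻¹ * A) = A := by
    rw [← Matrix.mul_assoc, Matrix.mul_nonsing_inv X hXu, Matrix.one_mul]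
  have f2 : Y * (Y⁻¹ * B) = B := by
    rw [← Matrix.mul_assoc, Matrix.mul_nonsing_inv Y hYu, Matrix.one_mul]
  have g1 : t • X * (X⁻¹ * A * (c0 : ℂ) • Aᴴ) = t • ((c0 : ℂ) • (A * Aᴴ)) := by
    rw [Matrix.smul_mul, ← Matrix.mul_assoc, f1, Matrix.mul_smul]
  have g2 : t • X * (X⁻¹ * A * (e : ℂ) • Bᴴ) = t • ((e : ℂ) • (A * Bᴴ)) := by
    rw [Matrix.smul_mul, ← Matrix.mul_assoc, f1, Matrix.mul_smul]
  have g3 : t • Y * (Y⁻¹ * B * (e : ℂ) • Aᴴ) = t • ((e : ℂ) • (B * Aᴴ)) := by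
    rw [Matrix.smul_mul, ← Matrix.mul_assoc, f2, Matrix.mul_smul]
  have g4 : t • Y * (Y⁻¹ * B * (c2 : ℂ) • Bᴴ) = t • ((c2 : ℂ) • (B * Bᴴ)) := by
    rw [Matrix.smul_mul, ← Matrix.mul_assoc, f2, Matrix.mul_smul]
  simp only [Matrix.zero_mul, add_zero, zero_add, Matrix.mul_add,
    Matrix.mul_one, g1, g2, g3, g4]
  rw [htX, htY]
  congr 1
  · rw [smul_add]; abel
  · rw [smul_add]; abel

end Vale.Agent.P358.Gen
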