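import Vale.Agent.P358.EntRel

/-! P358, module K2: matrix AM–GM with truncation. -/

open Matrix Finset
open scoped ComplexOrder

namespace Vale.Agent.P358.Gen

section fnc
variable {k : Type} [Fintype k] [DecidableEq k]

/-- functional calculus of a Hermitian matrix -/
noncomputable def fn {X : Matrix k k ℂ} (hX : X.IsHermitian) (f : ℝ → ℝ) : Matrix k k ℂ :=
  (hX.eigenvectorUnitary : Matrix k k ℂ) *
    diagonal (fun i => ((f (hX.eigenvalues i) : ℝ) : ℂ)) *
    star (hX.eigenvectorUnitary : Matrix k k ℂ)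

variable {X : Matrix k k ℂ} (hX : X.IsHermitian)

theorem fn_id : fn hX (fun r => r) = X := by
  have h := hX.spectral_theorem
  rw [Unitary.conjStarAlgAut_apply] at h
  exact h.symm

theorem fn_congr {f g : ℝ → ℝ} (h : ∀ i, f (hX.eigenvalues i) = g (hX.eigenvalues i)) :
    fn hX f = fn hX g := by
  unfold fn
  congr 3
  ext i
  rw [h i]

theorem fn_mul (f g : ℝ → ℝ) : fn hX f * fn hX g = fn hX (fun r => f r * g r) := by
  have hUU : star (hX.eigenvectorUnitary : Matrix k k ℂ) * (hX.eigenvectorUnitary : Matrix k k ℂ) =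
      1 := Unitary.coe_star_mul_self hX.eigenvectorUnitary
  unfold fn
  set U : Matrix k k ℂ := (hX.eigenvectorUnitary : Matrix k k ℂ)
  calc U * diagonal (fun i => ((f (hX.eigenvalues i) : ℝ) : ℂ)) * star U *
        (U * diagonal (fun i => ((g (hX.eigenvalues i) : ℝ) : ℂ)) * star U)
      = U * diagonal (fun i => ((f (hX.eigenvalues i) : ℝ) : ℂ)) * (star U * U) *
        diagonal (fun i => ((g (hX.eigenvalues i) : ℝ) : ℂ)) * star U := by
        simp only [Matrix.mul_assoc]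
    _ = _ := by
        rw [hUU, Matrix.mul_one, Matrix.mul_assoc U, diagonal_mul_diagonal]
        congr 3
        ext i
        push_cast
        rfl

theorem fn_add (f g : ℝ → ℝ) : fn hX f + fn hX g = fn hX (fun r => f r + g r) := by
  unfold fn
  rw [← Matrix.add_mul, ← Matrix.mul_add, diagonal_add]
  congr 3
  ext i
  push_cast
  rfl

theorem fn_sub (f g : ℝ → ℝ) : fn hX f - fn hX g = fn hX (fun r => f r - g r) := by
  unfold fn
  rw [← Matrix.sub_mul, ← Matrix.mul_sub, diagonal_sub]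
  congr 3
  ext i
  push_cast
  rfl

theorem fn_smul (c : ℝ) (f : ℝ → ℝ) : (c : ℂ) • fn hX f = fn hX (fun r => c * f r) := by
  unfold fn
  rw [← Matrix.smul_mul, ← Matrix.mul_smul, ← diagonal_smul]
  congr 3
  ext i
  simp

theorem fn_one : fn hX (fun _ => 1) = 1 := by
  unfold fn
  have hUU : (hX.eigenvectorUnitary : Matrix k k ℂ) * star (hX.eigenvectorUnitary : Matrix k k ℂ) =
      1 := Unitary.coe_mul_star_self hX.eigenvectorUnitary
  simp only [Complex.ofReal_one, diagonal_one, Matrix.mul_one]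
  exact hUU

theorem fn_const (c : ℝ) : fn hX (fun _ => c) = (c : ℂ) • 1 := by
  rw [← fn_one hX, fn_smul]
  simp

theorem fn_det (f : ℝ → ℝ) : (fn hX f).det = ((∏ i, f (hX.eigenvalues i) : ℝ) : ℂ) := by
  unfold fn
  have hUU : star (hX.eigenvectorUnitary : Matrix k k ℂ) * (hX.eigenvectorUnitary : Matrix k k ℂ) =
      1 := Unitary.coe_star_mul_self hX.eigenvectorUnitary
  rw [det_mul, det_mul, mul_right_comm, ← det_mul, mul_comm, det_diagonal]
  have h1 : ((hX.eigenvectorUnitary : Matrix k k ℂ) *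
      star (hX.eigenvectorUnitary : Matrix k k ℂ)).det = 1 := by
    rw [det_mul, mul_comm, ← det_mul, hUU, det_one]
  rw [h1, mul_one]
  push_cast
  rfl

theorem fn_posSemidef {f : ℝ → ℝ} (h : ∀ i, 0 ≤ f (hX.eigenvalues i)) :
    (fn hX f).PosSemidef := by
  unfold fn
  apply PosSemidef.mul_mul_conjTranspose_same
  apply PosSemidef.diagonal
  intro i
  show (0 : ℂ) ≤ ((f (hX.eigenvalues i) : ℝ) : ℂ)
  exact_mod_cast h i

theorem fn_posDef {f : ℝ → ℝ} (h : ∀ i, 0 < f (hX.eigenvalues i)) :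
    (fn hX f).PosDef := by
  rw [(fn_posSemidef hX fun i => (h i).le).posDef_iff_det_ne_zero, fn_det]
  have : 0 < ∏ i, f (hX.eigenvalues i) := Finset.prod_pos fun i _ => h i
  exact_mod_cast this.ne'

open scoped MatrixOrder in
theorem exists_factor' {R : Matrix k k ℂ} (hR : R.PosSemidef) : ∃ B : Matrix k k ℂ, R = Bᴴ * B := by
  obtain ⟨B, hB⟩ := CStarAlgebra.nonneg_iff_eq_star_mul_self.mp hR.nonneg
  exact ⟨B, hB⟩

/-- `det (1 + E) ≥ 1` -/
theorem det_one_add_ge {E : Matrix k k ℂ} (hE : E.PosSemidef) :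
    ∃ y : ℝ, 1 ≤ y ∧ (1 + E).det = (y : ℂ) := by
  refine ⟨∏ i, (1 + hE.1.eigenvalues i), ?_, ?_⟩
  · calc (1 : ℝ) = ∏ _i : k, (1 : ℝ) := by simp
      _ ≤ ∏ i, (1 + hE.1.eigenvalues i) := by
        apply Finset.prod_le_prod
        · intro i _; norm_num
        · intro i _
          have := hE.eigenvalues_nonneg i
          linarith
  · have h1 : (1 + E) = fn hE.1 (fun r => 1 + r) := by
      rw [← fn_add hE.1 (fun _ => 1) (fun r => r), fn_one, fn_id]
    rw [h1, fn_det]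

/-- `det (P + D) ≥ det P` -/
theorem det_add_ge {P D : Matrix k k ℂ} (hP : P.PosDef) (hD : D.PosSemidef) :
    ∃ y : ℝ, 1 ≤ y ∧ (P + D).det = P.det * y := by
  obtain ⟨C, hC⟩ := exists_factor' hP.posSemidef
  have hdet : P.det ≠ 0 := (hP.det_pos).ne'
  have hCd : C.det ≠ 0 := by
    intro h
    apply hdet
    rw [hC, det_mul, h, mul_zero]
  have hCu : IsUnit C.det := isUnit_iff_ne_zero.2 hCd
  have hC1 : C⁻¹ * C = 1 := nonsing_inv_mul C hCu
  have hE : ((C⁻¹)ᴴ * D * C⁻¹).PosSemidef := hD.conjTranspose_mul_mul_same C⁻¹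
  obtain ⟨y, hy, hy2⟩ := det_one_add_ge hE
  refine ⟨y, hy, ?_⟩
  have h1 : P + D = Cᴴ * (1 + (C⁻¹)ᴴ * D * C⁻¹) * C := by
    have h2 : Cᴴ * (C⁻¹)ᴴ = 1 := by
      rw [← conjTranspose_mul, hC1, conjTranspose_one]
    calc P + D = Cᴴ * C + (Cᴴ * (C⁻¹)ᴴ) * D * (C⁻¹ * C) := by
          rw [← hC, h2, hC1, Matrix.one_mul, Matrix.mul_one]
      _ = Cᴴ * (1 + (C⁻¹)ᴴ * D * C⁻¹) * C := by
          simp only [Matrix.mul_add, Matrix.add_mul, Matrix.mul_one, Matrix.mul_assoc]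
  rw [h1, det_mul, det_mul, hy2]
  conv_rhs => rw [hC, det_mul]
  ring

/-- monotonicity of `det (1 + M K)` in `M` -/
theorem det_one_add_mul_mono {M0 M1 K : Matrix k k ℂ} (h0 : M0.PosSemidef)
    (h1 : (M1 - M0).PosSemidef) (hK : K.PosSemidef) :
    ∃ x0 x1 : ℝ, 1 ≤ x0 ∧ x0 ≤ x1 ∧ (1 + M0 * K).det = (x0 : ℂ) ∧ (1 + M1 * K).det = (x1 : ℂ) := by
  obtain ⟨C, hC⟩ := exists_factor' hK
  have e : ∀ M : Matrix k k ℂ, (1 + M * K).det = (1 + C * M * Cᴴ).det := by
    intro M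
    rw [hC, ← Matrix.mul_assoc, det_one_add_mul_comm, ← Matrix.mul_assoc]
  have hX0 : (C * M0 * Cᴴ).PosSemidef := h0.mul_mul_conjTranspose_same C
  have hD : (C * (M1 - M0) * Cᴴ).PosSemidef := h1.mul_mul_conjTranspose_same C
  obtain ⟨x0, hx0, hx0'⟩ := det_one_add_ge hX0
  have hP : (1 + C * M0 * Cᴴ).PosDef := PosDef.one.add_posSemidef hX0
  obtain ⟨y, hy, hy'⟩ := det_add_ge hP hD
  refine ⟨x0, x0 * y, hx0, by nlinarith, by rw [e, hx0'], ?_⟩
  rw [e]
  have : 1 + C * M1 * Cᴴ = 1 + C * M0 * Cᴴ + C * (M1 - M0) * Cᴴ := by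
    rw [Matrix.mul_sub, Matrix.sub_mul]; abel
  rw [this, hy', hx0']
  push_cast; rfl

/-- the convexity step -/
theorem det_convex {B A : Matrix k k ℂ} (hB : B.PosDef) (hA : A.PosDef) {p : ℝ} (hp : 0 ≤ p)
    (hp1 : p ≤ 1) {b a : ℝ} (hb : B.det = b) (ha : A.det = a) :
    ∃ x : ℝ, 0 < x ∧ (((1 - p : ℝ) : ℂ) • 1 + (p : ℂ) • (B * A)).det = x ∧
      p * (Real.log b + Real.log a) ≤ Real.log x := by
  obtain ⟨C, hC⟩ := exists_factor' hA.posSemidef
  have hdet : A.det ≠ 0 := (hA.det_pos).ne'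
  have hCd : C.det ≠ 0 := by
    intro h
    apply hdet
    rw [hC, det_mul, h, mul_zero]
  have hCu : IsUnit C.det := isUnit_iff_ne_zero.2 hCd
  have ha0 : 0 < a := by
    have := hA.det_pos
    rw [ha] at this
    exact_mod_cast this
  have hb0 : 0 < b := by
    have := hB.det_pos
    rw [hb] at this
    exact_mod_cast this
  have hSps : (C * B * Cᴴ).PosSemidef := hB.posSemidef.mul_mul_conjTranspose_same C
  have hSdet : (C * B * Cᴴ).det = ((b * a : ℝ) : ℂ) := by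
    have h1 : A.det = Cᴴ.det * C.det := by rw [hC, det_mul]
    rw [det_mul, det_mul, hb]
    push_cast
    rw [← ha, h1]
    ring
  have hS : (C * B * Cᴴ).PosDef := by
    rw [hSps.posDef_iff_det_ne_zero, hSdet]
    have : b * a ≠ 0 := by positivity
    exact_mod_cast this
  set S := C * B * Cᴴ with hSdef
  have hsim : (((1 - p : ℝ) : ℂ) • (1 : Matrix k k ℂ) + (p : ℂ) • (B * A)).det =
      (((1 - p : ℝ) : ℂ) • (1 : Matrix k k ℂ) + (p : ℂ) • S).det := by
    have h1 : C * (((1 - p : ℝ) : ℂ) • (1 : Matrix k k ℂ) + (p : ℂ) • (B * A)) =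
        (((1 - p : ℝ) : ℂ) • (1 : Matrix k k ℂ) + (p : ℂ) • S) * C := by
      rw [hSdef, hC]
      simp only [Matrix.mul_add, Matrix.add_mul, Matrix.mul_smul, Matrix.smul_mul, Matrix.mul_one,
        Matrix.one_mul, Matrix.mul_assoc]
    have h2 := congrArg Matrix.det h1
    rw [det_mul, det_mul, mul_comm] at h2
    exact mul_right_cancel₀ hCd h2
  have hfn : ((1 - p : ℝ) : ℂ) • (1 : Matrix k k ℂ) + (p : ℂ) • S =
      fn hS.1 (fun r => (1 - p) + p * r) := by
    rw [← fn_add hS.1 (fun _ => 1 - p) (fun r => p * r), fn_const, ← fn_smul hS.1 p (fun r => r),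
      fn_id]
  have hμ : ∀ i, 0 < hS.1.eigenvalues i := fun i => hS.eigenvalues_pos i
  have hpos : ∀ i, 0 < (1 - p) + p * hS.1.eigenvalues i := by
    intro i
    have := hμ i
    rcases eq_or_lt_of_le hp with h | h
    · rw [← h]; norm_num
    · have : 0 < p * hS.1.eigenvalues i := mul_pos h this
      linarith
  refine ⟨∏ i, ((1 - p) + p * hS.1.eigenvalues i), Finset.prod_pos fun i _ => hpos i, ?_, ?_⟩
  · rw [hsim, hfn, fn_det]
  · have hprod : ∏ i, hS.1.eigenvalues i = b * a := by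
      have h1 := fn_det hS.1 (fun r => r)
      rw [fn_id, hSdet] at h1
      exact_mod_cast h1.symm
    rw [← Real.log_mul hb0.ne' ha0.ne', ← hprod, Real.log_prod (fun i _ => (hμ i).ne'),
      Real.log_prod (fun i _ => (hpos i).ne'), Finset.mul_sum]
    apply Finset.sum_le_sum
    intro i _
    have h1 := Real.geom_mean_le_arith_mean2_weighted (by linarith : 0 ≤ 1 - p) hp
      (zero_le_one) (hμ i).le (by ring)
    rw [Real.one_rpow, one_mul, mul_one] at h1
    rw [← Real.log_rpow (hμ i)]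
    exact Real.log_le_log (Real.rpow_pos_of_pos (hμ i) _) h1

end fnc

theorem det_ineq {k : Type} [Fintype k] [DecidableEq k] (M L : Matrix k k ℂ) (hM : M.PosSemidef)
    (hL : L.PosSemidef)
    {c0 c2 c13 p up um tp tm : ℝ} (τ1 τ2 : ℝ → ℝ)
    (h0 : 0 ≤ c0) (h2 : 0 ≤ c2) (h13 : 0 ≤ c13) (hp : 0 ≤ p) (hp1 : p ≤ 1)
    (e0 : (1 - p) * up + p * um = c0) (e2 : (1 - p) * tm + p * tp = c2)
    (e13 : (1 - p) * (up * tm) + p * (um * tp) = c13)
    (hτ1 : ∀ r, 0 ≤ r → 0 ≤ τ1 r ∧ τ1 r ≤ r ∧ 0 < 1 + up * τ1 r ∧ 0 < 1 + um * τ1 r)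
    (hτ2 : ∀ r, 0 ≤ r → 0 ≤ τ2 r ∧ τ2 r ≤ r ∧ 0 < 1 + tp * τ2 r ∧ 0 < 1 + tm * τ2 r) :
    ∑ i, ((1 - p) * Real.log (1 + up * τ1 (hM.1.eigenvalues i))
        + p * Real.log (1 + um * τ1 (hM.1.eigenvalues i)))
      + ∑ i, ((1 - p) * Real.log (1 + tm * τ2 (hL.1.eigenvalues i))
        + p * Real.log (1 + tp * τ2 (hL.1.eigenvalues i))) ≤
      Real.log (1 + (c0 : ℂ) • M + (c2 : ℂ) • L + (c13 : ℂ) • (M * L)).det.re := by
  have hm : ∀ i, 0 ≤ hM.1.eigenvalues i := hM.eigenvalues_nonneg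
  have hl : ∀ i, 0 ≤ hL.1.eigenvalues i := hL.eigenvalues_nonneg
  set M0 := fn hM.1 τ1 with hM0
  set L0 := fn hL.1 τ2 with hL0
  have hM0p : M0.PosSemidef := fn_posSemidef _ fun i => (hτ1 _ (hm i)).1
  have hL0p : L0.PosSemidef := fn_posSemidef _ fun i => (hτ2 _ (hl i)).1
  have hMM0 : (M - M0).PosSemidef := by
    have : M - M0 = fn hM.1 (fun r => r - τ1 r) := by
      rw [← fn_sub hM.1 (fun r => r) τ1, fn_id]
    rw [this]
    exact fn_posSemidef _ fun i => sub_nonneg.2 (hτ1 _ (hm i)).2.1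
  have hLL0 : (L - L0).PosSemidef := by
    have : L - L0 = fn hL.1 (fun r => r - τ2 r) := by
      rw [← fn_sub hL.1 (fun r => r) τ2, fn_id]
    rw [this]
    exact fn_posSemidef _ fun i => sub_nonneg.2 (hτ2 _ (hl i)).2.1
  let F : Matrix k k ℂ → Matrix k k ℂ → ℂ := fun M L =>
    (1 + (c0 : ℂ) • M + (c2 : ℂ) • L + (c13 : ℂ) • (M * L)).det
  -- (i) monotonicity in `M`
  have hi : ∃ x0 x1 : ℝ, x0 ≤ x1 ∧ F M0 L0 = x0 ∧ F M L0 = x1 := by
    set K := fn hL.1 (fun r => (c0 + c13 * τ2 r) / (1 + c2 * τ2 r)) with hK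
    have hKp : K.PosSemidef := fn_posSemidef _ fun i => by
      have := (hτ2 _ (hl i)).1
      positivity
    have hKL : K * (1 + (c2 : ℂ) • L0) = (c0 : ℂ) • 1 + (c13 : ℂ) • L0 := by
      have e1 : (1 + (c2 : ℂ) • L0) = fn hL.1 (fun r => 1 + c2 * τ2 r) := by
        rw [← fn_add hL.1 (fun _ => 1) (fun r => c2 * τ2 r), fn_one, ← fn_smul]
      have e2 : (c0 : ℂ) • (1 : Matrix k k ℂ) + (c13 : ℂ) • L0 =
          fn hL.1 (fun r => c0 + c13 * τ2 r) := by
        rw [← fn_add hL.1 (fun _ => c0) (fun r => c13 * τ2 r), fn_const, ← fn_smul]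
      rw [e1, e2, hK, fn_mul]
      apply fn_congr
      intro i
      have := (hτ2 _ (hl i)).1
      have : 0 < 1 + c2 * τ2 (hL.1.eigenvalues i) := by positivity
      field_simp
    obtain ⟨x0, x1, hx0, hx01, hx0', hx1'⟩ := det_one_add_mul_mono hM0p hMM0 hKp
    obtain ⟨y, hy, hy'⟩ := det_one_add_ge
      (E := (c2 : ℂ) • L0) (hL0p.smul (by exact_mod_cast h2))
    have hfac : ∀ M' : Matrix k k ℂ, F M' L0 = (1 + M' * K).det * (1 + (c2 : ℂ) • L0).det := by
      intro M'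
      simp only [F]
      rw [← det_mul]
      congr 1
      rw [Matrix.add_mul, Matrix.one_mul, Matrix.mul_assoc, hKL, Matrix.mul_add, Matrix.mul_smul,
        Matrix.mul_smul, Matrix.mul_one]
      abel
    refine ⟨x0 * y, x1 * y, by nlinarith, ?_, ?_⟩
    · rw [hfac, hx0', hy']; push_cast; rfl
    · rw [hfac, hx1', hy']; push_cast; rfl
  -- (ii) monotonicity in `L`
  have hii : ∃ x0 x1 : ℝ, x0 ≤ x1 ∧ F M L0 = x0 ∧ F M L = x1 := by
    set K := fn hM.1 (fun r => (c2 + c13 * r) / (1 + c0 * r)) with hK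
    have hKp : K.PosSemidef := fn_posSemidef _ fun i => by
      have := hm i
      positivity
    have hKM : (1 + (c0 : ℂ) • M) * K = (c2 : ℂ) • 1 + (c13 : ℂ) • M := by
      have e1 : (1 + (c0 : ℂ) • M) = fn hM.1 (fun r => 1 + c0 * r) := by
        rw [← fn_add hM.1 (fun _ => 1) (fun r => c0 * r), fn_one, ← fn_smul hM.1 c0 (fun r => r),
          fn_id]
      have e2 : (c2 : ℂ) • (1 : Matrix k k ℂ) + (c13 : ℂ) • M =
          fn hM.1 (fun r => c2 + c13 * r) := by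
        rw [← fn_add hM.1 (fun _ => c2) (fun r => c13 * r), fn_const,
          ← fn_smul hM.1 c13 (fun r => r), fn_id]
      rw [e1, e2, hK, fn_mul]
      apply fn_congr
      intro i
      have := hm i
      have : 0 < 1 + c0 * hM.1.eigenvalues i := by positivity
      field_simp
    obtain ⟨x0, x1, hx0, hx01, hx0', hx1'⟩ := det_one_add_mul_mono hL0p hLL0 hKp
    obtain ⟨y, hy, hy'⟩ := det_one_add_ge
      (E := (c0 : ℂ) • M) (hM.smul (by exact_mod_cast h0))
    have hfac : ∀ L' : Matrix k k ℂ, F M L' = (1 + (c0 : ℂ) • M).det * (1 + L' * K).det := by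
      intro L'
      simp only [F]
      rw [det_one_add_mul_comm, ← det_mul]
      congr 1
      rw [Matrix.mul_add, Matrix.mul_one, ← Matrix.mul_assoc, hKM, Matrix.add_mul, Matrix.smul_mul,
        Matrix.smul_mul, Matrix.one_mul]
      abel
    refine ⟨y * x0, y * x1, by nlinarith, ?_, ?_⟩
    · rw [hfac, hx0', hy']; push_cast; rfl
    · rw [hfac, hx1', hy']; push_cast; rfl
  obtain ⟨x0, x1, hx01, hx0, hx1⟩ := hi
  obtain ⟨x1', x2, hx12, hx1', hx2⟩ := hii
  have hx11 : x1 = x1' := by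
    have : (x1 : ℂ) = x1' := by rw [← hx1, ← hx1']
    exact_mod_cast this
  -- (iii) the truncated matrices
  have hPp : ∀ i, 0 < 1 + up * τ1 (hM.1.eigenvalues i) := fun i => (hτ1 _ (hm i)).2.2.1
  have hPm : ∀ i, 0 < 1 + um * τ1 (hM.1.eigenvalues i) := fun i => (hτ1 _ (hm i)).2.2.2
  have hQp : ∀ i, 0 < 1 + tp * τ2 (hL.1.eigenvalues i) := fun i => (hτ2 _ (hl i)).2.2.1
  have hQm : ∀ i, 0 < 1 + tm * τ2 (hL.1.eigenvalues i) := fun i => (hτ2 _ (hl i)).2.2.2
  set Pp := fn hM.1 (fun r => 1 + up * τ1 r) with hPpd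
  set Pm := fn hM.1 (fun r => 1 + um * τ1 r) with hPmd
  set Qp := fn hL.1 (fun r => 1 + tp * τ2 r) with hQpd
  set Qm := fn hL.1 (fun r => 1 + tm * τ2 r) with hQmd
  set B := fn hM.1 (fun r => (1 + um * τ1 r) / (1 + up * τ1 r)) with hBd
  set A := fn hL.1 (fun r => (1 + tp * τ2 r) / (1 + tm * τ2 r)) with hAd
  have hPB : Pm = Pp * B := by
    rw [hPmd, hPpd, hBd, fn_mul]
    apply fn_congr
    intro i
    exact (mul_div_cancel₀ _ (hPp i).ne').symm
  have hAQ : Qp = A * Qm := by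
    rw [hQmd, hQpd, hAd, fn_mul]
    apply fn_congr
    intro i
    exact (div_mul_cancel₀ _ (hQm i).ne').symm
  have hB : B.PosDef := fn_posDef _ fun i => div_pos (hPm i) (hPp i)
  have hA : A.PosDef := fn_posDef _ fun i => div_pos (hQp i) (hQm i)
  have hPpe : Pp = 1 + (up : ℂ) • M0 := by
    rw [hPpd, ← fn_add hM.1 (fun _ => 1) (fun r => up * τ1 r), fn_one, ← fn_smul]
  have hPme : Pm = 1 + (um : ℂ) • M0 := by
    rw [hPmd, ← fn_add hM.1 (fun _ => 1) (fun r => um * τ1 r), fn_one, ← fn_smul]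
  have hQpe : Qp = 1 + (tp : ℂ) • L0 := by
    rw [hQpd, ← fn_add hL.1 (fun _ => 1) (fun r => tp * τ2 r), fn_one, ← fn_smul]
  have hQme : Qm = 1 + (tm : ℂ) • L0 := by
    rw [hQmd, ← fn_add hL.1 (fun _ => 1) (fun r => tm * τ2 r), fn_one, ← fn_smul]
  have hsplit : (1 + (c0 : ℂ) • M0 + (c2 : ℂ) • L0 + (c13 : ℂ) • (M0 * L0)) =
      Pp * (((1 - p : ℝ) : ℂ) • 1 + (p : ℂ) • (B * A)) * Qm := by
    have e1 : Pp * (((1 - p : ℝ) : ℂ) • 1 + (p : ℂ) • (B * A)) * Qm =
        ((1 - p : ℝ) : ℂ) • (Pp * Qm) + (p : ℂ) • (Pm * Qp) := by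
      rw [hPB, hAQ]
      simp only [Matrix.mul_add, Matrix.add_mul, Matrix.mul_smul, Matrix.smul_mul, Matrix.mul_one,
        Matrix.mul_assoc]
    rw [e1, hPpe, hPme, hQpe, hQme]
    have f0 : (c0 : ℂ) = (1 - p) * up + p * um := by rw [← e0]; push_cast; rfl
    have f2 : (c2 : ℂ) = (1 - p) * tm + p * tp := by rw [← e2]; push_cast; rfl
    have f13 : (c13 : ℂ) = (1 - p) * (up * tm) + p * (um * tp) := by rw [← e13]; push_cast; rfl
    rw [f0, f2, f13]
    simp only [Matrix.mul_add, Matrix.add_mul, Matrix.mul_smul, Matrix.smul_mul, Matrix.mul_one,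
      Matrix.one_mul, smul_add, smul_smul]
    push_cast
    module
  obtain ⟨x, hx, hxd, hxlog⟩ := det_convex hB hA hp hp1 (fn_det _ _) (fn_det _ _)
  have hx0e : x0 = (∏ i, (1 + up * τ1 (hM.1.eigenvalues i))) * x *
      ∏ i, (1 + tm * τ2 (hL.1.eigenvalues i)) := by
    have h1 : F M0 L0 = ((((∏ i, (1 + up * τ1 (hM.1.eigenvalues i))) * x *
      ∏ i, (1 + tm * τ2 (hL.1.eigenvalues i)) : ℝ)) : ℂ) := by
      simp only [F]
      rw [hsplit, det_mul, det_mul, hxd, hPpd, hQmd, fn_det, fn_det]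
      push_cast; rfl
    rw [hx0] at h1
    exact_mod_cast h1
  have hPpp : 0 < ∏ i, (1 + up * τ1 (hM.1.eigenvalues i)) := Finset.prod_pos fun i _ => hPp i
  have hQmp : 0 < ∏ i, (1 + tm * τ2 (hL.1.eigenvalues i)) := Finset.prod_pos fun i _ => hQm i
  have hx0pos : 0 < x0 := by rw [hx0e]; positivity
  have hfinal : Real.log x0 ≤
      Real.log (1 + (c0 : ℂ) • M + (c2 : ℂ) • L + (c13 : ℂ) • (M * L)).det.re := by
    have : (1 + (c0 : ℂ) • M + (c2 : ℂ) • L + (c13 : ℂ) • (M * L)).det = (x2 : ℂ) := hx2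
    rw [this, Complex.ofReal_re]
    apply Real.log_le_log hx0pos
    linarith
  refine le_trans ?_ hfinal
  rw [hx0e, Real.log_mul (by positivity) (by positivity), Real.log_mul (by positivity) hx.ne',
    Real.log_prod (fun i _ => (hPp i).ne'), Real.log_prod (fun i _ => (hQm i).ne')]
  have hlogb : Real.log (∏ i, ((1 + um * τ1 (hM.1.eigenvalues i)) /
      (1 + up * τ1 (hM.1.eigenvalues i)))) = ∑ i, Real.log (1 + um * τ1 (hM.1.eigenvalues i)) -
      ∑ i, Real.log (1 + up * τ1 (hM.1.eigenvalues i)) := by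
    rw [Real.log_prod (fun i _ => (div_pos (hPm i) (hPp i)).ne'), ← Finset.sum_sub_distrib]
    exact Finset.sum_congr rfl fun i _ => Real.log_div (hPm i).ne' (hPp i).ne'
  have hloga : Real.log (∏ i, ((1 + tp * τ2 (hL.1.eigenvalues i)) /
      (1 + tm * τ2 (hL.1.eigenvalues i)))) = ∑ i, Real.log (1 + tp * τ2 (hL.1.eigenvalues i)) -
      ∑ i, Real.log (1 + tm * τ2 (hL.1.eigenvalues i)) := by
    rw [Real.log_prod (fun i _ => (div_pos (hQp i) (hQm i)).ne'), ← Finset.sum_sub_distrib]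
    exact Finset.sum_congr rfl fun i _ => Real.log_div (hQp i).ne' (hQm i).ne'
  rw [hlogb, hloga] at hxlog
  simp only [Finset.sum_add_distrib, ← Finset.mul_sum]
  linarith

end Vale.Agent.P358.Gen
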