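import Vale.Agent.P358.Defs

/-! Entropy calculus through `log det (1 + X/t)`. -/

open Matrix Finset Filter Topology
open scoped ComplexOrder

namespace Vale.Agent.P358

variable {ι κ : Type*} [Fintype ι] [DecidableEq ι] [Fintype κ] [DecidableEq κ]

/-- `φ t = log det (1 + X/t)`-type functions with trace `τ` and entropy `e`. -/
def EntRel (φ : ℝ → ℝ) (τ e : ℝ) : Prop :=
  ∃ G : ℝ → ℝ, ContinuousOn G (Set.Ici 0) ∧ G 0 = -e ∧ (∀ t, 0 < t → HasDerivAt G (φ t) t) ∧
    Filter.Tendsto (fun t => G t - τ * (Real.log t + 1)) Filter.atTop (nhds 0)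

theorem EntRel.scalar {x : ℝ} (hx : 0 ≤ x) :
    EntRel (fun t => Real.log (1 + x / t)) x (Real.negMulLog x) := by
  refine ⟨fun t => -Real.negMulLog (t + x) + Real.negMulLog t, ?_, ?_, ?_, ?_⟩
  · have h1 : Continuous Real.negMulLog := Real.continuous_negMulLog
    exact (by fun_prop : Continuous fun t : ℝ => -Real.negMulLog (t + x) + Real.negMulLog t).continuousOn
  · simp
  · intro t ht
    have h1 : HasDerivAt (fun t : ℝ => Real.negMulLog (t + x)) (-Real.log (t + x) - 1) t := by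
      have := Real.hasDerivAt_negMulLog (x := t + x) (by positivity)
      simpa using this.comp_add_const t x
    have h2 := (Real.hasDerivAt_negMulLog ht.ne')
    have h3 := h1.neg.add h2
    have h4 : -(-Real.log (t + x) - 1) + (-Real.log t - 1) = Real.log (1 + x / t) := by
      have : 1 + x / t = (t + x) / t := by field_simp
      rw [this, Real.log_div (by positivity) ht.ne']
      ring
    show HasDerivAt (fun t => -(t + x).negMulLog + t.negMulLog) (Real.log (1 + x / t)) t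
    rw [← h4]
    exact h3
  · have h1 : Tendsto (fun t : ℝ => t * Real.log (1 + x / t)) atTop (𝓝 x) :=
      Real.tendsto_mul_log_one_add_div_atTop x
    have h2 : Tendsto (fun t : ℝ => 1 + x / t) atTop (𝓝 (1 + 0)) :=
      tendsto_const_nhds.add (tendsto_const_nhds.div_atTop tendsto_id)
    have h3 := (h2.mul h1).sub (tendsto_const_nhds (x := x))
    simp only [add_zero, one_mul, sub_self] at h3
    refine h3.congr' ?_
    filter_upwards [eventually_gt_atTop 0] with t ht
    have : 1 + x / t = (t + x) / t := by field_simp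
    rw [this, Real.log_div (by positivity) ht.ne', Real.negMulLog, Real.negMulLog]
    field_simp
    ring

theorem EntRel.congr {φ ψ : ℝ → ℝ} {τ e : ℝ} (h : EntRel φ τ e) (hφ : ∀ t, 0 < t → ψ t = φ t) :
    EntRel ψ τ e := by
  obtain ⟨G, h1, h2, h3, h4⟩ := h
  exact ⟨G, h1, h2, fun t ht => by rw [hφ t ht]; exact h3 t ht, h4⟩

theorem EntRel.zero : EntRel (fun _ => 0) 0 0 :=
  ⟨fun _ => 0, continuousOn_const, by simp, fun t _ => hasDerivAt_const t 0, by simp⟩

theorem EntRel.add {φ ψ : ℝ → ℝ} {τ e τ' e' : ℝ} (h : EntRel φ τ e) (h' : EntRel ψ τ' e') :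
    EntRel (fun t => φ t + ψ t) (τ + τ') (e + e') := by
  obtain ⟨G, h1, h2, h3, h4⟩ := h
  obtain ⟨G', h1', h2', h3', h4'⟩ := h'
  refine ⟨fun t => G t + G' t, h1.add h1', by simp [h2, h2']; ring,
    fun t ht => (h3 t ht).add (h3' t ht), ?_⟩
  have := h4.add h4'
  rw [add_zero] at this
  refine this.congr fun t => by ring

theorem EntRel.smul {φ : ℝ → ℝ} {τ e : ℝ} (h : EntRel φ τ e) (c : ℝ) :
    EntRel (fun t => c * φ t) (c * τ) (c * e) := by
  obtain ⟨G, h1, h2, h3, h4⟩ := h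
  refine ⟨fun t => c * G t, continuousOn_const.mul h1, by simp [h2],
    fun t ht => (h3 t ht).const_mul c, ?_⟩
  have := h4.const_mul c
  rw [mul_zero] at this
  refine this.congr fun t => by ring

theorem EntRel.sub {φ ψ : ℝ → ℝ} {τ e τ' e' : ℝ} (h : EntRel φ τ e) (h' : EntRel ψ τ' e') :
    EntRel (fun t => φ t - ψ t) (τ - τ') (e - e') := by
  have := h.add (h'.smul (-1))
  convert this using 1
  · ext t; ring
  · ring
  · ring

theorem EntRel.sum {α : Type*} (s : Finset α) {φ : α → ℝ → ℝ} {τ e : α → ℝ}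
    (h : ∀ a ∈ s, EntRel (φ a) (τ a) (e a)) :
    EntRel (fun t => ∑ a ∈ s, φ a t) (∑ a ∈ s, τ a) (∑ a ∈ s, e a) := by
  classical
  induction s using Finset.induction_on with
  | empty => simpa using EntRel.zero
  | insert a s ha ih =>
    simp only [Finset.sum_insert ha]
    exact (h a (by simp)).add (ih fun b hb => h b (by simp [hb]))

theorem EntRel.nonneg {φ : ℝ → ℝ} {e : ℝ} (h : EntRel φ 0 e) (hφ : ∀ t, 0 < t → 0 ≤ φ t) :
    0 ≤ e := by
  obtain ⟨G, h1, h2, h3, h4⟩ := h
  have hmono : MonotoneOn G (Set.Ici 0) := by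
    refine monotoneOn_of_deriv_nonneg (convex_Ici 0) h1 ?_ ?_
    · rw [interior_Ici]
      exact fun t ht => (h3 t ht).differentiableAt.differentiableWithinAt
    · rw [interior_Ici]
      intro t ht
      rw [(h3 t ht).deriv]
      exact hφ t ht
  have h5 : Tendsto G atTop (𝓝 0) := by simpa using h4
  have h6 : G 0 ≤ 0 := by
    refine ge_of_tendsto h5 ?_
    filter_upwards [eventually_ge_atTop 0] with t ht
    exact hmono (by simp) ht ht
  linarith

/-- `φ` determines the trace and the entropy. -/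
theorem EntRel.unique {φ ψ : ℝ → ℝ} {τ e τ' e' : ℝ} (h : EntRel φ τ e) (h' : EntRel ψ τ' e')
    (hφ : ∀ t, 0 < t → φ t = ψ t) : τ = τ' ∧ e = e' := by
  have h0 : EntRel (fun _ => 0) (τ - τ') (e - e') :=
    (h.sub h').congr fun t ht => by rw [hφ t ht, sub_self]
  obtain ⟨G, h1, h2, h3, h4⟩ := h0
  have hc : ∀ t, 0 ≤ t → G t = G 0 := by
    intro t ht
    have hmono : MonotoneOn G (Set.Ici 0) := by
      refine monotoneOn_of_deriv_nonneg (convex_Ici 0) h1 ?_ ?_
      · rw [interior_Ici]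
        exact fun t ht => (h3 t ht).differentiableAt.differentiableWithinAt
      · rw [interior_Ici]
        intro t ht
        rw [(h3 t ht).deriv]
    have hanti : AntitoneOn G (Set.Ici 0) := by
      refine antitoneOn_of_deriv_nonpos (convex_Ici 0) h1 ?_ ?_
      · rw [interior_Ici]
        exact fun t ht => (h3 t ht).differentiableAt.differentiableWithinAt
      · rw [interior_Ici]
        intro t ht
        rw [(h3 t ht).deriv]
    exact le_antisymm (hanti (by simp) ht ht) (hmono (by simp) ht ht)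
  have h5 : Tendsto (fun t => G 0 - (τ - τ') * (Real.log t + 1)) atTop (𝓝 0) := by
    refine h4.congr' ?_
    filter_upwards [eventually_ge_atTop 0] with t ht
    rw [hc t ht]
  have h6 : Tendsto (fun t : ℝ => Real.log t + 1) atTop atTop :=
    tendsto_atTop_add_const_right _ _ Real.tendsto_log_atTop
  have h7 : τ - τ' = 0 := by
    by_contra hne
    have h8 : Tendsto (fun t : ℝ => (G 0 - (τ - τ') * (Real.log t + 1)) / (Real.log t + 1)) atTop
        (𝓝 0) := h5.div_atTop h6
    have h9 : Tendsto (fun t : ℝ => G 0 / (Real.log t + 1) - (τ - τ')) atTop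
        (𝓝 (0 - (τ - τ'))) := (tendsto_const_nhds.div_atTop h6).sub tendsto_const_nhds
    have h10 : Tendsto (fun t : ℝ => (G 0 - (τ - τ') * (Real.log t + 1)) / (Real.log t + 1)) atTop
        (𝓝 (0 - (τ - τ'))) := by
      refine h9.congr' ?_
      filter_upwards [h6.eventually_gt_atTop 0] with t ht
      field_simp
    have := tendsto_nhds_unique h8 h10
    apply hne
    linarith
  rw [h7] at h5
  simp only [zero_mul, sub_zero] at h5
  have h8 := tendsto_nhds_unique h5 tendsto_const_nhds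
  refine ⟨by linarith, by linarith⟩

/-- `det (1 + c X)` in terms of the eigenvalues. -/
theorem det_one_add_smul {X : Matrix ι ι ℂ} (hX : X.IsHermitian) (c : ℂ) :
    (1 + c • X).det = ∏ i, (1 + c * (hX.eigenvalues i : ℂ)) := by
  have h := hX.spectral_theorem
  rw [Unitary.conjStarAlgAut_apply] at h
  set U : Matrix ι ι ℂ := (hX.eigenvectorUnitary : Matrix ι ι ℂ) with hU
  have hUU : star U * U = 1 := Unitary.coe_star_mul_self hX.eigenvectorUnitary
  conv_lhs => rw [h]
  rw [show c • (U * diagonal (RCLike.ofReal ∘ hX.eigenvalues) * star U) =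
    (U * (c • diagonal (RCLike.ofReal ∘ hX.eigenvalues))) * star U by simp]
  rw [det_one_add_mul_comm, ← mul_assoc, hUU, one_mul, ← diagonal_one, ← diagonal_smul,
    diagonal_add, det_diagonal]
  simp

theorem ent_of_isHermitian {X : Matrix ι ι ℂ} (hX : X.IsHermitian) :
    ent X = ∑ i, Real.negMulLog (hX.eigenvalues i) := by
  rw [ent, dif_pos hX]

theorem det_re_eq {X : Matrix ι ι ℂ} (hX : X.PosSemidef) {t : ℝ} (_ht : 0 < t) :
    (1 + ((t⁻¹ : ℝ) : ℂ) • X).det = ((∏ i, (1 + hX.1.eigenvalues i / t) : ℝ) : ℂ) := by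
  rw [det_one_add_smul hX.1]
  push_cast
  refine Finset.prod_congr rfl fun i _ => ?_
  rw [div_eq_inv_mul]

theorem prod_eig_pos {X : Matrix ι ι ℂ} (hX : X.PosSemidef) {t : ℝ} (ht : 0 < t) :
    0 < ∏ i, (1 + hX.1.eigenvalues i / t) := by
  refine Finset.prod_pos fun i _ => ?_
  have := hX.eigenvalues_nonneg i
  positivity

theorem EntRel.ent {X : Matrix ι ι ℂ} (hX : X.PosSemidef) :
    EntRel (fun t => Real.log (1 + ((t⁻¹ : ℝ) : ℂ) • X).det.re) X.trace.re (ent X) := by
  have h1 : EntRel (fun t => ∑ i, Real.log (1 + hX.1.eigenvalues i / t))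
      (∑ i, hX.1.eigenvalues i) (∑ i, Real.negMulLog (hX.1.eigenvalues i)) :=
    EntRel.sum _ fun i _ => EntRel.scalar (hX.eigenvalues_nonneg i)
  have h2 : X.trace.re = ∑ i, hX.1.eigenvalues i := by
    rw [hX.1.trace_eq_sum_eigenvalues]
    simp
  rw [ent_of_isHermitian hX.1, h2]
  refine h1.congr fun t ht => ?_
  rw [det_re_eq hX ht, Complex.ofReal_re, Real.log_prod]
  intro i _
  have := hX.eigenvalues_nonneg i
  positivity

/-- equal determinants give equal entropies and traces -/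
theorem ent_eq_of_det' {X : Matrix ι ι ℂ} {Y : Matrix κ κ ℂ} (hX : X.PosSemidef)
    (hY : Y.PosSemidef)
    (h : ∀ t : ℝ, 0 < t → (1 + ((t⁻¹ : ℝ) : ℂ) • X).det = (1 + ((t⁻¹ : ℝ) : ℂ) • Y).det) :
    X.trace.re = Y.trace.re ∧ ent X = ent Y :=
  (EntRel.ent hX).unique (EntRel.ent hY) fun t ht => by rw [h t ht]

theorem ent_eq_of_det {X : Matrix ι ι ℂ} {Y : Matrix κ κ ℂ} (hX : X.PosSemidef)
    (hY : Y.PosSemidef)
    (h : ∀ t : ℝ, 0 < t → (1 + ((t⁻¹ : ℝ) : ℂ) • X).det = (1 + ((t⁻¹ : ℝ) : ℂ) • Y).det) :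
    ent X = ent Y := (ent_eq_of_det' hX hY h).2

theorem ent_mul_conjTranspose (M : Matrix ι κ ℂ) : ent (M * Mᴴ) = ent (Mᴴ * M) := by
  refine ent_eq_of_det (posSemidef_self_mul_conjTranspose M)
    (posSemidef_conjTranspose_mul_self M) fun t _ => ?_
  rw [← Matrix.smul_mul, det_one_add_mul_comm, Matrix.mul_smul]

theorem ent_submatrix_equiv (e : κ ≃ ι) {X : Matrix ι ι ℂ} (hX : X.PosSemidef) :
    ent (X.submatrix e e) = ent X := by
  refine ent_eq_of_det (hX.submatrix e) hX fun t _ => ?_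
  rw [← det_submatrix_equiv_self e (1 + ((t⁻¹ : ℝ) : ℂ) • X)]
  congr 1
  ext i j
  simp [Matrix.one_apply]

theorem ent_smul {c : ℝ} (hc : 0 ≤ c) {X : Matrix ι ι ℂ} (hX : X.PosSemidef) :
    ent ((c : ℂ) • X) = c * ent X + Real.negMulLog c * X.trace.re := by
  have hcX : ((c : ℂ) • X).PosSemidef := hX.smul (by exact_mod_cast hc)
  have h1 : EntRel (fun t => ∑ i, Real.log (1 + (c * hX.1.eigenvalues i) / t))
      (∑ i, c * hX.1.eigenvalues i) (∑ i, Real.negMulLog (c * hX.1.eigenvalues i)) :=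
    EntRel.sum _ fun i _ => EntRel.scalar (mul_nonneg hc (hX.eigenvalues_nonneg i))
  have h2 := ((EntRel.ent hcX).unique h1 ?_).2
  · rw [h2, ent_of_isHermitian hX.1]
    have h3 : X.trace.re = ∑ i, hX.1.eigenvalues i := by
      rw [hX.1.trace_eq_sum_eigenvalues]
      simp
    rw [h3, Finset.mul_sum, Finset.mul_sum, ← Finset.sum_add_distrib]
    refine Finset.sum_congr rfl fun i _ => ?_
    rw [Real.negMulLog_mul]
    ring
  · intro t ht
    rw [← Real.log_prod, smul_smul, det_one_add_smul hX.1]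
    · congr 1
      rw [show (∏ i, (1 + ((t⁻¹ : ℝ) : ℂ) * (c : ℂ) * (hX.1.eigenvalues i : ℂ))) =
        ((∏ i, (1 + c * hX.1.eigenvalues i / t) : ℝ) : ℂ) by
          push_cast
          refine Finset.prod_congr rfl fun i _ => ?_
          ring]
      rw [Complex.ofReal_re]
    · intro i _
      have := hX.eigenvalues_nonneg i
      positivity

theorem ent_diagonal (d : ι → ℝ) (hd : ∀ i, 0 ≤ d i) :
    ent (diagonal fun i => (d i : ℂ)) = ∑ i, Real.negMulLog (d i) := by
  have hX : (diagonal fun i => (d i : ℂ)).PosSemidef :=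
    PosSemidef.diagonal fun i => by
      show (0 : ℂ) ≤ (d i : ℂ)
      exact_mod_cast hd i
  have h1 : EntRel (fun t => ∑ i, Real.log (1 + d i / t))
      (∑ i, d i) (∑ i, Real.negMulLog (d i)) :=
    EntRel.sum _ fun i _ => EntRel.scalar (hd i)
  refine ((EntRel.ent hX).unique h1 ?_).2
  intro t ht
  rw [← Real.log_prod]
  · congr 1
    rw [← diagonal_one, ← diagonal_smul, diagonal_add, det_diagonal]
    rw [show (∏ i, (1 + (((t⁻¹ : ℝ) : ℂ) • fun i => (d i : ℂ)) i)) =
        ((∏ i, (1 + d i / t) : ℝ) : ℂ) by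
          push_cast
          refine Finset.prod_congr rfl fun i _ => ?_
          simp [div_eq_inv_mul]]
    rw [Complex.ofReal_re]
  · intro i _
    have := hd i
    positivity

theorem eta2_aux {w D : ℝ} (hw : 0 ≤ w) (hD : 0 ≤ D) (h4 : 4 * D ≤ w ^ 2) :
    0 ≤ (w - √(w ^ 2 - 4 * D)) / 2 ∧ 0 ≤ (w + √(w ^ 2 - 4 * D)) / 2 ∧
    (w + √(w ^ 2 - 4 * D)) / 2 + (w - √(w ^ 2 - 4 * D)) / 2 = w ∧
    (w + √(w ^ 2 - 4 * D)) / 2 * ((w - √(w ^ 2 - 4 * D)) / 2) = D := by
  have h1 : √(w ^ 2 - 4 * D) ≤ w := by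
    rw [Real.sqrt_le_left hw]
    linarith
  have h2 : √(w ^ 2 - 4 * D) ^ 2 = w ^ 2 - 4 * D := Real.sq_sqrt (by linarith)
  have h3 := Real.sqrt_nonneg (w ^ 2 - 4 * D)
  refine ⟨by linarith, by linarith, by ring, ?_⟩
  nlinarith

/-- `eta2` as an entropy -/
theorem EntRel.eta2 {w D : ℝ} (hw : 0 ≤ w) (hD : 0 ≤ D) (h4 : 4 * D ≤ w ^ 2) :
    EntRel (fun t => Real.log (1 + w / t + D / t ^ 2)) w (eta2 w D) := by
  obtain ⟨h1, h2, h3, h5⟩ := eta2_aux hw hD h4
  have h := (EntRel.scalar h2).add (EntRel.scalar h1)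
  rw [h3] at h
  refine h.congr fun t ht => ?_
  rw [← Real.log_mul (by positivity) (by positivity)]
  congr 1
  set a := (w + √(w ^ 2 - 4 * D)) / 2
  set b := (w - √(w ^ 2 - 4 * D)) / 2
  rw [← h3, ← h5]
  field_simp
  ring

/-- entropy of a 2×2 matrix -/
theorem ent_two {X : Matrix (Fin 2) (Fin 2) ℂ} (hX : X.PosSemidef) :
    ent X = eta2 X.trace.re X.det.re := by
  have hd := hX.1.det_eq_prod_eigenvalues
  have ht := hX.1.trace_eq_sum_eigenvalues
  rw [Fin.prod_univ_two] at hd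
  rw [Fin.sum_univ_two] at ht
  have h0 := hX.eigenvalues_nonneg 0
  have h1 := hX.eigenvalues_nonneg 1
  have hd' : X.det.re = hX.1.eigenvalues 0 * hX.1.eigenvalues 1 := by
    rw [hd, ← Complex.ofReal_re (hX.1.eigenvalues 0 * hX.1.eigenvalues 1)]
    push_cast
    rfl
  have ht' : X.trace.re = hX.1.eigenvalues 0 + hX.1.eigenvalues 1 := by
    rw [ht, ← Complex.ofReal_re (hX.1.eigenvalues 0 + hX.1.eigenvalues 1)]
    push_cast
    rfl
  have hE := EntRel.ent hX
  have hE2 : EntRel (fun t => Real.log (1 + X.trace.re / t + X.det.re / t ^ 2)) X.trace.re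
      (P358.eta2 X.trace.re X.det.re) := by
    refine EntRel.eta2 (by rw [ht']; positivity) (by rw [hd']; positivity) ?_
    rw [ht', hd']
    nlinarith [sq_nonneg (hX.1.eigenvalues 0 - hX.1.eigenvalues 1)]
  refine (hE.unique hE2 fun t ht0 => ?_).2
  rw [det_re_eq hX ht0, Complex.ofReal_re, Fin.prod_univ_two, ht', hd']
  congr 1
  field_simp
  ring

end Vale.Agent.P358
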