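import Vale.Agent.P358.Defs

/-!
# Marginal weights of a state of `n` qubits
-/

open Matrix Finset
open scoped ComplexOrder

namespace Vale.Agent.P358

/-- weight of the value `z` of the `i`-th qubit -/
noncomputable def wt {n : ℕ} (ρ : Matrix (Qb n) (Qb n) ℂ) (i : Fin n) (z : Fin 2) : ℝ :=
  ∑ a with a i = z, (ρ a a).re

theorem sum_wt {n : ℕ} (ρ : Matrix (Qb n) (Qb n) ℂ) (i : Fin n) :
    ∑ z, wt ρ i z = ρ.trace.re := by
  simp only [wt]
  rw [Finset.sum_fiberwise, Matrix.trace, Complex.re_sum]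
  rfl

theorem wt_nonneg {n : ℕ} {ρ : Matrix (Qb n) (Qb n) ℂ} (hρ : ρ.PosSemidef) (i : Fin n)
    (z : Fin 2) : 0 ≤ wt ρ i z := by
  refine Finset.sum_nonneg fun a _ => ?_
  have := (Complex.le_def.1 (hρ.diag_nonneg (i := a))).1
  simpa using this

end Vale.Agent.P358
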