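import Vale.Agent.P358.EntRel
import Vale.Agent.P358.Wt

/-!
# The entropy is at most the sum of the marginal binary entropies
-/

open Matrix Finset
open scoped ComplexOrder

namespace Vale.Agent.P358

section

variable {ι : Type*} [Fintype ι] [DecidableEq ι]

/-- pinching to the diagonal does not decrease the entropy -/
theorem ent_le_diag {X : Matrix ι ι ℂ} (hX : X.PosSemidef) :
    ent X ≤ ∑ i, Real.negMulLog (X i i).re := by
  rw [ent_of_isHermitian hX.1]
  have h := hX.1.spectral_theorem
  rw [Unitary.conjStarAlgAut_apply] at h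
  set U : Matrix ι ι ℂ := (hX.1.eigenvectorUnitary : Matrix ι ι ℂ) with hU
  set lam := hX.1.eigenvalues with hlam
  have hUU : star U * U = 1 := Unitary.coe_star_mul_self hX.1.eigenvectorUnitary
  have hUU' : U * star U = 1 := Unitary.coe_mul_star_self hX.1.eigenvectorUnitary
  have hrow : ∀ i, ∑ j, ‖U i j‖ ^ 2 = 1 := by
    intro i
    have h1 := congrFun (congrFun hUU' i) i
    rw [Matrix.mul_apply, Matrix.one_apply_eq] at h1
    have h2 : ∀ j, U i j * (star U) j i = ((‖U i j‖ ^ 2 : ℝ) : ℂ) := by
      intro j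
      rw [Matrix.star_apply, Complex.star_def, Complex.mul_conj, Complex.normSq_eq_norm_sq]
    simp only [h2] at h1
    exact_mod_cast h1
  have hcol : ∀ j, ∑ i, ‖U i j‖ ^ 2 = 1 := by
    intro j
    have h1 := congrFun (congrFun hUU j) j
    rw [Matrix.mul_apply, Matrix.one_apply_eq] at h1
    have h2 : ∀ i, (star U) j i * U i j = ((‖U i j‖ ^ 2 : ℝ) : ℂ) := by
      intro i
      rw [Matrix.star_apply, Complex.star_def, mul_comm, Complex.mul_conj,
        Complex.normSq_eq_norm_sq]
    simp only [h2] at h1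
    exact_mod_cast h1
  have hdiag : ∀ i, (X i i).re = ∑ j, ‖U i j‖ ^ 2 • lam j := by
    intro i
    have h1 : X i i = (U * diagonal (RCLike.ofReal ∘ lam : ι → ℂ) * star U) i i :=
      congrFun (congrFun h i) i
    rw [Matrix.mul_apply] at h1
    have h2 : ∀ j, (U * diagonal (RCLike.ofReal ∘ lam : ι → ℂ)) i j * (star U) j i =
        ((‖U i j‖ ^ 2 • lam j : ℝ) : ℂ) := by
      intro j
      rw [Matrix.mul_diagonal, Matrix.star_apply, Complex.star_def]
      have h3 : U i j * (starRingEnd ℂ) (U i j) = ((‖U i j‖ ^ 2 : ℝ) : ℂ) := by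
        rw [Complex.mul_conj, Complex.normSq_eq_norm_sq]
      rw [smul_eq_mul, Complex.ofReal_mul, ← h3]
      simp only [Function.comp_apply, Complex.coe_algebraMap]
      ring
    simp only [h2] at h1
    rw [h1, ← Complex.ofReal_sum, Complex.ofReal_re]
  have hjen : ∀ i, ∑ j, ‖U i j‖ ^ 2 • Real.negMulLog (lam j) ≤ Real.negMulLog (X i i).re := by
    intro i
    rw [hdiag i]
    exact Real.concaveOn_negMulLog.le_map_sum (fun j _ => by positivity) (hrow i)
      (fun j _ => Set.mem_Ici.2 (hX.eigenvalues_nonneg j))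
  calc ∑ j, Real.negMulLog (lam j) = ∑ j, (∑ i, ‖U i j‖ ^ 2) * Real.negMulLog (lam j) := by
        refine Finset.sum_congr rfl fun j _ => ?_
        rw [hcol j, one_mul]
    _ = ∑ i, ∑ j, ‖U i j‖ ^ 2 • Real.negMulLog (lam j) := by
        simp only [Finset.sum_mul, smul_eq_mul]
        rw [Finset.sum_comm]
    _ ≤ _ := Finset.sum_le_sum fun i _ => hjen i

end

/-- classical subadditivity -/
theorem classical_subadd {n : ℕ} (p : Qb n → ℝ) (hp : ∀ a, 0 ≤ p a) (h1 : ∑ a, p a = 1) :
    ∑ a, Real.negMulLog (p a) ≤ ∑ i, ∑ z, Real.negMulLog (∑ a with a i = z, p a) := by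
  set m : Fin n → Fin 2 → ℝ := fun i z => ∑ a with a i = z, p a with hm
  have hm0 : ∀ i z, 0 ≤ m i z := fun i z => Finset.sum_nonneg fun a _ => hp a
  have hms : ∀ i, ∑ z, m i z = 1 := by
    intro i
    simp only [hm]
    rw [Finset.sum_fiberwise, h1]
  have hpm : ∀ a i, p a ≤ m i (a i) := by
    intro a i
    exact Finset.single_le_sum (f := p) (fun b _ => hp b) (by simp)
  have hpt : ∀ a, Real.negMulLog (p a) ≤
      (-p a * ∑ i, Real.log (m i (a i))) + (∏ i, m i (a i) - p a) := by
    intro a
    rcases (hp a).eq_or_lt with h0 | h0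
    · rw [← h0]
      have : 0 ≤ ∏ i, m i (a i) := Finset.prod_nonneg fun i _ => hm0 i _
      simpa using this
    · have hpos : ∀ i, 0 < m i (a i) := fun i => h0.trans_le (hpm a i)
      have hq : 0 < ∏ i, m i (a i) := Finset.prod_pos fun i _ => hpos i
      rw [← Real.log_prod (fun i _ => (hpos i).ne')]
      set q := ∏ i, m i (a i) with hqd
      have h2 := Real.log_le_sub_one_of_pos (div_pos hq h0)
      rw [Real.log_div hq.ne' h0.ne'] at h2
      have h3 := mul_le_mul_of_nonneg_left h2 h0.le
      have h4 : p a * (q / p a - 1) = q - p a := by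
        field_simp
      rw [h4] at h3
      rw [Real.negMulLog]
      linarith
  have hsum : ∑ a : Qb n, ∏ i, m i (a i) = 1 := by
    have := Finset.prod_univ_sum (fun _ : Fin n => (Finset.univ : Finset (Fin 2)))
      (fun i z => m i z)
    rw [Fintype.piFinset_univ] at this
    rw [← this]
    simp [hms]
  calc ∑ a, Real.negMulLog (p a) ≤
      ∑ a, ((-p a * ∑ i, Real.log (m i (a i))) + (∏ i, m i (a i) - p a)) :=
        Finset.sum_le_sum fun a _ => hpt a
    _ = ∑ a, (-p a * ∑ i, Real.log (m i (a i))) := by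
        rw [Finset.sum_add_distrib, Finset.sum_sub_distrib, hsum, h1]; ring
    _ = ∑ i, ∑ a, (-p a * Real.log (m i (a i))) := by
        simp only [Finset.mul_sum]
        rw [Finset.sum_comm]
    _ = ∑ i, ∑ z, Real.negMulLog (m i z) := by
        refine Finset.sum_congr rfl fun i _ => ?_
        rw [← Finset.sum_fiberwise (s := (Finset.univ : Finset (Qb n))) (g := fun a => a i)]
        refine Finset.sum_congr rfl fun z _ => ?_
        rw [Real.negMulLog]
        simp only [hm]
        rw [← Finset.sum_neg_distrib, Finset.sum_mul]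
        refine Finset.sum_congr rfl fun a ha => ?_
        rw [(Finset.mem_filter.1 ha).2]

theorem ent_le_marginals {n : ℕ} {ρ : Matrix (Qb n) (Qb n) ℂ} (hρ : IsState ρ) :
    ent ρ ≤ ∑ i, (Real.negMulLog (wt ρ i 0) + Real.negMulLog (wt ρ i 1)) := by
  refine (ent_le_diag hρ.1).trans ?_
  have h := classical_subadd (fun a => (ρ a a).re) (fun a => by
    have := (Complex.le_def.1 (hρ.1.diag_nonneg (i := a))).1
    simpa using this) (by
    have h2 := congrArg Complex.re hρ.2
    rw [Matrix.trace, Complex.re_sum] at h2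
    simpa using h2)
  refine h.trans (le_of_eq ?_)
  refine Finset.sum_congr rfl fun i _ => ?_
  rw [Fin.sum_univ_two]
  rfl

end Vale.Agent.P358
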