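import Vale.Agent.P358.Tens
import Vale.Agent.P358.Upper
import Vale.Agent.P358.Attain

/-! Assembly: capacity of `gad γ ν` from the key inequality. -/

open Matrix Finset
open scoped ComplexOrder

namespace Vale.Agent.P358

/-- The one-use rate (in bits) of the phase pair with excitation `q`. -/
noncomputable def rate (γ ν q : ℝ) : ℝ :=
  (Real.binEntropy ((1 - γ) * q + γ * ν) - sg γ ν (1 - q) q) / Real.log 2

/-- `max_q rate`. -/
noncomputable def maxRate (γ ν : ℝ) : ℝ := sSup (rate γ ν '' Set.Icc 0 1)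

variable {γ ν : ℝ}

theorem rate_le_one (hγ : 0 ≤ γ) (hγ1 : γ ≤ 1) (hν : 0 ≤ ν) (hν1 : ν ≤ 1) {q : ℝ}
    (hq : q ∈ Set.Icc (0 : ℝ) 1) : rate γ ν q ≤ 1 := by
  have h2 : 0 < Real.log 2 := Real.log_pos (by norm_num)
  rw [rate, div_le_one h2]
  have h1 := Real.binEntropy_le_log_two (p := (1 - γ) * q + γ * ν)
  have h3 := sg_nonneg hγ hγ1 hν hν1 (sub_nonneg.2 hq.2) hq.1
  linarith

theorem bddAbove_rate (hγ : 0 ≤ γ) (hγ1 : γ ≤ 1) (hν : 0 ≤ ν) (hν1 : ν ≤ 1) :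
    BddAbove (rate γ ν '' Set.Icc 0 1) := by
  refine ⟨1, ?_⟩
  rintro _ ⟨q, hq, rfl⟩
  exact rate_le_one hγ hγ1 hν hν1 hq

theorem le_maxRate (hγ : 0 ≤ γ) (hγ1 : γ ≤ 1) (hν : 0 ≤ ν) (hν1 : ν ≤ 1) {q : ℝ}
    (hq : q ∈ Set.Icc (0 : ℝ) 1) : rate γ ν q ≤ maxRate γ ν :=
  le_csSup (bddAbove_rate hγ hγ1 hν hν1) ⟨q, hq, rfl⟩

theorem sg_sum_le (hγ : 0 ≤ γ) (hγ1 : γ ≤ 1) (hν : 0 ≤ ν) (hν1 : ν ≤ 1) {α : Type*}
    (s : Finset α) (p k : α → ℝ) (hp : ∀ a ∈ s, 0 ≤ p a) (hk : ∀ a ∈ s, 0 ≤ k a) :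
    sg γ ν (∑ a ∈ s, p a) (∑ a ∈ s, k a) ≤ ∑ a ∈ s, sg γ ν (p a) (k a) := by
  classical
  induction s using Finset.induction_on with
  | empty =>
    have := sg_smul (γ := γ) (ν := ν) (c := 0) le_rfl 0 0
    simp only [zero_mul] at this
    simp [this]
  | insert a s ha ih =>
    rw [Finset.sum_insert ha, Finset.sum_insert ha, Finset.sum_insert ha]
    refine (sg_subadd hγ hγ1 hν hν1 (hp a (by simp)) (hk a (by simp))
      (Finset.sum_nonneg fun b hb => hp b (by simp [hb]))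
      (Finset.sum_nonneg fun b hb => hk b (by simp [hb]))).trans ?_
    gcongr
    exact ih (fun b hb => hp b (by simp [hb])) (fun b hb => hk b (by simp [hb]))

theorem wt_sum_smul {n m : ℕ} (w : Fin m → ℝ) (ρ : Fin m → Matrix (Qb n) (Qb n) ℂ) (i : Fin n)
    (z : Fin 2) : wt (∑ a, (w a : ℂ) • ρ a) i z = ∑ a, w a * wt (ρ a) i z := by
  simp only [wt, Matrix.sum_apply, Matrix.smul_apply, smul_eq_mul, Complex.re_sum,
    Complex.re_ofReal_mul, Finset.mul_sum]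
  rw [Finset.sum_comm]

/-- the upper bound for every ensemble -/
theorem holevo_upper (hγ : 0 ≤ γ) (hγ1 : γ ≤ 1) (hν : 0 ≤ ν) (hν1 : ν ≤ 1) (hK : Key γ ν) (n : ℕ)
    {x : ℝ} (hx : x ∈ holevoSet (tpow (gad γ ν) n)) : x ≤ n * maxRate γ ν := by
  obtain ⟨m, w, ρ, hw0, hw1, hρ, rfl⟩ := hx
  have h2 : 0 < Real.log 2 := Real.log_pos (by norm_num)
  have htr : ∀ a, (ρ a).trace.re = 1 := fun a => by rw [(hρ a).2]; simp
  set σ : Matrix (Qb n) (Qb n) ℂ := ∑ a, (w a : ℂ) • tpow (gad γ ν) n (ρ a) with hσ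
  have hσs : IsState σ := by
    refine ⟨posSemidef_sum _ fun a _ => ?_, ?_⟩
    · exact (tpow_posSemidef hγ hγ1 hν hν1 (hρ a).1).smul (by exact_mod_cast hw0 a)
    · rw [hσ, Matrix.trace_sum]
      simp only [Matrix.trace_smul, tpow_trace, (hρ _).2, smul_eq_mul, mul_one]
      exact_mod_cast hw1
  set kk : Fin n → ℝ := fun i => ∑ a, w a * wt (ρ a) i 1 with hkk
  have hwt01 : ∀ a i, wt (ρ a) i 0 = 1 - wt (ρ a) i 1 := by
    intro a i
    have := sum_wt (ρ a) i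
    rw [htr a, Fin.sum_univ_two] at this
    linarith
  have hwt0 : ∀ a i z, 0 ≤ wt (ρ a) i z := fun a i z => wt_nonneg (hρ a).1 i z
  have hkk0 : ∀ i, 0 ≤ kk i := fun i => Finset.sum_nonneg fun a _ => mul_nonneg (hw0 a) (hwt0 a i 1)
  have hkk1 : ∀ i, kk i ≤ 1 := by
    intro i
    rw [← hw1]
    refine Finset.sum_le_sum fun a _ => ?_
    have := hwt0 a i 0
    rw [hwt01] at this
    nlinarith [hw0 a]
  have hσ1 : ∀ i, wt σ i 1 = (1 - γ) * kk i + γ * ν := by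
    intro i
    rw [hσ, wt_sum_smul]
    simp only [wt_tpow, htr, mul_one]
    rw [hkk]
    simp only [mul_add, Finset.sum_add_distrib]
    rw [← Finset.sum_mul, hw1, Finset.mul_sum]
    congr 1
    · exact Finset.sum_congr rfl fun a _ => by ring
    · ring
  have hσ0 : ∀ i, wt σ i 0 = 1 - wt σ i 1 := by
    intro i
    have := sum_wt σ i
    rw [hσs.2, Fin.sum_univ_two] at this
    simp only [Complex.one_re] at this
    linarith
  have hup : ent σ ≤ ∑ i, Real.binEntropy ((1 - γ) * kk i + γ * ν) := by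
    refine (ent_le_marginals hσs).trans (le_of_eq ?_)
    refine Finset.sum_congr rfl fun i _ => ?_
    rw [hσ0, hσ1, Real.binEntropy_eq_negMulLog_add_negMulLog_one_sub]
    ring
  have hlow : ∑ i, sg γ ν (1 - kk i) (kk i) ≤ ∑ a, w a * ent (tpow (gad γ ν) n (ρ a)) := by
    have h1 : ∀ a, ∑ i, sg γ ν (w a * wt (ρ a) i 0) (w a * wt (ρ a) i 1) ≤
        w a * ent (tpow (gad γ ν) n (ρ a)) := by
      intro a
      simp only [sg_smul (hw0 a)]
      rw [← Finset.mul_sum]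
      refine mul_le_mul_of_nonneg_left ?_ (hw0 a)
      have := ent_tpow_ge hγ hγ1 hν hν1 hK (hρ a).1
      rw [htr a] at this
      simpa using this
    refine le_trans ?_ (Finset.sum_le_sum fun a _ => h1 a)
    rw [Finset.sum_comm]
    refine Finset.sum_le_sum fun i _ => ?_
    have h3 := sg_sum_le hγ hγ1 hν hν1 Finset.univ (fun a => w a * wt (ρ a) i 0)
      (fun a => w a * wt (ρ a) i 1) (fun a _ => mul_nonneg (hw0 a) (hwt0 a i 0))
      (fun a _ => mul_nonneg (hw0 a) (hwt0 a i 1))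
    have h4 : ∑ a, w a * wt (ρ a) i 0 = 1 - kk i := by
      rw [hkk, ← hw1]
      simp only [hwt01, mul_sub, mul_one, Finset.sum_sub_distrib]
    rw [h4] at h3
    exact h3
  rw [div_le_iff₀ h2]
  have hfin : ∑ i : Fin n, (Real.binEntropy ((1 - γ) * kk i + γ * ν) - sg γ ν (1 - kk i) (kk i)) ≤
      ∑ _i : Fin n, maxRate γ ν * Real.log 2 := by
    refine Finset.sum_le_sum fun i _ => ?_
    have := le_maxRate hγ hγ1 hν hν1 (q := kk i) ⟨hkk0 i, hkk1 i⟩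
    rw [rate, div_le_iff₀ h2] at this
    exact this
  rw [Finset.sum_sub_distrib, Finset.sum_const, Finset.card_univ, Fintype.card_fin,
    nsmul_eq_mul] at hfin
  calc ent σ - ∑ a, w a * ent (tpow (gad γ ν) n (ρ a)) ≤
      ∑ i, Real.binEntropy ((1 - γ) * kk i + γ * ν) - ∑ i, sg γ ν (1 - kk i) (kk i) := by linarith
    _ ≤ n * (maxRate γ ν * Real.log 2) := hfin
    _ = n * maxRate γ ν * Real.log 2 := by ring

theorem maxRate_isLUB (hγ : 0 ≤ γ) (hγ1 : γ ≤ 1) (hν : 0 ≤ ν) (hν1 : ν ≤ 1) (hK : Key γ ν)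
    (n : ℕ) : IsLUB (holevoSet (tpow (gad γ ν) n)) (n * maxRate γ ν) := by
  refine ⟨fun x hx => holevo_upper hγ hγ1 hν hν1 hK n hx, fun b hb => ?_⟩
  have h1 : ∀ q ∈ Set.Icc (0 : ℝ) 1, n * rate γ ν q ≤ b := by
    intro q hq
    have := hb (attain hγ hγ1 hν hν1 n hq.1 hq.2)
    rw [rate, ← mul_div_assoc]
    exact this
  rcases Nat.eq_zero_or_pos n with h0 | h0
  · subst h0
    have := h1 0 (by simp)
    simpa using this
  · have hn : (0 : ℝ) < n := by exact_mod_cast h0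
    rw [mul_comm, ← le_div_iff₀ hn]
    refine csSup_le ⟨_, ⟨0, by simp, rfl⟩⟩ ?_
    rintro _ ⟨q, hq, rfl⟩
    rw [le_div_iff₀ hn, mul_comm]
    exact h1 q hq

/-- everything from the key inequality -/
theorem result_of_key (hγ : 0 ≤ γ) (hγ1 : γ ≤ 1) (hν : 0 ≤ ν) (hν1 : ν ≤ 1) (hK : Key γ ν) :
    (∀ n, IsLUB (holevoSet (tpow (gad γ ν) n)) (n * holevo (gad γ ν))) ∧
      capacity (gad γ ν) = holevo (gad γ ν) ∧
      IsLUB (rate γ ν '' Set.Icc 0 1) (holevo (gad γ ν)) := by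
  have h1 : holevo (gad γ ν) = maxRate γ ν := by
    rw [holevo, ← holevoSet_tpow_one γ ν]
    have := (maxRate_isLUB hγ hγ1 hν hν1 hK 1).csSup_eq ⟨_, attain hγ hγ1 hν hν1 1 le_rfl zero_le_one⟩
    simpa using this
  rw [h1]
  refine ⟨fun n => maxRate_isLUB hγ hγ1 hν hν1 hK n, ?_, ?_⟩
  · rw [capacity]
    have h2 : ∀ n : ℕ, holevo (tpow (gad γ ν) (n + 1)) / (n + 1) = maxRate γ ν := by
      intro n
      have := (maxRate_isLUB hγ hγ1 hν hν1 hK (n + 1)).csSup_eq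
        ⟨_, attain hγ hγ1 hν hν1 (n + 1) le_rfl zero_le_one⟩
      rw [holevo, this]
      push_cast
      field_simp
    simp [h2]
  · exact isLUB_csSup ⟨_, ⟨0, by simp, rfl⟩⟩ (bddAbove_rate hγ hγ1 hν hν1)

theorem rate_eq (γ ν q : ℝ) : rate γ ν q =
    (Real.binEntropy ((1 - γ) * q + γ * ν)
      - eta2 1 ((1 - γ) * γ * (q - ν) ^ 2 + γ * ν * (1 - ν))) / Real.log 2 := by
  rw [rate, sg, detOut]
  simp

/-- final form -/
theorem final_of_key (hγ : 0 ≤ γ) (hγ1 : γ ≤ 1) (hν : 0 ≤ ν) (hν1 : ν ≤ 1) (hK : Key γ ν) :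
    capacity (gad γ ν) = holevo (gad γ ν) ∧
      (∀ n, IsLUB (holevoSet (tpow (gad γ ν) n)) (n * holevo (gad γ ν))) ∧
      IsLUB ((fun q : ℝ => (Real.binEntropy ((1 - γ) * q + γ * ν)
        - eta2 1 ((1 - γ) * γ * (q - ν) ^ 2 + γ * ν * (1 - ν))) / Real.log 2) '' Set.Icc 0 1)
        (holevo (gad γ ν)) ∧
      (∀ n, ∀ ρ : Matrix (Qb n) (Qb n) ℂ, IsState ρ → IsState (tpow (gad γ ν) n ρ)) := by
  obtain ⟨h1, h2, h3⟩ := result_of_key hγ hγ1 hν hν1 hK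
  refine ⟨h2, h1, ?_, fun n ρ hρ => ⟨tpow_posSemidef hγ hγ1 hν hν1 hρ.1, ?_⟩⟩
  · have : (fun q : ℝ => (Real.binEntropy ((1 - γ) * q + γ * ν)
        - eta2 1 ((1 - γ) * γ * (q - ν) ^ 2 + γ * ν * (1 - ν))) / Real.log 2) = rate γ ν := by
      ext q
      rw [rate_eq]
    rw [this]
    exact h3
  · rw [tpow_trace, hρ.2]

end Vale.Agent.P358
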