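import Vale.Agent.P358.Defs

open Matrix Finset
open scoped ComplexOrder

namespace Vale.Agent.P358

/-- The key inequality (conditional entropy form). -/
def Key (γ ν : ℝ) : Prop :=
  ∀ (m k : Type) [Fintype m] [DecidableEq m] [Fintype k] [DecidableEq k] (A B : Matrix m k ℂ),
    ent (A * Aᴴ) + ent (B * Bᴴ) - Real.negMulLog (A * Aᴴ).trace.re
        - Real.negMulLog (B * Bᴴ).trace.re
        + eta2 ((A * Aᴴ).trace.re + (B * Bᴴ).trace.re)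
            (detOut γ ν (A * Aᴴ).trace.re (B * Bᴴ).trace.re) ≤
      ent (fromBlocks
        (((1 - γ * ν : ℝ) : ℂ) • (A * Aᴴ) + ((γ * (1 - ν) : ℝ) : ℂ) • (B * Bᴴ))
        ((√(1 - γ) : ℂ) • (A * Bᴴ))
        ((√(1 - γ) : ℂ) • (B * Aᴴ))
        (((γ * ν : ℝ) : ℂ) • (A * Aᴴ) + ((1 - γ * (1 - ν) : ℝ) : ℂ) • (B * Bᴴ)))

end Vale.Agent.P358
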