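import Mathlib

/-!
# Pinching inequality for determinants

`det (Y + A X⁻¹ A) ≥ det Y ∏ (1 + a_i² / (X_ii Y_ii))` for positive definite `X`, `Y` and a real
diagonal matrix `A = diag a`.
-/

open Matrix Finset
open scoped ComplexOrder

namespace Vale.Agent.P358

section Pin

variable {ι κ : Type*} [Fintype ι] [DecidableEq ι] [Fintype κ] [DecidableEq κ]

omit [Fintype ι] [DecidableEq ι] in
lemma herm_diag_eq {X : Matrix ι ι ℂ} (h : X.IsHermitian) (i : ι) :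
    (((X i i).re : ℝ) : ℂ) = X i i := by
  have := h.coe_re_apply_self i
  simpa using this

omit [Fintype ι] [DecidableEq ι] in
lemma posDef_diag_pos {X : Matrix ι ι ℂ} (h : X.PosDef) (i : ι) : 0 < (X i i).re := by
  have := h.diag_pos (i := i)
  rw [Complex.lt_def] at this
  simpa using this.1

/-- Cauchy-Schwarz. -/
lemma posDef_inv_quad {G : Matrix ι ι ℂ} (hG : G.PosDef) (u : ι → ℂ) (n : ι) :
    ‖u n‖ ^ 2 / (G n n).re ≤ (star u ⬝ᵥ (G⁻¹ *ᵥ u)).re := by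
  have hdet : IsUnit G.det := (Matrix.isUnit_iff_isUnit_det G).1 hG.isUnit
  have hGn : 0 < (G n n).re := posDef_diag_pos hG n
  have hGe : (((G n n).re : ℝ) : ℂ) = G n n := herm_diag_eq hG.isHermitian n
  set g : ℝ := (G n n).re with hg
  set c : ℂ := u n / (g : ℂ) with hc
  have hcu : c * (g : ℂ) = u n := by
    rw [hc, div_mul_cancel₀]
    exact_mod_cast hGn.ne'
  set e : ι → ℂ := Pi.single n 1 with he
  set w : ι → ℂ := G⁻¹ *ᵥ u - c • e with hw
  have h0 := hG.posSemidef.dotProduct_mulVec_nonneg w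
  have h1 : G *ᵥ w = u - c • (G *ᵥ e) := by
    rw [hw, Matrix.mulVec_sub, Matrix.mulVec_mulVec, Matrix.mul_nonsing_inv _ hdet,
      Matrix.one_mulVec, Matrix.mulVec_smul]
  have hinv : (G⁻¹)ᴴ = G⁻¹ := hG.isHermitian.inv
  have h2 : star (G⁻¹ *ᵥ u) = star u ᵥ* G⁻¹ := by
    rw [Matrix.star_mulVec, hinv]
  have h3 : star (G⁻¹ *ᵥ u) ⬝ᵥ u = star u ⬝ᵥ (G⁻¹ *ᵥ u) := by
    rw [h2, Matrix.dotProduct_mulVec]
  have h4 : star (G⁻¹ *ᵥ u) ⬝ᵥ (G *ᵥ e) = star (u n) := by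
    rw [h2, ← Matrix.dotProduct_mulVec, Matrix.mulVec_mulVec, Matrix.nonsing_inv_mul _ hdet,
      Matrix.one_mulVec, he, dotProduct_single]
    simp
  have h5 : star e = e := by
    rw [he]; ext i; by_cases h : i = n
    · subst h; simp
    · simp [h]
  have h6 : e ⬝ᵥ u = u n := by simp [he]
  have h7 : e ⬝ᵥ (G *ᵥ e) = (g : ℂ) := by
    simp [he, hGe]
  have h8 : star w ⬝ᵥ (G *ᵥ w) = star u ⬝ᵥ (G⁻¹ *ᵥ u) - c * star (u n) - star c * u n
      + star c * c * g := by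
    rw [h1, hw, star_sub, star_smul, h5, sub_dotProduct, dotProduct_sub, dotProduct_sub,
      dotProduct_smul, smul_dotProduct, smul_dotProduct, dotProduct_smul, h3, h4, h6, h7]
    simp only [smul_eq_mul]
    ring
  have h9 : star c * c * g = star c * u n := by rw [mul_assoc, hcu]
  have h10 : c * star (u n) = ((‖u n‖ ^ 2 / g : ℝ) : ℂ) := by
    rw [hc]
    have : u n * star (u n) = ((‖u n‖ ^ 2 : ℝ) : ℂ) := by
      rw [Complex.star_def, Complex.mul_conj, Complex.normSq_eq_norm_sq]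
    rw [div_mul_eq_mul_div, this]; push_cast; ring
  rw [h8, h9, h10] at h0
  have h11 := (Complex.le_def.1 h0).1
  simp only [Complex.zero_re, Complex.add_re, Complex.sub_re, Complex.ofReal_re] at h11
  linarith


omit [DecidableEq ι] [DecidableEq κ] [Fintype ι] [Fintype κ] in
lemma posDef_block₁₁ {A : Matrix ι ι ℂ} {B : Matrix ι κ ℂ} {C : Matrix κ ι ℂ} {D : Matrix κ κ ℂ}
    (h : (fromBlocks A B C D).PosDef) : A.PosDef := by
  have := h.submatrix (e := (Sum.inl : ι → ι ⊕ κ)) Sum.inl_injective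
  exact this

omit [DecidableEq ι] [DecidableEq κ] [Fintype ι] [Fintype κ] in
lemma posDef_block₂₂ {A : Matrix ι ι ℂ} {B : Matrix ι κ ℂ} {C : Matrix κ ι ℂ} {D : Matrix κ κ ℂ}
    (h : (fromBlocks A B C D).PosDef) : D.PosDef := by
  have := h.submatrix (e := (Sum.inr : κ → ι ⊕ κ)) Sum.inr_injective
  exact this

lemma posDef_isUnit_det {G : Matrix ι ι ℂ} (hG : G.PosDef) : IsUnit G.det :=
  (Matrix.isUnit_iff_isUnit_det G).1 hG.isUnit

lemma posDef_schur₂₂ {A : Matrix ι ι ℂ} {B : Matrix ι κ ℂ} {D : Matrix κ κ ℂ}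
    (h : (fromBlocks A B Bᴴ D).PosDef) : (A - B * D⁻¹ * Bᴴ).PosDef := by
  have hD := posDef_block₂₂ h
  let : Invertible D := hD.isUnit.invertible
  have h1 := (Matrix.PosDef.fromBlocks₂₂ A B hD).1 h.posSemidef
  rw [h1.posDef_iff_det_ne_zero]
  have h2 := Matrix.det_fromBlocks₂₂ A B Bᴴ D
  rw [Matrix.invOf_eq_nonsing_inv] at h2
  intro h3
  rw [h3, mul_zero] at h2
  exact (posDef_isUnit_det h).ne_zero h2

lemma det_schur₂₂ {A : Matrix ι ι ℂ} {B : Matrix ι κ ℂ} {C : Matrix κ ι ℂ} {D : Matrix κ κ ℂ}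
    (hD : D.PosDef) : (fromBlocks A B C D).det = D.det * (A - B * D⁻¹ * C).det := by
  let : Invertible D := hD.isUnit.invertible
  have h2 := Matrix.det_fromBlocks₂₂ A B C D
  rwa [Matrix.invOf_eq_nonsing_inv] at h2

lemma posDef_schur₁₁ {A : Matrix ι ι ℂ} {B : Matrix ι κ ℂ} {D : Matrix κ κ ℂ}
    (h : (fromBlocks A B Bᴴ D).PosDef) : (D - Bᴴ * A⁻¹ * B).PosDef := by
  have h' : (fromBlocks D Bᴴ Bᴴᴴ A).PosDef := by
    have := h.submatrix (e := Sum.swap) (Equiv.sumComm _ _).injective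
    rw [Matrix.fromBlocks_submatrix_sum_swap_sum_swap] at this
    simpa using this
  have := posDef_schur₂₂ h'
  simpa using this

/-- block inverse -/
lemma inv_fromBlocks {A : Matrix ι ι ℂ} {B : Matrix ι κ ℂ} {D : Matrix κ κ ℂ}
    (h : (fromBlocks A B Bᴴ D).PosDef) :
    (fromBlocks A B Bᴴ D)⁻¹ = fromBlocks A⁻¹ 0 0 0 +
      fromRows (-(A⁻¹ * B)) 1 * ((D - Bᴴ * A⁻¹ * B)⁻¹ * (fromRows (-(A⁻¹ * B)) 1)ᴴ) := by
  have hA := posDef_block₁₁ h
  have hS := posDef_schur₁₁ h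
  let i1 : Invertible A := hA.isUnit.invertible
  let i2 : Invertible (D - Bᴴ * ⅟A * B) := by
    rw [Matrix.invOf_eq_nonsing_inv]; exact hS.isUnit.invertible
  let i3 : Invertible (fromBlocks A B Bᴴ D) := h.isUnit.invertible
  have h1 := Matrix.invOf_fromBlocks₁₁_eq A B Bᴴ D
  simp only [Matrix.invOf_eq_nonsing_inv] at h1
  rw [h1]
  have hAi : (A⁻¹)ᴴ = A⁻¹ := hA.isHermitian.inv
  rw [Matrix.conjTranspose_fromRows_eq_fromCols_conjTranspose]
  rw [Matrix.mul_fromCols, Matrix.fromRows_mul_fromCols, Matrix.fromBlocks_add]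
  simp only [Matrix.conjTranspose_neg, Matrix.conjTranspose_mul, Matrix.conjTranspose_one, hAi]
  congr 1 <;> simp [Matrix.mul_assoc]

/-- The pinching inequality as a predicate on index types. -/
def PinP (ι : Type*) [Fintype ι] [DecidableEq ι] : Prop :=
  ∀ (X Y : Matrix ι ι ℂ) (_ : X.PosDef) (_ : Y.PosDef) (a : ι → ℝ),
    Y.det.re * ∏ i, (1 + a i ^ 2 / ((X i i).re * (Y i i).re)) ≤
      (Y + diagonal (fun i => (a i : ℂ)) * X⁻¹ * diagonal (fun i => (a i : ℂ))).det.re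

theorem PinP.of_equiv (e : ι ≃ κ) (h : PinP ι) : PinP κ := by
  intro X Y hX hY a
  have hX' : (X.submatrix e e).PosDef := hX.submatrix e.injective
  have hY' : (Y.submatrix e e).PosDef := hY.submatrix e.injective
  have hd : diagonal (fun i => (((a ∘ e) i : ℝ) : ℂ)) =
      (diagonal (fun i => ((a i : ℝ) : ℂ))).submatrix e e := by
    rw [Matrix.submatrix_diagonal_equiv]; rfl
  have hp : ∏ i, (1 + a i ^ 2 / ((X i i).re * (Y i i).re)) =
      ∏ i, (1 + (a ∘ e) i ^ 2 / ((X.submatrix e e i i).re * (Y.submatrix e e i i).re)) := by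
    rw [← e.prod_comp]; rfl
  have hm : Y.submatrix e e + diagonal (fun i => (((a ∘ e) i : ℝ) : ℂ)) * (X.submatrix e e)⁻¹ *
      diagonal (fun i => (((a ∘ e) i : ℝ) : ℂ)) =
      (Y + diagonal (fun i => (a i : ℂ)) * X⁻¹ * diagonal (fun i => (a i : ℂ))).submatrix e e := by
    rw [hd, Matrix.inv_submatrix_equiv, Matrix.submatrix_mul_equiv, Matrix.submatrix_mul_equiv]
    rfl
  have := h _ _ hX' hY' (a ∘ e)
  rw [hm, Matrix.det_submatrix_equiv_self, Matrix.det_submatrix_equiv_self] at this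
  rw [hp]
  exact this

lemma posDef_det_pos {X : Matrix ι ι ℂ} (h : X.PosDef) : 0 < X.det.re := by
  have := h.det_pos
  rw [Complex.lt_def] at this
  simpa using this.1

lemma posDef_det_eq {X : Matrix ι ι ℂ} (h : X.PosDef) : ((X.det.re : ℝ) : ℂ) = X.det := by
  have := h.det_pos
  rw [Complex.lt_def] at this
  apply Complex.ext
  · simp
  · simpa using this.2

theorem PinP.step (h : PinP ι) : PinP (ι ⊕ Unit) := by
  intro X Y hX hY a
  obtain ⟨X₁, x, xn, rfl⟩ : ∃ X₁ x xn, X = fromBlocks X₁ x xᴴ xn := by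
    refine ⟨X.toBlocks₁₁, X.toBlocks₁₂, X.toBlocks₂₂, ?_⟩
    have h1 : X.toBlocks₂₁ = X.toBlocks₁₂ᴴ := by
      ext i j
      have := congrFun (congrFun hX.isHermitian (Sum.inr i)) (Sum.inl j)
      simpa [toBlocks₂₁, toBlocks₁₂] using this.symm
    rw [← h1, Matrix.fromBlocks_toBlocks]
  obtain ⟨Y₁, y, yn, rfl⟩ : ∃ Y₁ y yn, Y = fromBlocks Y₁ y yᴴ yn := by
    refine ⟨Y.toBlocks₁₁, Y.toBlocks₁₂, Y.toBlocks₂₂, ?_⟩
    have h1 : Y.toBlocks₂₁ = Y.toBlocks₁₂ᴴ := by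
      ext i j
      have := congrFun (congrFun hY.isHermitian (Sum.inr i)) (Sum.inl j)
      simpa [toBlocks₂₁, toBlocks₁₂] using this.symm
    rw [← h1, Matrix.fromBlocks_toBlocks]
  set A₁ : Matrix ι ι ℂ := diagonal (fun i => (a (Sum.inl i) : ℂ)) with hA₁
  set A : Matrix (ι ⊕ Unit) (ι ⊕ Unit) ℂ := diagonal (fun i => (a i : ℂ)) with hA
  have hAb : A = fromBlocks A₁ 0 0 (diagonal fun _ => (a (Sum.inr ()) : ℂ)) := by
    rw [hA₁, hA, Matrix.fromBlocks_diagonal]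
    congr 1
    ext i; rcases i with i | i <;> rfl
  have hAH : Aᴴ = A := by
    rw [hA, Matrix.diagonal_conjTranspose]; congr 1; ext i; simp
  have hA₁H : A₁ᴴ = A₁ := by
    rw [hA₁, Matrix.diagonal_conjTranspose]; congr 1; ext i; simp
  have hX₁ := posDef_block₁₁ hX
  have hS := posDef_schur₁₁ hX
  have hYn := posDef_block₂₂ hY
  have hYs := posDef_schur₂₂ hY
  set S := xn - xᴴ * X₁⁻¹ * x with hSd
  set U : Matrix (ι ⊕ Unit) Unit ℂ := fromRows (-(X₁⁻¹ * x)) 1 with hU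
  set G : Matrix (ι ⊕ Unit) (ι ⊕ Unit) ℂ := fromBlocks (Y₁ + A₁ * X₁⁻¹ * A₁) y yᴴ yn with hG
  have hGsum : G = fromBlocks Y₁ y yᴴ yn + A * fromBlocks X₁⁻¹ 0 0 0 * A := by
    rw [hAb, Matrix.fromBlocks_multiply, Matrix.fromBlocks_multiply, Matrix.fromBlocks_add, hG]
    simp
  have hQ : (A₁ * X₁⁻¹ * A₁).PosSemidef := by
    have := hX₁.inv.posSemidef.mul_mul_conjTranspose_same A₁
    rwa [hA₁H] at this
  have hGp : G.PosDef := by
    rw [hGsum]
    refine hY.add_posSemidef ?_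
    have h1 : (fromBlocks (X₁⁻¹) 0 0 0 : Matrix (ι ⊕ Unit) (ι ⊕ Unit) ℂ).PosSemidef := by
      have := hX₁.inv.posSemidef.mul_mul_conjTranspose_same (fromRows 1 0 : Matrix (ι ⊕ Unit) ι ℂ)
      rw [Matrix.conjTranspose_fromRows_eq_fromCols_conjTranspose, Matrix.fromRows_mul,
        Matrix.fromRows_mul_fromCols] at this
      simpa using this
    have h2 := h1.mul_mul_conjTranspose_same A
    rwa [hAH] at h2
  have hdec : fromBlocks Y₁ y yᴴ yn + A * (fromBlocks X₁ x xᴴ xn)⁻¹ * A =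
      G + (A * U) * (S⁻¹ * (A * U)ᴴ) := by
    rw [inv_fromBlocks hX, hGsum, ← hSd, ← hU, Matrix.mul_add, Matrix.add_mul, ← add_assoc,
      Matrix.conjTranspose_mul, hAH]
    simp only [Matrix.mul_assoc]
  have hdetG : G.det = yn.det * (Y₁ - y * yn⁻¹ * yᴴ + A₁ * X₁⁻¹ * A₁).det := by
    rw [hG, det_schur₂₂ hYn]
    congr 2
    abel
  have hdetY : (fromBlocks Y₁ y yᴴ yn).det = yn.det * (Y₁ - y * yn⁻¹ * yᴴ).det :=
    det_schur₂₂ hYn
  set u : ι ⊕ Unit → ℂ := fun i => (A * U) i () with hu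
  set s : ℝ := (S () ()).re with hs
  have hspos : 0 < s := posDef_diag_pos hS ()
  have hse : ((s : ℝ) : ℂ) = S () () := herm_diag_eq hS.isHermitian ()
  have hSinv : S⁻¹ () () = ((s⁻¹ : ℝ) : ℂ) := by
    rw [Matrix.inv_def, Matrix.det_unique]
    simp only [Matrix.smul_apply, Ring.inverse_eq_inv', Matrix.adjugate_subsingleton,
      Matrix.one_apply_eq, smul_eq_mul, mul_one]
    rw [Complex.ofReal_inv, hse]
  set k : ℝ := (star u ⬝ᵥ (G⁻¹ *ᵥ u)).re with hk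
  have hke : ((k : ℝ) : ℂ) = star u ⬝ᵥ (G⁻¹ *ᵥ u) := by
    have := hGp.inv.posSemidef.dotProduct_mulVec_nonneg u
    apply Complex.ext
    · simp [hk]
    · simpa using (Complex.le_def.1 this).2
  have hq : ((A * U)ᴴ * (G⁻¹ * (A * U))) () () = (k : ℂ) := by
    rw [hke]
    rw [Matrix.mul_apply]
    rfl
  have hlast : (1 + S⁻¹ * (A * U)ᴴ * G⁻¹ * (A * U)).det = ((1 + s⁻¹ * k : ℝ) : ℂ) := by
    rw [Matrix.det_unique]
    rw [Matrix.add_apply, Matrix.mul_assoc, Matrix.mul_assoc, Matrix.mul_apply]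
    simp only [Fintype.sum_unique]
    have h1 : (S⁻¹ default default : ℂ) = ((s⁻¹ : ℝ) : ℂ) := hSinv
    have h2 : ((A * U)ᴴ * (G⁻¹ * (A * U))) default default = (k : ℂ) := hq
    rw [h1, h2]
    simp
  have hdet : (fromBlocks Y₁ y yᴴ yn + A * (fromBlocks X₁ x xᴴ xn)⁻¹ * A).det =
      G.det * ((1 + s⁻¹ * k : ℝ) : ℂ) := by
    rw [hdec, Matrix.det_add_mul _ _ (posDef_isUnit_det hGp), hlast]
  -- the last coordinate
  set an : ℝ := a (Sum.inr ()) with han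
  have hun : u (Sum.inr ()) = (an : ℂ) := by
    rw [hu, han]
    simp only [hA, hU, Matrix.diagonal_mul, Matrix.fromRows_apply_inr, Matrix.one_apply_eq, mul_one]
  have hGn : (G (Sum.inr ()) (Sum.inr ())) = yn () () := by
    rw [hG, Matrix.fromBlocks_apply₂₂]
  set yr : ℝ := (yn () ()).re with hyr
  set xr : ℝ := (xn () ()).re with hxr
  have hyrpos : 0 < yr := posDef_diag_pos hYn ()
  have hxrpos : 0 < xr := posDef_diag_pos (posDef_block₂₂ hX) ()
  have hkge : an ^ 2 / yr ≤ k := by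
    have := posDef_inv_quad hGp u (Sum.inr ())
    rw [hun, hGn] at this
    simpa using this
  have hsle : s ≤ xr := by
    have h1 : (xᴴ * X₁⁻¹ * x).PosSemidef := hX₁.inv.posSemidef.conjTranspose_mul_mul_same x
    have h2 := (Complex.le_def.1 (h1.diag_nonneg (i := ()))).1
    rw [hs, hxr, hSd]
    simp only [Matrix.sub_apply, Complex.sub_re, Complex.zero_re] at h2 ⊢
    linarith
  have hfac : 1 + an ^ 2 / (xr * yr) ≤ 1 + s⁻¹ * k := by
    have h1 : an ^ 2 / (xr * yr) = xr⁻¹ * (an ^ 2 / yr) := by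
      field_simp
    rw [h1]
    have h2 : xr⁻¹ ≤ s⁻¹ := inv_anti₀ hspos hsle
    have h3 : 0 ≤ an ^ 2 / yr := by positivity
    have h4 : 0 ≤ xr⁻¹ := by positivity
    have := mul_le_mul h2 hkge h3 (by positivity)
    linarith
  -- the other coordinates
  have hind := h X₁ (Y₁ - y * yn⁻¹ * yᴴ) hX₁ hYs (fun i => a (Sum.inl i))
  rw [← hA₁] at hind
  have hYd : ∀ i, ((Y₁ - y * yn⁻¹ * yᴴ) i i).re ≤ (Y₁ i i).re := by
    intro i
    have h1 : (y * yn⁻¹ * yᴴ).PosSemidef := hYn.inv.posSemidef.mul_mul_conjTranspose_same y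
    have h2 := (Complex.le_def.1 (h1.diag_nonneg (i := i))).1
    simp only [Matrix.sub_apply, Complex.sub_re, Complex.zero_re] at h2 ⊢
    linarith
  have hprod : ∏ i, (1 + a (Sum.inl i) ^ 2 / ((X₁ i i).re * (Y₁ i i).re)) ≤
      ∏ i, (1 + a (Sum.inl i) ^ 2 / ((X₁ i i).re * ((Y₁ - y * yn⁻¹ * yᴴ) i i).re)) := by
    apply Finset.prod_le_prod
    · intro i _
      have h1 := posDef_diag_pos hX₁ i
      have h2 := posDef_diag_pos (posDef_block₁₁ hY) i
      positivity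
    · intro i _
      have h1 := posDef_diag_pos hX₁ i
      have h2 := posDef_diag_pos hYs i
      have h3 := hYd i
      gcongr
  have hE : 0 < (Y₁ - y * yn⁻¹ * yᴴ).det.re := posDef_det_pos hYs
  have hF : 0 < (Y₁ - y * yn⁻¹ * yᴴ + A₁ * X₁⁻¹ * A₁).det.re :=
    posDef_det_pos (hYs.add_posSemidef hQ)
  have hyd : yn.det = (yr : ℂ) := by
    rw [Matrix.det_unique, hyr]
    exact (herm_diag_eq hYn.isHermitian ()).symm
  have hLHS : (fromBlocks Y₁ y yᴴ yn).det.re = yr * (Y₁ - y * yn⁻¹ * yᴴ).det.re := by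
    rw [hdetY, hyd, Complex.re_ofReal_mul]
  have hRHS : (fromBlocks Y₁ y yᴴ yn + A * (fromBlocks X₁ x xᴴ xn)⁻¹ * A).det.re =
      yr * (Y₁ - y * yn⁻¹ * yᴴ + A₁ * X₁⁻¹ * A₁).det.re * (1 + s⁻¹ * k) := by
    rw [hdet, hdetG, hyd, Complex.re_mul_ofReal, Complex.re_ofReal_mul]
  rw [hRHS, hLHS, Fintype.prod_sum_type]
  simp only [Finset.univ_unique, Finset.prod_singleton, Matrix.fromBlocks_apply₁₁,
    Matrix.fromBlocks_apply₂₂]
  change yr * (Y₁ - y * yn⁻¹ * yᴴ).det.re *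
    ((∏ i, (1 + a (Sum.inl i) ^ 2 / ((X₁ i i).re * (Y₁ i i).re))) * (1 + an ^ 2 / (xr * yr))) ≤ _
  have hP0 : 0 ≤ ∏ i, (1 + a (Sum.inl i) ^ 2 / ((X₁ i i).re * (Y₁ i i).re)) := by
    apply Finset.prod_nonneg
    intro i _
    have h1 := posDef_diag_pos hX₁ i
    have h2 := posDef_diag_pos (posDef_block₁₁ hY) i
    positivity
  have hc : (Y₁ - y * yn⁻¹ * yᴴ).det.re *
      (∏ i, (1 + a (Sum.inl i) ^ 2 / ((X₁ i i).re * (Y₁ i i).re))) ≤
      (Y₁ - y * yn⁻¹ * yᴴ + A₁ * X₁⁻¹ * A₁).det.re :=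
    (mul_le_mul_of_nonneg_left hprod hE.le).trans hind
  have hn0 : (0 : ℝ) ≤ 1 + an ^ 2 / (xr * yr) := by positivity
  have hmain := mul_le_mul hc hfac hn0 hF.le
  calc _ = yr * ((Y₁ - y * yn⁻¹ * yᴴ).det.re *
      (∏ i, (1 + a (Sum.inl i) ^ 2 / ((X₁ i i).re * (Y₁ i i).re))) *
        (1 + an ^ 2 / (xr * yr))) := by ring
    _ ≤ yr * ((Y₁ - y * yn⁻¹ * yᴴ + A₁ * X₁⁻¹ * A₁).det.re * (1 + s⁻¹ * k)) :=
      mul_le_mul_of_nonneg_left hmain hyrpos.le
    _ = _ := by ring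

theorem pinP_fin (n : ℕ) : PinP (Fin n) := by
  induction n with
  | zero =>
    intro X Y hX hY a
    simp
  | succ n ih =>
    have h1 : PinP (Fin n ⊕ Unit) := PinP.step ih
    have e : Fin n ⊕ Unit ≃ Fin (n + 1) :=
      (Equiv.sumCongr (Equiv.refl _) (Equiv.ofUnique Unit (Fin 1))).trans finSumFinEquiv
    exact PinP.of_equiv e h1

/-- pinching inequality. -/
theorem pin (X Y : Matrix ι ι ℂ) (hX : X.PosDef) (hY : Y.PosDef) (a : ι → ℝ) :
    Y.det.re * ∏ i, (1 + a i ^ 2 / ((X i i).re * (Y i i).re)) ≤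
      (Y + diagonal (fun i => (a i : ℂ)) * X⁻¹ * diagonal (fun i => (a i : ℂ))).det.re :=
  PinP.of_equiv (Fintype.equivFin ι).symm (pinP_fin (Fintype.card ι)) X Y hX hY a

end Pin

end Vale.Agent.P358
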