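import Mathlib

/-! Singular value decomposition of a square complex matrix. -/

open Matrix Finset
open scoped ComplexOrder

namespace Vale.Agent.P358

variable {ι : Type*} [Fintype ι] [DecidableEq ι]

theorem exists_svd (A : Matrix ι ι ℂ) : ∃ (U V : Matrix ι ι ℂ) (a : ι → ℝ),
    U * Uᴴ = 1 ∧ Uᴴ * U = 1 ∧ V * Vᴴ = 1 ∧ Vᴴ * V = 1 ∧ (∀ i, 0 ≤ a i) ∧
      A = U * diagonal (fun i => (a i : ℂ)) * Vᴴ := by
  have hH : (Aᴴ * A).PosSemidef := posSemidef_conjTranspose_mul_self A
  set V : Matrix ι ι ℂ := (hH.1.eigenvectorUnitary : Matrix ι ι ℂ) with hV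
  set lam : ι → ℝ := hH.1.eigenvalues with hlam
  have hVV : Vᴴ * V = 1 := Unitary.coe_star_mul_self hH.1.eigenvectorUnitary
  have hVV' : V * Vᴴ = 1 := Unitary.coe_mul_star_self hH.1.eigenvectorUnitary
  have hl0 : ∀ i, 0 ≤ lam i := hH.eigenvalues_nonneg
  have hspec : Aᴴ * A = V * diagonal (RCLike.ofReal ∘ lam) * Vᴴ := by
    have h := hH.1.spectral_theorem
    rw [Unitary.conjStarAlgAut_apply] at h
    exact h
  have hdiag : (A * V)ᴴ * (A * V) = diagonal (fun i => (lam i : ℂ)) := by
    rw [conjTranspose_mul, Matrix.mul_assoc, ← Matrix.mul_assoc Aᴴ, hspec, Matrix.mul_assoc,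
      Matrix.mul_assoc, hVV, Matrix.mul_one, ← Matrix.mul_assoc, hVV, Matrix.one_mul]
    rfl
  set v : ι → EuclideanSpace ℂ ι := fun i => WithLp.toLp 2 (fun j => (A * V) j i) with hv
  have hin : ∀ i j, inner ℂ (v i) (v j) = if i = j then (lam i : ℂ) else 0 := by
    intro i j
    have h1 : inner ℂ (v i) (v j) = ((A * V)ᴴ * (A * V)) i j := by
      rw [Matrix.mul_apply, PiLp.inner_apply]
      refine Finset.sum_congr rfl fun k _ => ?_
      simp [hv, mul_comm]
    rw [h1, hdiag, diagonal_apply]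
  set s : Set ι := {i | lam i ≠ 0} with hs
  set w : ι → EuclideanSpace ℂ ι := fun i => (((√(lam i))⁻¹ : ℝ) : ℂ) • v i with hw
  have hwo : Orthonormal ℂ (s.domRestrict w) := by
    rw [orthonormal_iff_ite]
    rintro ⟨i, hi⟩ ⟨j, hj⟩
    have hi' : 0 < lam i := lt_of_le_of_ne (hl0 i) (Ne.symm hi)
    simp only [Set.domRestrict_apply, hw, inner_smul_left, inner_smul_right, hin, Subtype.mk.injEq]
    by_cases hij : i = j
    · subst hij
      simp only [if_true, Complex.conj_ofReal]
      rw [← Complex.ofReal_mul, ← Complex.ofReal_mul, ← Complex.ofReal_one]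
      congr 1
      have h2 := Real.mul_self_sqrt hi'.le
      have h3 : 0 < √(lam i) := Real.sqrt_pos.2 hi'
      field_simp
      nlinarith
    · simp [hij]
  obtain ⟨b, hb⟩ := hwo.exists_orthonormalBasis_extension_of_card_eq (by simp)
  set U : Matrix ι ι ℂ := Matrix.of fun j i => b i j with hU
  have hUU : Uᴴ * U = 1 := by
    ext i j
    rw [Matrix.mul_apply]
    have h1 := (orthonormal_iff_ite.1 b.orthonormal) i j
    rw [PiLp.inner_apply] at h1
    rw [Matrix.one_apply, ← h1]
    refine Finset.sum_congr rfl fun k _ => ?_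
    simp [hU, mul_comm]
  have hUU' : U * Uᴴ = 1 := mul_eq_one_comm.1 hUU
  have hAV : A * V = U * diagonal (fun i => ((√(lam i) : ℝ) : ℂ)) := by
    ext j i
    rw [mul_diagonal]
    by_cases hi : lam i = 0
    · have h0 : v i = 0 := by
        have := hin i i
        rw [if_pos rfl, hi] at this
        simpa using this
      have h1 : (A * V) j i = (v i) j := rfl
      rw [h1, h0, hi]
      simp
    · have h1 : (A * V) j i = (v i) j := rfl
      have h2 : U j i = (b i) j := rfl
      rw [h1, h2, hb i hi]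
      have h3 : 0 < √(lam i) := Real.sqrt_pos.2 (lt_of_le_of_ne (hl0 i) (Ne.symm hi))
      simp only [hw, PiLp.smul_apply, smul_eq_mul]
      rw [mul_comm, ← mul_assoc, ← Complex.ofReal_mul, mul_inv_cancel₀ h3.ne']
      simp
  refine ⟨U, V, fun i => √(lam i), hUU', hUU, hVV', hVV, fun i => Real.sqrt_nonneg _, ?_⟩
  rw [← hAV, Matrix.mul_assoc, hVV', Matrix.mul_one]

end Vale.Agent.P358
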