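import Vale.Agent.P358.Scal
import Vale.Agent.P358.Pin
import Vale.Agent.P358.Svd
import Vale.Agent.P358.KeyDef

/-! The key inequality for `ν = 0` and `ν = 1`. -/

open Matrix Finset Filter Topology
open scoped ComplexOrder

namespace Vale.Agent.P358

section square

variable {ι : Type*} [Fintype ι] [DecidableEq ι]

omit [Fintype ι] in
theorem posDef_one_add_smul {M : Matrix ι ι ℂ} (hM : M.PosSemidef) {c : ℝ} (hc : 0 ≤ c) :
    (1 + (c : ℂ) • M).PosDef :=
  PosDef.one.add_posSemidef (hM.smul (by exact_mod_cast hc))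

omit [Fintype ι] in
theorem one_add_smul_fromBlocks (s : ℂ) (P Q R S : Matrix ι ι ℂ) :
    1 + s • fromBlocks P Q R S = fromBlocks (1 + s • P) (s • Q) (s • R) (1 + s • S) := by
  rw [fromBlocks_smul, ← fromBlocks_one, fromBlocks_add, zero_add, zero_add]

/-- the output block matrix for `ν = 0` -/
noncomputable def out0 (γ : ℝ) (A B : Matrix ι ι ℂ) : Matrix (ι ⊕ ι) (ι ⊕ ι) ℂ :=
  fromBlocks (A * Aᴴ + (γ : ℂ) • (B * Bᴴ)) ((√(1 - γ) : ℂ) • (A * Bᴴ))
    ((√(1 - γ) : ℂ) • (B * Aᴴ)) (((1 - γ : ℝ) : ℂ) • (B * Bᴴ))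

omit [DecidableEq ι] in
theorem trace_fromBlocks' (P Q R S : Matrix ι ι ℂ) :
    (fromBlocks P Q R S).trace = P.trace + S.trace := by
  simp [Matrix.trace, Fintype.sum_sum_type]

theorem sqrt_mul_self' {x : ℝ} (hx : 0 ≤ x) : ((√x : ℝ) : ℂ) * ((√x : ℝ) : ℂ) = (x : ℂ) := by
  rw [← Complex.ofReal_mul, Real.mul_self_sqrt hx]

omit [DecidableEq ι] in
theorem out0_eq {γ : ℝ} (hγ : 0 ≤ γ) (hγ1 : γ ≤ 1) (A B : Matrix ι ι ℂ) :
    out0 γ A B = fromBlocks A ((√γ : ℂ) • B) ((√(1 - γ) : ℂ) • B) 0 *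
      (fromBlocks A ((√γ : ℂ) • B) ((√(1 - γ) : ℂ) • B) 0)ᴴ := by
  rw [fromBlocks_conjTranspose, fromBlocks_multiply, out0]
  have h1 : 0 ≤ 1 - γ := by linarith
  simp only [conjTranspose_smul, Matrix.mul_smul, Matrix.smul_mul, smul_smul, Complex.star_def,
    Complex.conj_ofReal, conjTranspose_zero, Matrix.mul_zero, Matrix.zero_mul, add_zero,
    smul_zero]
  rw [sqrt_mul_self' hγ, sqrt_mul_self' h1]

theorem det_out0 {γ : ℝ} (hγ1 : γ ≤ 1) (A B : Matrix ι ι ℂ) {s : ℝ} (hs : 0 ≤ s) :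
    (1 + (s : ℂ) • out0 γ A B).det =
      (1 + ((s * (1 - γ) : ℝ) : ℂ) • (Bᴴ * B)).det *
      (1 + ((s * γ : ℝ) : ℂ) • (B * Bᴴ) +
        (s : ℂ) • (A * (1 + ((s * (1 - γ) : ℝ) : ℂ) • (Bᴴ * B))⁻¹ * Aᴴ)).det := by
  have h1 : 0 ≤ 1 - γ := by linarith
  set c : ℝ := s * (1 - γ) with hc
  have hc0 : 0 ≤ c := mul_nonneg hs h1
  set D : Matrix ι ι ℂ := 1 + (c : ℂ) • (B * Bᴴ) with hD
  set Y : Matrix ι ι ℂ := 1 + (c : ℂ) • (Bᴴ * B) with hY
  have hDp : D.PosDef := posDef_one_add_smul (posSemidef_self_mul_conjTranspose B) hc0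
  have hYp : Y.PosDef := posDef_one_add_smul (posSemidef_conjTranspose_mul_self B) hc0
  have hDu : IsUnit D.det := (Matrix.isUnit_iff_isUnit_det D).1 hDp.isUnit
  have hYu : IsUnit Y.det := (Matrix.isUnit_iff_isUnit_det Y).1 hYp.isUnit
  have hDY : D.det = Y.det := by
    rw [hD, hY, ← Matrix.smul_mul, det_one_add_mul_comm, Matrix.mul_smul]
  have hpush : Y * Bᴴ = Bᴴ * D := by
    rw [hY, hD, Matrix.add_mul, Matrix.mul_add, Matrix.one_mul, Matrix.mul_one, Matrix.smul_mul,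
      Matrix.mul_smul, Matrix.mul_assoc]
  have hYinv : Y⁻¹ = 1 - (c : ℂ) • (Bᴴ * D⁻¹ * B) := by
    refine Matrix.inv_eq_right_inv ?_
    rw [Matrix.mul_sub, Matrix.mul_one, Matrix.mul_smul, ← Matrix.mul_assoc, ← Matrix.mul_assoc,
      hpush, Matrix.mul_assoc Bᴴ, Matrix.mul_nonsing_inv D hDu, Matrix.mul_one, hY]
    simp
  let hDi : Invertible D := hDp.isUnit.invertible
  have hD' : (1 : Matrix ι ι ℂ) + (s : ℂ) • ((1 - γ : ℝ) : ℂ) • (B * Bᴴ) = D := by
    rw [hD, hc, smul_smul, ← Complex.ofReal_mul]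
  rw [out0, one_add_smul_fromBlocks, hD', det_fromBlocks₂₂, invOf_eq_nonsing_inv, hDY, hYinv]
  congr 2
  simp only [Matrix.mul_smul, Matrix.smul_mul, smul_smul, Matrix.mul_sub, Matrix.sub_mul,
    Matrix.mul_one, smul_add, smul_sub, Matrix.mul_assoc]
  have e1 : (s : ℂ) * (√(1 - γ) : ℂ) * ((s : ℂ) * (√(1 - γ) : ℂ)) = (s : ℂ) * (c : ℂ) := by
    have := sqrt_mul_self' h1
    rw [hc]
    push_cast at this ⊢
    linear_combination (s : ℂ) * (s : ℂ) * this
  rw [e1]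
  push_cast
  abel

/-- weight `l i`, `r i` in the Schmidt bases of `A`. -/
theorem key_square {γ : ℝ} (hγ : 0 ≤ γ) (hγ1 : γ ≤ 1) (A B : Matrix ι ι ℂ) :
    ent (A * Aᴴ) + ent (B * Bᴴ) - Real.negMulLog (A * Aᴴ).trace.re
        - Real.negMulLog (B * Bᴴ).trace.re
        + eta2 ((A * Aᴴ).trace.re + (B * Bᴴ).trace.re)
            ((1 - γ) * γ * (B * Bᴴ).trace.re ^ 2) ≤ ent (out0 γ A B) := by
  have h1 : 0 ≤ 1 - γ := by linarith
  obtain ⟨U, V, a, hUU', hUU, hVV', hVV, ha, hA⟩ := exists_svd A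
  set p : ι → ℝ := fun i => a i ^ 2 with hp
  set l : ι → ℝ := fun i => γ * ((Uᴴ * (B * Bᴴ) * U) i i).re with hl
  set r : ι → ℝ := fun i => (1 - γ) * ((Vᴴ * (Bᴴ * B) * V) i i).re with hr
  have hK : (B * Bᴴ).PosSemidef := posSemidef_self_mul_conjTranspose B
  have hK' : (Bᴴ * B).PosSemidef := posSemidef_conjTranspose_mul_self B
  have hUK : (Uᴴ * (B * Bᴴ) * U).PosSemidef := hK.conjTranspose_mul_mul_same U
  have hVK : (Vᴴ * (Bᴴ * B) * V).PosSemidef := hK'.conjTranspose_mul_mul_same V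
  have hp0 : ∀ i, 0 ≤ p i := fun i => sq_nonneg _
  have hl0 : ∀ i, 0 ≤ l i := fun i => mul_nonneg hγ (Complex.le_def.1 (hUK.diag_nonneg (i := i))).1
  have hr0 : ∀ i, 0 ≤ r i := fun i => mul_nonneg h1 (Complex.le_def.1 (hVK.diag_nonneg (i := i))).1
  set k := (B * Bᴴ).trace.re with hk
  have hk0 : 0 ≤ k := (Complex.le_def.1 hK.trace_nonneg).1
  have hk' : (Bᴴ * B).trace.re = k := by rw [Matrix.trace_mul_comm]
  have hAA : A * Aᴴ = U * diagonal (fun i => (p i : ℂ)) * Uᴴ := by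
    rw [hA]
    simp only [conjTranspose_mul, conjTranspose_conjTranspose, diagonal_conjTranspose]
    rw [show U * diagonal (fun i => (a i : ℂ)) * Vᴴ * (V * (diagonal (star fun i => (a i : ℂ)) * Uᴴ)) =
      U * (diagonal (fun i => (a i : ℂ)) * (Vᴴ * V) * diagonal (star fun i => (a i : ℂ))) * Uᴴ by
        simp only [Matrix.mul_assoc]]
    rw [hVV, Matrix.mul_one, diagonal_mul_diagonal]
    congr 3
    ext i
    simp [hp, sq]
  have hPdiag : (diagonal (fun i => (p i : ℂ))).PosSemidef :=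
    PosSemidef.diagonal fun i => by
      show (0 : ℂ) ≤ (p i : ℂ)
      exact_mod_cast hp0 i
  have hsump : ∑ i, p i = (A * Aᴴ).trace.re := by
    rw [hAA, Matrix.trace_mul_cycle, hUU, Matrix.one_mul, trace_diagonal]
    simp
  have hentA : ent (A * Aᴴ) = ∑ i, Real.negMulLog (p i) := by
    rw [← ent_diagonal p hp0]
    refine ent_eq_of_det (posSemidef_self_mul_conjTranspose A) hPdiag fun t _ => ?_
    rw [hAA, ← Matrix.smul_mul, det_one_add_mul_comm, Matrix.mul_smul, ← Matrix.mul_assoc, hUU,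
      Matrix.one_mul]
  have hsuml : ∑ i, l i = γ * k := by
    rw [hl, ← Finset.mul_sum]
    congr 1
    have : ∑ i, ((Uᴴ * (B * Bᴴ) * U) i i).re = (Uᴴ * (B * Bᴴ) * U).trace.re := by
      rw [Matrix.trace, Complex.re_sum]
      rfl
    rw [this, Matrix.trace_mul_cycle, hUU', Matrix.one_mul]
  have hsumr : ∑ i, r i = (1 - γ) * k := by
    rw [hr, ← Finset.mul_sum]
    congr 1
    have : ∑ i, ((Vᴴ * (Bᴴ * B) * V) i i).re = (Vᴴ * (Bᴴ * B) * V).trace.re := by
      rw [Matrix.trace, Complex.re_sum]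
      rfl
    rw [this, Matrix.trace_mul_cycle, hVV', Matrix.one_mul, hk']
  -- positivity of the output
  have hout : (out0 γ A B).PosSemidef := by
    rw [out0_eq hγ hγ1]
    exact posSemidef_self_mul_conjTranspose _
  have htr : (out0 γ A B).trace.re = ∑ i, p i + k := by
    rw [hsump, out0, trace_fromBlocks']
    simp only [Matrix.trace_add, Matrix.trace_smul, Complex.add_re, smul_eq_mul,
      Complex.re_ofReal_mul]
    rw [← hk]
    ring
  -- entropy relations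
  have hE1 := EntRel.ent hout
  have hE2 := EntRel.ent (hK.smul (show (0 : ℂ) ≤ (γ : ℂ) by exact_mod_cast hγ))
  have hE3 := EntRel.ent (hK'.smul (show (0 : ℂ) ≤ ((1 - γ : ℝ) : ℂ) by exact_mod_cast h1))
  have hE4 := EntRel.sum Finset.univ fun i _ =>
    (EntRel.scalar (hp0 i)).sub (EntRel.Th (hp0 i) (hl0 i) (hr0 i))
  have hE := ((hE1.sub hE2).sub hE3).sub hE4
  have hτ : (out0 γ A B).trace.re - ((γ : ℂ) • (B * Bᴴ)).trace.re
      - (((1 - γ : ℝ) : ℂ) • (Bᴴ * B)).trace.re - ∑ i, (p i - 0) = 0 := by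
    simp only [Matrix.trace_smul, smul_eq_mul, Complex.re_ofReal_mul, htr, hk', sub_zero]
    rw [← hk]
    ring
  rw [hτ] at hE
  have hmain := hE.nonneg fun t ht => ?_
  · rw [ent_smul hγ hK, ent_smul h1 hK', ← hk, hk', ← ent_mul_conjTranspose B] at hmain
    have hsup := Th_superadd p l r hp0 hl0 hr0
    rw [hsump, hsuml, hsumr] at hsup
    rw [Finset.sum_sub_distrib, ← hentA] at hmain
    have hTh : Th (A * Aᴴ).trace.re (γ * k) ((1 - γ) * k) =
        Real.negMulLog (A * Aᴴ).trace.re + Real.negMulLog k + k * Real.negMulLog γ +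
          k * Real.negMulLog (1 - γ) -
          eta2 ((A * Aᴴ).trace.re + k) ((1 - γ) * γ * k ^ 2) := by
      rw [Th, Real.negMulLog_mul, Real.negMulLog_mul,
        show (A * Aᴴ).trace.re + γ * k + (1 - γ) * k = (A * Aᴴ).trace.re + k by ring,
        show γ * k * ((1 - γ) * k) = (1 - γ) * γ * k ^ 2 by ring]
      ring
    rw [hTh] at hsup
    nlinarith
  · -- the determinant inequality at `t`
    set s : ℝ := t⁻¹ with hs
    have hs0 : 0 < s := inv_pos.2 ht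
    set X : Matrix ι ι ℂ := 1 + ((s * γ : ℝ) : ℂ) • (B * Bᴴ) with hX
    set Y : Matrix ι ι ℂ := 1 + ((s * (1 - γ) : ℝ) : ℂ) • (Bᴴ * B) with hY
    have hXp : X.PosDef := posDef_one_add_smul hK (by positivity)
    have hYp : Y.PosDef := posDef_one_add_smul hK' (by positivity)
    have hX'p : (Uᴴ * X * U).PosDef := by
      refine hXp.conjTranspose_mul_mul_same ?_
      refine Function.LeftInverse.injective (g := fun v => Uᴴ *ᵥ v) fun v => ?_
      show Uᴴ *ᵥ (U *ᵥ v) = v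
      rw [Matrix.mulVec_mulVec, hUU, Matrix.one_mulVec]
    have hY'p : (Vᴴ * Y * V).PosDef := by
      refine hYp.conjTranspose_mul_mul_same ?_
      refine Function.LeftInverse.injective (g := fun v => Vᴴ *ᵥ v) fun v => ?_
      show Vᴴ *ᵥ (V *ᵥ v) = v
      rw [Matrix.mulVec_mulVec, hVV, Matrix.one_mulVec]
    have hX'eq : Uᴴ * X * U = 1 + ((s * γ : ℝ) : ℂ) • (Uᴴ * (B * Bᴴ) * U) := by
      rw [hX, Matrix.mul_add, Matrix.add_mul, Matrix.mul_one, hUU, Matrix.mul_smul,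
        Matrix.smul_mul]
    have hY'eq : Vᴴ * Y * V = 1 + ((s * (1 - γ) : ℝ) : ℂ) • (Vᴴ * (Bᴴ * B) * V) := by
      rw [hY, Matrix.mul_add, Matrix.add_mul, Matrix.mul_one, hVV, Matrix.mul_smul,
        Matrix.smul_mul]
    have hX'd : ∀ i, ((Uᴴ * X * U) i i).re = 1 + s * l i := by
      intro i
      rw [hX'eq, Matrix.add_apply, Matrix.one_apply_eq, Matrix.smul_apply, smul_eq_mul,
        Complex.add_re, Complex.re_ofReal_mul, Complex.one_re, hl]
      ring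
    have hY'd : ∀ i, ((Vᴴ * Y * V) i i).re = 1 + s * r i := by
      intro i
      rw [hY'eq, Matrix.add_apply, Matrix.one_apply_eq, Matrix.smul_apply, smul_eq_mul,
        Complex.add_re, Complex.re_ofReal_mul, Complex.one_re, hr]
      ring
    have hpin := pin (Vᴴ * Y * V) (Uᴴ * X * U) hY'p hX'p (fun i => √s * a i)
    have hdetX : (Uᴴ * X * U).det = X.det := by
      rw [det_mul, det_mul, mul_comm, ← mul_assoc, ← det_mul, hUU', det_one, one_mul]
    have hdetX'' : (Uᴴ * X * U + diagonal (fun i => ((√s * a i : ℝ) : ℂ)) * (Vᴴ * Y * V)⁻¹ *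
        diagonal (fun i => ((√s * a i : ℝ) : ℂ))).det = (X + (s : ℂ) • (A * Y⁻¹ * Aᴴ)).det := by
      have hYu : IsUnit Y.det := (Matrix.isUnit_iff_isUnit_det Y).1 hYp.isUnit
      have hinv : (Vᴴ * Y * V)⁻¹ = Vᴴ * Y⁻¹ * V := by
        refine Matrix.inv_eq_right_inv ?_
        rw [show Vᴴ * Y * V * (Vᴴ * Y⁻¹ * V) = Vᴴ * Y * (V * Vᴴ) * Y⁻¹ * V by
          simp only [Matrix.mul_assoc]]
        rw [hVV', Matrix.mul_one, Matrix.mul_assoc Vᴴ, Matrix.mul_nonsing_inv Y hYu,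
          Matrix.mul_one, hVV]
      have hd : diagonal (fun i => ((√s * a i : ℝ) : ℂ)) =
          (√s : ℂ) • diagonal (fun i => (a i : ℂ)) := by
        rw [← diagonal_smul]
        congr 1
        ext i
        simp
      have hconj : Uᴴ * (X + (s : ℂ) • (A * Y⁻¹ * Aᴴ)) * U =
          Uᴴ * X * U + diagonal (fun i => ((√s * a i : ℝ) : ℂ)) * (Vᴴ * Y * V)⁻¹ *
            diagonal (fun i => ((√s * a i : ℝ) : ℂ)) := by
        rw [hinv, hd, Matrix.mul_add, Matrix.add_mul, Matrix.mul_smul, Matrix.smul_mul]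
        congr 1
        rw [Matrix.smul_mul, Matrix.smul_mul, Matrix.mul_smul, smul_smul,
          sqrt_mul_self' hs0.le]
        congr 1
        have hAH : Aᴴ = V * (diagonal (fun i => (a i : ℂ)) * Uᴴ) := by
          rw [hA]
          simp only [conjTranspose_mul, conjTranspose_conjTranspose, diagonal_conjTranspose]
          congr 3
          ext i
          simp
        rw [hAH, hA]
        rw [show Uᴴ * (U * diagonal (fun i => (a i : ℂ)) * Vᴴ * Y⁻¹ *
            (V * (diagonal (fun i => (a i : ℂ)) * Uᴴ))) * U =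
            (Uᴴ * U) * diagonal (fun i => (a i : ℂ)) * Vᴴ * Y⁻¹ *
            V * diagonal (fun i => (a i : ℂ)) * (Uᴴ * U) by simp only [Matrix.mul_assoc]]
        rw [hUU, Matrix.one_mul, Matrix.mul_one]
        simp only [Matrix.mul_assoc]
      rw [← hconj, det_mul, det_mul, mul_comm, ← mul_assoc, ← det_mul, hUU', det_one, one_mul]
    have hdet := det_out0 hγ1 A B hs0.le
    rw [← hX, ← hY] at hdet
    have hXpos := hXp.det_pos
    have hYpos := hYp.det_pos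
    have hXre : 0 < X.det.re := (Complex.lt_def.1 hXpos).1
    have hYre : 0 < Y.det.re := (Complex.lt_def.1 hYpos).1
    have hYim : Y.det.im = 0 := (Complex.lt_def.1 hYpos).2.symm
    have hdet' : (1 + (s : ℂ) • out0 γ A B).det.re =
        Y.det.re * (X + (s : ℂ) • (A * Y⁻¹ * Aᴴ)).det.re := by
      rw [hdet, Complex.mul_re, hYim]
      ring
    rw [hdetX, hdetX''] at hpin
    have e2 : ((1 : Matrix ι ι ℂ) + (s : ℂ) • (γ : ℂ) • (B * Bᴴ)) = X := by
      rw [hX, smul_smul]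
      push_cast
      rfl
    have e3 : ((1 : Matrix ι ι ℂ) + (s : ℂ) • ((1 - γ : ℝ) : ℂ) • (Bᴴ * B)) = Y := by
      rw [hY, smul_smul]
      push_cast
      rfl
    rw [e2, e3, hdet']
    have hprod : ∏ i, (1 + (√s * a i) ^ 2 / (((Vᴴ * Y * V) i i).re * ((Uᴴ * X * U) i i).re)) =
        ∏ i, (1 + (t * p i) / ((t + l i) * (t + r i))) := by
      refine Finset.prod_congr rfl fun i _ => ?_
      rw [hX'd, hY'd, mul_pow, Real.sq_sqrt hs0.le, hs]
      have := hl0 i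
      have := hr0 i
      have ht0 : t ≠ 0 := ht.ne'
      have g1 : (1 + t⁻¹ * r i) = (t + r i) / t := by field_simp
      have g2 : (1 + t⁻¹ * l i) = (t + l i) / t := by field_simp
      rw [g1, g2]
      have g3 : 0 < t + r i := by positivity
      have g4 : 0 < t + l i := by positivity
      field_simp
      try ring
    rw [hprod] at hpin
    have hppos : 0 < ∏ i, (1 + (t * p i) / ((t + l i) * (t + r i))) := by
      refine Finset.prod_pos fun i _ => ?_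
      have := hl0 i
      have := hr0 i
      have := hp0 i
      positivity
    have hZ : 0 < (X + (s : ℂ) • (A * Y⁻¹ * Aᴴ)).det.re :=
      lt_of_lt_of_le (mul_pos hXre hppos) hpin
    have hlog := Real.log_le_log (mul_pos hXre hppos) hpin
    rw [Real.log_mul hXre.ne' hppos.ne', Real.log_prod fun i _ => ?_] at hlog
    · rw [Real.log_mul hYre.ne' hZ.ne']
      simp only [sub_sub_cancel]
      linarith
    · have := hl0 i
      have := hr0 i
      have := hp0 i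
      positivity

end square

section rect

variable {m k : Type*} [Fintype m] [DecidableEq m] [Fintype k] [DecidableEq k]

omit [Fintype k] [DecidableEq k] in
theorem pad_posSemidef [Finite k] {P : Matrix m m ℂ} (hP : P.PosSemidef) :
    (fromBlocks P 0 0 0 : Matrix (m ⊕ k) (m ⊕ k) ℂ).PosSemidef := by
  have : (fromBlocks P 0 0 0 : Matrix (m ⊕ k) (m ⊕ k) ℂ) =
      fromRows (1 : Matrix m m ℂ) (0 : Matrix k m ℂ) * P *
        (fromRows (1 : Matrix m m ℂ) (0 : Matrix k m ℂ))ᴴ := by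
    rw [fromRows_mul, conjTranspose_fromRows_eq_fromCols_conjTranspose,
      fromRows_mul_fromCols]
    simp
  rw [this]
  exact hP.mul_mul_conjTranspose_same _

theorem ent_pad {P : Matrix m m ℂ} (hP : P.PosSemidef) :
    ent (fromBlocks P 0 0 0 : Matrix (m ⊕ k) (m ⊕ k) ℂ) = ent P := by
  have h1 : (fromBlocks P 0 0 0 : Matrix (m ⊕ k) (m ⊕ k) ℂ).PosSemidef := pad_posSemidef hP
  refine ent_eq_of_det h1 hP fun t _ => ?_
  rw [fromBlocks_smul, ← fromBlocks_one, fromBlocks_add]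
  simp

theorem key_rect {γ : ℝ} (hγ : 0 ≤ γ) (hγ1 : γ ≤ 1) (A B : Matrix m k ℂ) :
    ent (A * Aᴴ) + ent (B * Bᴴ) - Real.negMulLog (A * Aᴴ).trace.re
        - Real.negMulLog (B * Bᴴ).trace.re
        + eta2 ((A * Aᴴ).trace.re + (B * Bᴴ).trace.re)
            ((1 - γ) * γ * (B * Bᴴ).trace.re ^ 2) ≤
      ent (fromBlocks (A * Aᴴ + (γ : ℂ) • (B * Bᴴ)) ((√(1 - γ) : ℂ) • (A * Bᴴ))
        ((√(1 - γ) : ℂ) • (B * Aᴴ)) (((1 - γ : ℝ) : ℂ) • (B * Bᴴ))) := by
  set A' : Matrix (m ⊕ k) (m ⊕ k) ℂ := fromBlocks 0 A 0 0 with hA'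
  set B' : Matrix (m ⊕ k) (m ⊕ k) ℂ := fromBlocks 0 B 0 0 with hB'
  have hAA : A' * A'ᴴ = fromBlocks (A * Aᴴ) 0 0 0 := by
    rw [hA', fromBlocks_conjTranspose, fromBlocks_multiply]; simp
  have hBB : B' * B'ᴴ = fromBlocks (B * Bᴴ) 0 0 0 := by
    rw [hB', fromBlocks_conjTranspose, fromBlocks_multiply]; simp
  have hAB : A' * B'ᴴ = fromBlocks (A * Bᴴ) 0 0 0 := by
    rw [hA', hB', fromBlocks_conjTranspose, fromBlocks_multiply]; simp
  have hBA : B' * A'ᴴ = fromBlocks (B * Aᴴ) 0 0 0 := by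
    rw [hA', hB', fromBlocks_conjTranspose, fromBlocks_multiply]; simp
  have hkey := key_square hγ hγ1 A' B'
  have h1 : 0 ≤ 1 - γ := by linarith
  set W : Matrix (m ⊕ m) (m ⊕ m) ℂ :=
    fromBlocks (A * Aᴴ + (γ : ℂ) • (B * Bᴴ)) ((√(1 - γ) : ℂ) • (A * Bᴴ))
        ((√(1 - γ) : ℂ) • (B * Aᴴ)) (((1 - γ : ℝ) : ℂ) • (B * Bᴴ)) with hW
  have hWp : W.PosSemidef := by
    have : W = fromBlocks A ((√γ : ℂ) • B) ((√(1 - γ) : ℂ) • B) 0 *
      (fromBlocks A ((√γ : ℂ) • B) ((√(1 - γ) : ℂ) • B) 0)ᴴ := by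
      rw [fromBlocks_conjTranspose, fromBlocks_multiply, hW]
      simp only [conjTranspose_smul, Matrix.mul_smul, Matrix.smul_mul, smul_smul,
        Complex.star_def, Complex.conj_ofReal, conjTranspose_zero, Matrix.mul_zero,
        Matrix.zero_mul, add_zero, smul_zero]
      rw [sqrt_mul_self' hγ, sqrt_mul_self' h1]
    rw [this]
    exact posSemidef_self_mul_conjTranspose _
  have hWpad : (fromBlocks W 0 0 0 : Matrix ((m ⊕ m) ⊕ (k ⊕ k)) _ ℂ).PosSemidef :=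
    pad_posSemidef hWp
  have hre : out0 γ A' B' = (fromBlocks W 0 0 0 : Matrix ((m ⊕ m) ⊕ (k ⊕ k)) _ ℂ).submatrix
      (Equiv.sumSumSumComm m k m k) (Equiv.sumSumSumComm m k m k) := by
    rw [out0, hAA, hBB, hAB, hBA, hW]
    ext i j
    rcases i with (i | i) | (i | i) <;> rcases j with (j | j) | (j | j) <;> simp
  rw [hre, ent_submatrix_equiv _ hWpad, ent_pad hWp] at hkey
  have t1 : (A' * A'ᴴ).trace = (A * Aᴴ).trace := by
    rw [hAA]; simp [Matrix.trace]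
  have t2 : (B' * B'ᴴ).trace = (B * Bᴴ).trace := by
    rw [hBB]; simp [Matrix.trace]
  rw [t1, t2, hAA, hBB, ent_pad (posSemidef_self_mul_conjTranspose A),
    ent_pad (posSemidef_self_mul_conjTranspose B)] at hkey
  exact hkey

end rect

theorem key_zero {γ : ℝ} (hγ : 0 ≤ γ) (hγ1 : γ ≤ 1) : Key γ 0 := by
  intro m k _ _ _ _ A B
  have h := key_rect hγ hγ1 A B
  rw [detOut]
  simp only [mul_zero, sub_zero, mul_one, zero_mul, add_zero, Complex.ofReal_one, one_smul,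
    Complex.ofReal_zero, zero_smul, zero_add]
  exact h

theorem key_one {γ : ℝ} (hγ : 0 ≤ γ) (hγ1 : γ ≤ 1) : Key γ 1 := by
  intro m k _ _ _ _ A B
  have h := key_rect hγ hγ1 B A
  have hd : detOut γ 1 (A * Aᴴ).trace.re (B * Bᴴ).trace.re =
      (1 - γ) * γ * (A * Aᴴ).trace.re ^ 2 := by
    rw [detOut]; ring
  have hPSD : (fromBlocks (B * Bᴴ + (γ : ℂ) • (A * Aᴴ)) ((√(1 - γ) : ℂ) • (B * Aᴴ))
        ((√(1 - γ) : ℂ) • (A * Bᴴ)) (((1 - γ : ℝ) : ℂ) • (A * Aᴴ))).PosSemidef := by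
    have h1 : 0 ≤ 1 - γ := by linarith
    have : fromBlocks (B * Bᴴ + (γ : ℂ) • (A * Aᴴ)) ((√(1 - γ) : ℂ) • (B * Aᴴ))
        ((√(1 - γ) : ℂ) • (A * Bᴴ)) (((1 - γ : ℝ) : ℂ) • (A * Aᴴ)) =
        fromBlocks B ((√γ : ℂ) • A) ((√(1 - γ) : ℂ) • A) 0 *
      (fromBlocks B ((√γ : ℂ) • A) ((√(1 - γ) : ℂ) • A) 0)ᴴ := by
      rw [fromBlocks_conjTranspose, fromBlocks_multiply]
      simp only [conjTranspose_smul, Matrix.mul_smul, Matrix.smul_mul, smul_smul,
        Complex.star_def, Complex.conj_ofReal, conjTranspose_zero, Matrix.mul_zero,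
        Matrix.zero_mul, add_zero, smul_zero]
      rw [sqrt_mul_self' hγ, sqrt_mul_self' h1]
    rw [this]
    exact posSemidef_self_mul_conjTranspose _
  have hsw := ent_submatrix_equiv (Equiv.sumComm m m) hPSD
  rw [← hsw] at h
  have he : (fromBlocks (B * Bᴴ + (γ : ℂ) • (A * Aᴴ)) ((√(1 - γ) : ℂ) • (B * Aᴴ))
        ((√(1 - γ) : ℂ) • (A * Bᴴ)) (((1 - γ : ℝ) : ℂ) • (A * Aᴴ))).submatrix
        (Equiv.sumComm m m) (Equiv.sumComm m m) =
      fromBlocks
        (((1 - γ * 1 : ℝ) : ℂ) • (A * Aᴴ) + ((γ * (1 - 1) : ℝ) : ℂ) • (B * Bᴴ))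
        ((√(1 - γ) : ℂ) • (A * Bᴴ))
        ((√(1 - γ) : ℂ) • (B * Aᴴ))
        (((γ * 1 : ℝ) : ℂ) • (A * Aᴴ) + ((1 - γ * (1 - 1) : ℝ) : ℂ) • (B * Bᴴ)) := by
    ext i j
    rcases i with i | i <;> rcases j with j | j <;> simp [add_comm]
  rw [he] at h
  rw [hd]
  rw [add_comm (A * Aᴴ).trace.re (B * Bᴴ).trace.re]
  linarith

end Vale.Agent.P358
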