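import Vale.Agent.P358.Defs

/-! Parameter algebra for the general key inequality of P358 (module K5). -/

namespace Vale.Agent.P358.Gen

theorem params {γ ν β : ℝ} (hγ : 0 ≤ γ) (hγ1 : γ < 1) (hν : 0 ≤ ν) (hν1 : ν ≤ 1) (hβ : 0 < β)
    (c0 c1 c2 c3 : ℝ) (hc0 : c0 = 1 - γ * ν) (hc1 : c1 = γ * (1 - ν))
    (hc2 : c2 = 1 - γ * (1 - ν)) (hc3 : c3 = γ * ν) :
    ∃ p lp lm : ℝ, 0 ≤ p ∧ p ≤ 1 ∧ 0 < lp ∧ 0 ≤ lm ∧ ((c1 ≠ 0 ∨ c3 ≠ 0) → 0 < lm) ∧
      lp + lm = 1 + β ∧ lp * lm = detOut γ ν 1 β ∧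
      p * lp + (1 - p) * lm = c3 + c2 * β ∧
      lm ≤ lp ∧
      -- identities of K2 with u± = l± - c1 β, t± = (l± - c3)/β
      (1 - p) * (lp - c1 * β) + p * (lm - c1 * β) = c0 ∧
      (1 - p) * ((lm - c3) / β) + p * ((lp - c3) / β) = c2 ∧
      (1 - p) * ((lp - c1 * β) * ((lm - c3) / β)) + p * ((lm - c1 * β) * ((lp - c3) / β))
        = c1 * c3 ∧
      -- monotonicity of H1 (z = c1 β) and H2 (z = c3/β)
      0 ≤ (1 - p) * ((lp - c1 * β) * lm) + p * ((lm - c1 * β) * lp) ∧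
      0 ≤ (1 - p) * ((lm - c3) / β * (lp / β)) + p * ((lp - c3) / β * (lm / β)) := by
  have hγν : 0 ≤ γ * ν := mul_nonneg hγ hν
  have hγν' : 0 ≤ γ * (1 - ν) := mul_nonneg hγ (by linarith)
  have hc0p : 0 < c0 := by rw [hc0]; nlinarith
  have hc2p : 0 < c2 := by rw [hc2]; nlinarith
  have hc1p : 0 ≤ c1 := hc1 ▸ hγν'
  have hc3p : 0 ≤ c3 := hc3 ▸ hγν
  set n0 : ℝ := c0 + c1 * β with hn0
  set n1 : ℝ := c3 + c2 * β with hn1
  have hn0p : 0 < n0 := by rw [hn0]; positivity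
  have hn1p : 0 < n1 := by rw [hn1]; positivity
  set D : ℝ := detOut γ ν 1 β with hD
  have hDn : D = n0 * n1 - (1 - γ) * β := by
    rw [hD, hn0, hn1, detOut, hc0, hc1, hc2, hc3]; ring
  have hDs : D = c3 * n0 + c1 * β * n1 := by
    rw [hD, hn0, hn1, detOut, hc0, hc1, hc2, hc3]; ring
  have hsum : n0 + n1 = 1 + β := by
    rw [hn0, hn1, hc0, hc1, hc2, hc3]; ring
  have hD0 : 0 ≤ D := by rw [hDs]; positivity
  have hη : 0 < (1 - γ) * β := mul_pos (by linarith) hβ
  set q : ℝ := √((n0 - n1) ^ 2 + 4 * ((1 - γ) * β)) with hq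
  have harg : 0 < (n0 - n1) ^ 2 + 4 * ((1 - γ) * β) := by positivity
  have hq0 : 0 < q := Real.sqrt_pos.2 harg
  have hq2 : q ^ 2 = (n0 - n1) ^ 2 + 4 * ((1 - γ) * β) := Real.sq_sqrt harg.le
  have habs : |n0 - n1| < q := by
    apply Real.lt_sqrt_of_sq_lt
    rw [sq_abs]; linarith
  have hlt := abs_lt.1 habs
  set lp : ℝ := ((1 + β) + q) / 2 with hlp
  set lm : ℝ := ((1 + β) - q) / 2 with hlm
  have hprod : lp * lm = D := by
    rw [hDn]
    have : lp * lm = ((n0 + n1) ^ 2 - q ^ 2) / 4 := by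
      rw [hlp, hlm, ← hsum]; ring
    rw [this, hq2]; ring
  have hlppos : 0 < lp := by rw [hlp]; positivity
  have hlm0 : 0 ≤ lm := by
    by_contra h
    push Not at h
    have := mul_neg_of_pos_of_neg hlppos h
    rw [hprod] at this
    linarith
  have hdiff : lp - lm = q := by rw [hlp, hlm]; ring
  set p : ℝ := (n1 - lm) / q with hp
  have hn1lm : lm < n1 := by
    rw [hlm]
    have : 1 + β = n0 + n1 := hsum.symm
    rw [this]; linarith [hlt.2]
  have hn1lp : n1 < lp := by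
    rw [hlp]
    have : 1 + β = n0 + n1 := hsum.symm
    rw [this]; linarith [hlt.1]
  have hpq : p * q = n1 - lm := by rw [hp]; field_simp
  have hp0 : 0 ≤ p := div_nonneg (by linarith) hq0.le
  have hp1 : p ≤ 1 := by
    rw [hp, div_le_one hq0]; linarith
  have e1 : p * lp + (1 - p) * lm = n1 := by
    have : p * lp + (1 - p) * lm = p * (lp - lm) + lm := by ring
    rw [this, hdiff, hpq]; ring
  have hs2 : lp + lm = 1 + β := by rw [hlp, hlm]; ring
  have e0 : (1 - p) * lp + p * lm = n0 := by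
    have : (1 - p) * lp + p * lm = (lp + lm) - (p * lp + (1 - p) * lm) := by ring
    rw [this, e1, hs2, ← hsum]; ring
  have hβ' : β ≠ 0 := hβ.ne'
  refine ⟨p, lp, lm, hp0, hp1, hlppos, hlm0, ?_, hs2, hprod, e1, by linarith, ?_, ?_, ?_, ?_, ?_⟩
  · intro h
    have hDpos : 0 < D := by
      rw [hDs]
      rcases h with h | h
      · have : 0 < c1 := lt_of_le_of_ne hc1p (Ne.symm h)
        positivity
      · have : 0 < c3 := lt_of_le_of_ne hc3p (Ne.symm h)
        positivity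
    rcases hlm0.lt_or_eq with h' | h'
    · exact h'
    · rw [← h', mul_zero] at hprod
      linarith
  · have : (1 - p) * (lp - c1 * β) + p * (lm - c1 * β) = ((1 - p) * lp + p * lm) - c1 * β := by
      ring
    rw [this, e0, hn0]; ring
  · have : (1 - p) * ((lm - c3) / β) + p * ((lp - c3) / β)
        = ((p * lp + (1 - p) * lm) - c3) / β := by
      field_simp; ring
    rw [this, e1, hn1]; field_simp; ring
  · have : (1 - p) * ((lp - c1 * β) * ((lm - c3) / β)) + p * ((lm - c1 * β) * ((lp - c3) / β))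
        = (lp * lm - c3 * ((1 - p) * lp + p * lm) - c1 * β * (p * lp + (1 - p) * lm)
            + c1 * c3 * β) / β := by
      field_simp; ring
    rw [this, e0, e1, hprod, hDs]; field_simp; ring
  · have : (1 - p) * ((lp - c1 * β) * lm) + p * ((lm - c1 * β) * lp)
        = lp * lm - c1 * β * (p * lp + (1 - p) * lm) := by ring
    rw [this, e1, hprod, hDs]
    have : 0 ≤ c3 * n0 := by positivity
    linarith
  · have : (1 - p) * ((lm - c3) / β * (lp / β)) + p * ((lp - c3) / β * (lm / β))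
        = (lp * lm - c3 * ((1 - p) * lp + p * lm)) / β ^ 2 := by
      field_simp; ring
    rw [this, e0, hprod, hDs]
    have : 0 ≤ c1 * β * n1 := by positivity
    apply div_nonneg _ (by positivity)
    linarith

end Vale.Agent.P358.Gen
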