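import Vale.Agent.P358.EntRel

/-! Scalar inequalities. -/

open Matrix Finset Filter Topology
open scoped ComplexOrder

namespace Vale.Agent.P358

variable {ι : Type*} [Fintype ι]

theorem eta2_prod {l r : ℝ} : eta2 (l + r) (l * r) = Real.negMulLog l + Real.negMulLog r := by
  have h : (l + r) ^ 2 - 4 * (l * r) = (l - r) ^ 2 := by ring
  rw [eta2, h, Real.sqrt_sq_eq_abs]
  rcases le_total l r with h1 | h1
  · rw [abs_of_nonpos (by linarith)]
    rw [show (l + r + -(l - r)) / 2 = r by ring, show (l + r - -(l - r)) / 2 = l by ring]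
    ring
  · rw [abs_of_nonneg (by linarith)]
    rw [show (l + r + (l - r)) / 2 = l by ring, show (l + r - (l - r)) / 2 = r by ring]

theorem eta2_smul {c : ℝ} (hc : 0 ≤ c) (w D : ℝ) :
    eta2 (c * w) (c ^ 2 * D) = c * eta2 w D + Real.negMulLog c * w := by
  have h : √((c * w) ^ 2 - 4 * (c ^ 2 * D)) = c * √(w ^ 2 - 4 * D) := by
    rw [show (c * w) ^ 2 - 4 * (c ^ 2 * D) = c ^ 2 * (w ^ 2 - 4 * D) by ring,
      Real.sqrt_mul (by positivity), Real.sqrt_sq hc]
  rw [eta2, h, show (c * w + c * √(w ^ 2 - 4 * D)) / 2 = c * ((w + √(w ^ 2 - 4 * D)) / 2) by ring,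
    show (c * w - c * √(w ^ 2 - 4 * D)) / 2 = c * ((w - √(w ^ 2 - 4 * D)) / 2) by ring,
    Real.negMulLog_mul, Real.negMulLog_mul, eta2]
  ring

/-- tangent inequality for `log (1 + c/(x y))`. -/
theorem log_tangent {c x y x₀ y₀ : ℝ} (hc : 0 ≤ c) (hx : 0 < x) (hy : 0 < y) (hx₀ : 0 < x₀)
    (hy₀ : 0 < y₀) :
    Real.log (1 + c / (x₀ * y₀)) - c / (x₀ * y₀ + c) * ((x - x₀) / x₀ + (y - y₀) / y₀) ≤
      Real.log (1 + c / (x * y)) := by
  set θ : ℝ := c / (x₀ * y₀ + c) with hθ
  have hθ0 : 0 ≤ θ := by positivity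
  have hθ1 : θ ≤ 1 := by
    rw [hθ, div_le_one (by positivity)]
    nlinarith [mul_pos hx₀ hy₀]
  -- concavity of log: `log (1 - θ + θ z) ≥ θ log z`
  have h1 : θ * Real.log (x₀ * y₀ / (x * y)) ≤
      Real.log ((1 - θ) * 1 + θ * (x₀ * y₀ / (x * y))) := by
    have hz : x₀ * y₀ / (x * y) ∈ Set.Ioi (0 : ℝ) := by
      simp only [Set.mem_Ioi]; positivity
    have := strictConcaveOn_log_Ioi.concaveOn.2 (Set.mem_Ioi.2 one_pos) hz
      (sub_nonneg.2 hθ1) hθ0 (by ring)
    simpa using this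
  have h2 : (1 - θ) * 1 + θ * (x₀ * y₀ / (x * y)) = (1 + c / (x * y)) / (1 + c / (x₀ * y₀)) := by
    rw [hθ]
    field_simp
    ring
  have h3 : Real.log ((1 - θ) * 1 + θ * (x₀ * y₀ / (x * y))) =
      Real.log (1 + c / (x * y)) - Real.log (1 + c / (x₀ * y₀)) := by
    rw [h2, Real.log_div (by positivity) (by positivity)]
  have h4 : Real.log (x₀ * y₀ / (x * y)) = -(Real.log (x / x₀) + Real.log (y / y₀)) := by
    rw [← Real.log_mul (by positivity) (by positivity), ← Real.log_inv]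
    congr 1
    field_simp
  have h5 : Real.log (x / x₀) ≤ (x - x₀) / x₀ := by
    have := Real.log_le_sub_one_of_pos (show 0 < x / x₀ by positivity)
    have h : x / x₀ - 1 = (x - x₀) / x₀ := by field_simp
    linarith
  have h6 : Real.log (y / y₀) ≤ (y - y₀) / y₀ := by
    have := Real.log_le_sub_one_of_pos (show 0 < y / y₀ by positivity)
    have h : y / y₀ - 1 = (y - y₀) / y₀ := by field_simp
    linarith
  have h7 : θ * (Real.log (x / x₀) + Real.log (y / y₀)) ≤
      θ * ((x - x₀) / x₀ + (y - y₀) / y₀) := by gcongr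
  rw [h4] at h1
  nlinarith

/-- `Θ(p,l,r)` -/
noncomputable def Th (p l r : ℝ) : ℝ :=
  Real.negMulLog p + Real.negMulLog l + Real.negMulLog r - eta2 (p + l + r) (l * r)

theorem Th_zero (l r : ℝ) : Th 0 l r = 0 := by
  rw [Th, zero_add, eta2_prod]
  simp

theorem Th_smul {c : ℝ} (hc : 0 ≤ c) (p l r : ℝ) : Th (c * p) (c * l) (c * r) = c * Th p l r := by
  have := eta2_smul hc (p + l + r) (l * r)
  rw [Th, show c * p + c * l + c * r = c * (p + l + r) by ring,
    show c * l * (c * r) = c ^ 2 * (l * r) by ring, this, Real.negMulLog_mul,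
    Real.negMulLog_mul, Real.negMulLog_mul, Th]
  ring

theorem EntRel.Th {p l r : ℝ} (hp : 0 ≤ p) (hl : 0 ≤ l) (hr : 0 ≤ r) :
    EntRel (fun t => Real.log (1 + p / t) - Real.log (1 + (t * p) / ((t + l) * (t + r)))) 0
      (Th p l r) := by
  have h1 := ((EntRel.scalar hp).add (EntRel.scalar hl)).add (EntRel.scalar hr)
  have h2 := EntRel.eta2 (w := p + l + r) (D := l * r) (by positivity) (by positivity)
    (by nlinarith [sq_nonneg (l - r), mul_nonneg hp hl, mul_nonneg hp hr, sq_nonneg p])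
  have h3 := h1.sub h2
  rw [sub_self] at h3
  refine h3.congr fun t ht => ?_
  have e1 : 1 + (t * p) / ((t + l) * (t + r)) =
      (1 + (p + l + r) / t + l * r / t ^ 2) / ((1 + l / t) * (1 + r / t)) := by
    field_simp
    ring
  rw [e1, Real.log_div (by positivity) (by positivity), Real.log_mul (by positivity)
    (by positivity)]
  ring

/-- superadditivity of `Θ`. -/
theorem Th_superadd (p l r : ι → ℝ) (hp : ∀ i, 0 ≤ p i) (hl : ∀ i, 0 ≤ l i)
    (hr : ∀ i, 0 ≤ r i) :
    ∑ i, Th (p i) (l i) (r i) ≤ Th (∑ i, p i) (∑ i, l i) (∑ i, r i) := by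
  set P := ∑ i, p i with hP
  have hP0 : 0 ≤ P := Finset.sum_nonneg fun i _ => hp i
  rcases hP0.eq_or_lt with h0 | h0
  · have hz : ∀ i, p i = 0 := by
      intro i
      have := (Finset.sum_eq_zero_iff_of_nonneg (fun i _ => hp i)).1 (hP ▸ h0.symm) i
        (Finset.mem_univ i)
      exact this
    rw [← h0]
    simp [hz, Th_zero]
  · set L := ∑ i, l i
    set R := ∑ i, r i
    have hL0 : 0 ≤ L := Finset.sum_nonneg fun i _ => hl i
    have hR0 : 0 ≤ R := Finset.sum_nonneg fun i _ => hr i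
    set u : ι → ℝ := fun i => p i / P with hu
    have hu0 : ∀ i, 0 ≤ u i := fun i => div_nonneg (hp i) h0.le
    have hu1 : ∑ i, u i = 1 := by
      rw [hu, ← Finset.sum_div, ← hP, div_self h0.ne']
    have h1 : ∀ i, Th (p i) (l i) (r i) = u i * Th P (l i / u i) (r i / u i) := by
      intro i
      rcases (hp i).eq_or_lt with h | h
      · have : u i = 0 := by rw [hu]; simp [← h]
        rw [this, ← h, Th_zero, zero_mul]
      · have hui : 0 < u i := by rw [hu]; positivity
        rw [← Th_smul (hu0 i)]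
        congr 1
        · rw [hu]; field_simp
        · field_simp
        · field_simp
    rw [Finset.sum_congr rfl fun i _ => h1 i]
    have hlu : ∀ i, 0 ≤ l i / u i := fun i => div_nonneg (hl i) (hu0 i)
    have hru : ∀ i, 0 ≤ r i / u i := fun i => div_nonneg (hr i) (hu0 i)
    have hE := (EntRel.Th h0.le hL0 hR0).sub
      (EntRel.sum Finset.univ fun i _ => (EntRel.Th h0.le (hlu i) (hru i)).smul (u i))
    simp only [mul_zero, Finset.sum_const_zero, sub_self] at hE
    have := hE.nonneg ?_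
    · linarith
    · intro t ht
      have hsum1 : ∑ i, u i * Real.log (1 + P / t) = Real.log (1 + P / t) := by
        rw [← Finset.sum_mul, hu1, one_mul]
      have hlb : ∑ i, u i * Real.log (1 + (t * P) / ((t + l i / u i) * (t + r i / u i))) ≥
          Real.log (1 + (t * P) / ((t + L) * (t + R))) := by
        set θ : ℝ := (t * P) / ((t + L) * (t + R) + t * P) with hθ
        have hθ0 : 0 ≤ θ := by positivity
        have h2 : ∀ i, u i * (Real.log (1 + (t * P) / ((t + L) * (t + R))) -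
            θ * (((t + l i / u i) - (t + L)) / (t + L) + ((t + r i / u i) - (t + R)) / (t + R))) ≤
            u i * Real.log (1 + (t * P) / ((t + l i / u i) * (t + r i / u i))) := by
          intro i
          refine mul_le_mul_of_nonneg_left ?_ (hu0 i)
          have h3 := hlu i
          have h4 := hru i
          exact log_tangent (by positivity) (by positivity) (by positivity) (by positivity)
            (by positivity)
        refine le_trans ?_ (Finset.sum_le_sum fun i _ => h2 i)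
        have h5 : ∑ i, u i * (Real.log (1 + (t * P) / ((t + L) * (t + R))) -
            θ * (((t + l i / u i) - (t + L)) / (t + L) + ((t + r i / u i) - (t + R)) / (t + R))) =
            Real.log (1 + (t * P) / ((t + L) * (t + R))) -
              θ * ((∑ i, u i * (l i / u i) - L) / (t + L) +
                (∑ i, u i * (r i / u i) - R) / (t + R)) := by
          have e1 : ∀ i, u i * (Real.log (1 + (t * P) / ((t + L) * (t + R))) -
            θ * (((t + l i / u i) - (t + L)) / (t + L) + ((t + r i / u i) - (t + R)) / (t + R))) =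
            u i * (Real.log (1 + (t * P) / ((t + L) * (t + R))) + θ * (L / (t + L) + R / (t + R))) -
              θ / (t + L) * (u i * (l i / u i)) - θ / (t + R) * (u i * (r i / u i)) := by
            intro i
            ring
          rw [Finset.sum_congr rfl fun i _ => e1 i, Finset.sum_sub_distrib,
            Finset.sum_sub_distrib, ← Finset.sum_mul, ← Finset.mul_sum, ← Finset.mul_sum, hu1]
          ring
        rw [h5]
        have h6 : ∑ i, u i * (l i / u i) ≤ L := by
          refine Finset.sum_le_sum fun i _ => ?_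
          rcases (hu0 i).eq_or_lt with h | h
          · rw [← h]; simpa using hl i
          · rw [mul_div_cancel₀ _ h.ne']
        have h7 : ∑ i, u i * (r i / u i) ≤ R := by
          refine Finset.sum_le_sum fun i _ => ?_
          rcases (hu0 i).eq_or_lt with h | h
          · rw [← h]; simpa using hr i
          · rw [mul_div_cancel₀ _ h.ne']
        have h8 : (∑ i, u i * (l i / u i) - L) / (t + L) ≤ 0 :=
          div_nonpos_of_nonpos_of_nonneg (by linarith) (by positivity)
        have h9 : (∑ i, u i * (r i / u i) - R) / (t + R) ≤ 0 :=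
          div_nonpos_of_nonpos_of_nonneg (by linarith) (by positivity)
        nlinarith [mul_nonneg hθ0 (by linarith : 0 ≤ -((∑ i, u i * (l i / u i) - L) / (t + L) +
                (∑ i, u i * (r i / u i) - R) / (t + R)))]
      simp only [mul_sub, Finset.sum_sub_distrib]
      linarith

theorem theta_superadd (p l r : ι → ℝ) (hp : ∀ i, 0 ≤ p i) (hl : ∀ i, 0 ≤ l i)
    (hr : ∀ i, 0 ≤ r i) :
    ∑ i, (Real.negMulLog (p i) + Real.negMulLog (l i) + Real.negMulLog (r i)
        - eta2 (p i + l i + r i) (l i * r i)) ≤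
      Real.negMulLog (∑ i, p i) + Real.negMulLog (∑ i, l i) + Real.negMulLog (∑ i, r i)
        - eta2 (∑ i, p i + ∑ i, l i + ∑ i, r i) ((∑ i, l i) * ∑ i, r i) :=
  Th_superadd p l r hp hl hr

/-- `F(w,x) = eta2 w x² - η(w)`. -/
noncomputable def Fs (w x : ℝ) : ℝ := eta2 w (x ^ 2) - Real.negMulLog w

theorem Fs_smul {c : ℝ} (hc : 0 ≤ c) (w x : ℝ) : Fs (c * w) (c * x) = c * Fs w x := by
  have := eta2_smul hc w (x ^ 2)
  rw [Fs, show (c * x) ^ 2 = c ^ 2 * x ^ 2 by ring, this, Real.negMulLog_mul, Fs]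
  ring

theorem Fs_zero {w : ℝ} (hw : 0 ≤ w) : Fs w 0 = 0 := by
  have := eta2_prod (l := w) (r := 0)
  rw [Fs]
  simp only [add_zero, mul_zero, Real.negMulLog_zero] at this
  norm_num [this]

theorem EntRel.Fs {w x : ℝ} (hw : 0 ≤ w) (hx : 0 ≤ x) (h : 2 * x ≤ w) :
    EntRel (fun t => Real.log (1 + x ^ 2 / (t * (t + w)))) 0 (Fs w x) := by
  have h1 := (EntRel.eta2 (w := w) (D := x ^ 2) hw (by positivity) (by nlinarith)).sub
    (EntRel.scalar hw)
  rw [sub_self] at h1
  refine h1.congr fun t ht => ?_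
  rw [← Real.log_div (by positivity) (by positivity)]
  congr 1
  field_simp

/-- monotonicity of `F` in both variables -/
theorem Fs_mono {w x w' x' : ℝ} (hw : 0 ≤ w') (hx : 0 ≤ x) (h : 2 * x' ≤ w') (hww : w' ≤ w)
    (hxx : x ≤ x') : Fs w x ≤ Fs w' x' := by
  have h1 := (EntRel.Fs hw (hx.trans hxx) h).sub (EntRel.Fs (hw.trans hww) hx (by linarith))
  rw [sub_self] at h1
  have := h1.nonneg fun t ht => ?_
  · linarith
  · have : Real.log (1 + x ^ 2 / (t * (t + w))) ≤ Real.log (1 + x' ^ 2 / (t * (t + w'))) := by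
      have : 0 ≤ w := hw.trans hww
      gcongr
    linarith

/-- subadditivity of `F`. -/
theorem Fs_subadd {w x w' x' : ℝ} (hx : 0 ≤ x) (h : 2 * x ≤ w) (hx' : 0 ≤ x')
    (h' : 2 * x' ≤ w') : Fs (w + w') (x + x') ≤ Fs w x + Fs w' x' := by
  have hw : 0 ≤ w := by linarith
  have hw' : 0 ≤ w' := by linarith
  rcases hx.eq_or_lt with h0 | h0
  · rw [← h0, Fs_zero hw, zero_add, zero_add]
    exact Fs_mono hw' hx' h' (by linarith) le_rfl
  rcases hx'.eq_or_lt with h0' | h0'
  · rw [← h0', Fs_zero hw', add_zero, add_zero]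
    exact Fs_mono hw hx h (by linarith) le_rfl
  set X := x + x' with hX
  have hX0 : 0 < X := by positivity
  have e1 : Fs w x = x / X * Fs (w * X / x) X := by
    rw [← Fs_smul (by positivity)]
    congr 1 <;> field_simp
  have e2 : Fs w' x' = x' / X * Fs (w' * X / x') X := by
    rw [← Fs_smul (by positivity)]
    congr 1 <;> field_simp
  have g1 : 2 * X ≤ w * X / x := by
    rw [le_div_iff₀ h0]
    nlinarith
  have g2 : 2 * X ≤ w' * X / x' := by
    rw [le_div_iff₀ h0']
    nlinarith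
  have h1 := (((EntRel.Fs (by positivity) hX0.le g1).smul (x / X)).add
    ((EntRel.Fs (by positivity) hX0.le g2).smul (x' / X))).sub
    (EntRel.Fs (w := w + w') (by positivity) hX0.le (by linarith))
  simp only [mul_zero, add_zero, sub_self] at h1
  have := h1.nonneg fun t ht => ?_
  · rw [e1, e2]
    linarith
  · have hW : 0 ≤ w + w' := by linarith
    have t1 := log_tangent (c := X ^ 2) (x := t) (y := t + w * X / x) (x₀ := t)
      (y₀ := t + (w + w')) (by positivity) ht (by positivity) ht (by positivity)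
    have t2 := log_tangent (c := X ^ 2) (x := t) (y := t + w' * X / x') (x₀ := t)
      (y₀ := t + (w + w')) (by positivity) ht (by positivity) ht (by positivity)
    simp only [sub_self, zero_div, zero_add] at t1 t2
    have hs : x / X + x' / X = 1 := by
      rw [← add_div, div_self hX0.ne']
    have t3 := mul_le_mul_of_nonneg_left t1 (show 0 ≤ x / X by positivity)
    have t4 := mul_le_mul_of_nonneg_left t2 (show 0 ≤ x' / X by positivity)
    set K := Real.log (1 + X ^ 2 / (t * (t + (w + w'))))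
    set θ := X ^ 2 / (t * (t + (w + w')) + X ^ 2)
    have e3 : x / X * (K - θ * ((t + w * X / x - (t + (w + w'))) / (t + (w + w')))) +
        x' / X * (K - θ * ((t + w' * X / x' - (t + (w + w'))) / (t + (w + w')))) = K := by
      have : x / X * (K - θ * ((t + w * X / x - (t + (w + w'))) / (t + (w + w')))) +
        x' / X * (K - θ * ((t + w' * X / x' - (t + (w + w'))) / (t + (w + w')))) =
        (x / X + x' / X) * K - θ / (t + (w + w')) * (x / X * (w * X / x) + x' / X * (w' * X / x')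
          - (x / X + x' / X) * (w + w')) := by
        ring
      rw [this, hs]
      have : x / X * (w * X / x) + x' / X * (w' * X / x') = w + w' := by field_simp
      rw [this]
      ring
    linarith

theorem detOut_eq (γ ν p k : ℝ) : detOut γ ν p k =
    ((1 - γ * ν) * p + γ * (1 - ν) * k) * (γ * ν * p + (1 - γ * (1 - ν)) * k)
      - (1 - γ) * (p * k) := by
  rw [detOut]
  ring

theorem detOut_nonneg {γ ν : ℝ} (hγ : 0 ≤ γ) (hγ1 : γ ≤ 1) (hν : 0 ≤ ν) (hν1 : ν ≤ 1) (p k : ℝ) :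
    0 ≤ detOut γ ν p k := by
  have h1 : 0 ≤ 1 - γ := by linarith
  have h2 : 0 ≤ 1 - ν := by linarith
  rw [detOut]
  positivity

theorem four_detOut_le {γ ν : ℝ} (hγ1 : γ ≤ 1) {p k : ℝ}
    (hp : 0 ≤ p) (hk : 0 ≤ k) : 4 * detOut γ ν p k ≤ (p + k) ^ 2 := by
  have h1 : 0 ≤ 1 - γ := by linarith
  rw [detOut_eq]
  have h2 : 0 ≤ (1 - γ) * (p * k) := by positivity
  nlinarith [sq_nonneg (((1 - γ * ν) * p + γ * (1 - ν) * k) -
    (γ * ν * p + (1 - γ * (1 - ν)) * k))]

theorem sg_eq_Fs {γ ν : ℝ} (hγ : 0 ≤ γ) (hγ1 : γ ≤ 1) (hν : 0 ≤ ν) (hν1 : ν ≤ 1) (p k : ℝ) :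
    sg γ ν p k = Fs (p + k) (√(detOut γ ν p k)) := by
  rw [sg, Fs, Real.sq_sqrt (detOut_nonneg hγ hγ1 hν hν1 p k)]

theorem two_sqrt_detOut_le {γ ν : ℝ} (hγ1 : γ ≤ 1) {p k : ℝ}
    (hp : 0 ≤ p) (hk : 0 ≤ k) : 2 * √(detOut γ ν p k) ≤ p + k := by
  have h := four_detOut_le (ν := ν) hγ1 hp hk
  have : √(detOut γ ν p k) ≤ (p + k) / 2 := by
    rw [Real.sqrt_le_left (by positivity)]
    nlinarith
  linarith

/-- subadditivity of `sg` -/
theorem sg_subadd {γ ν : ℝ} (hγ : 0 ≤ γ) (hγ1 : γ ≤ 1) (hν : 0 ≤ ν) (hν1 : ν ≤ 1)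
    {p k p' k' : ℝ} (hp : 0 ≤ p) (hk : 0 ≤ k) (hp' : 0 ≤ p') (hk' : 0 ≤ k') :
    sg γ ν (p + p') (k + k') ≤ sg γ ν p k + sg γ ν p' k' := by
  rw [sg_eq_Fs hγ hγ1 hν hν1, sg_eq_Fs hγ hγ1 hν hν1, sg_eq_Fs hγ hγ1 hν hν1]
  have h1 := two_sqrt_detOut_le (ν := ν) hγ1 hp hk
  have h2 := two_sqrt_detOut_le (ν := ν) hγ1 hp' hk'
  have h3 := Fs_subadd (Real.sqrt_nonneg _) h1 (Real.sqrt_nonneg _) h2
  refine le_trans ?_ h3
  rw [show p + p' + (k + k') = p + k + (p' + k') by ring]
  refine Fs_mono (by positivity) (Real.sqrt_nonneg _) (by linarith) le_rfl ?_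
  -- Minkowski
  have hD := detOut_nonneg hγ hγ1 hν hν1 p k
  have hD' := detOut_nonneg hγ hγ1 hν hν1 p' k'
  rw [Real.sqrt_le_left (by positivity)]
  have hc : 0 ≤ (1 - γ) * γ := mul_nonneg (by linarith) hγ
  have hd : 0 ≤ γ * ν * (1 - ν) := mul_nonneg (mul_nonneg hγ hν) (by linarith)
  set y := k - ν * (p + k) with hy
  set y' := k' - ν * (p' + k') with hy'
  set w := p + k
  set w' := p' + k'
  set c := (1 - γ) * γ
  set d := γ * ν * (1 - ν)
  have e1 : detOut γ ν p k = c * y ^ 2 + d * w ^ 2 := rfl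
  have e2 : detOut γ ν p' k' = c * y' ^ 2 + d * w' ^ 2 := rfl
  have e3 : detOut γ ν (p + p') (k + k') = c * (y + y') ^ 2 + d * (w + w') ^ 2 := by
    rw [detOut, hy, hy']
    ring
  have hcs : c * (y * y') + d * (w * w') ≤ √(detOut γ ν p k) * √(detOut γ ν p' k') := by
    rw [← Real.sqrt_mul hD]
    refine Real.le_sqrt_of_sq_le ?_
    rw [e1, e2]
    nlinarith [mul_nonneg (mul_nonneg hc hd) (sq_nonneg (y * w' - y' * w))]
  rw [e3]
  have s1 := Real.sq_sqrt hD
  have s2 := Real.sq_sqrt hD'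
  nlinarith

theorem sg_nonneg {γ ν : ℝ} (hγ : 0 ≤ γ) (hγ1 : γ ≤ 1) (hν : 0 ≤ ν) (hν1 : ν ≤ 1)
    {p k : ℝ} (hp : 0 ≤ p) (hk : 0 ≤ k) : 0 ≤ sg γ ν p k := by
  rw [sg_eq_Fs hγ hγ1 hν hν1]
  have h := EntRel.Fs (by positivity : 0 ≤ p + k) (Real.sqrt_nonneg _)
    (two_sqrt_detOut_le (ν := ν) hγ1 hp hk)
  refine h.nonneg fun t ht => Real.log_nonneg ?_
  have : 0 ≤ √(detOut γ ν p k) ^ 2 / (t * (t + (p + k))) := by positivity
  linarith

theorem sg_smul {γ ν : ℝ} {c : ℝ} (hc : 0 ≤ c) (p k : ℝ) :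
    sg γ ν (c * p) (c * k) = c * sg γ ν p k := by
  have h1 : detOut γ ν (c * p) (c * k) = c ^ 2 * detOut γ ν p k := by
    rw [detOut, detOut]; ring
  rw [sg, h1, ← mul_add, eta2_smul hc, Real.negMulLog_mul, sg]
  ring

end Vale.Agent.P358
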