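import Vale.Agent.P358.EntRel
import Vale.Agent.P358.KeyDef
import Vale.Agent.P358.Wt
import Vale.Agent.P358.Scal

/-! P358, module E: tensor powers of the generalized amplitude damping channel. -/

open Matrix Finset
open scoped ComplexOrder

namespace Vale.Agent.P358

/-- Kraus operators of `gad γ ν` -/
noncomputable def kr (γ ν : ℝ) : Fin 4 → Matrix (Fin 2) (Fin 2) ℂ :=
  ![!![(√(1 - ν) : ℂ), 0; 0, (√(1 - ν) : ℂ) * √(1 - γ)],
    !![0, (√(1 - ν) : ℂ) * √γ; 0, 0],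
    !![(√ν : ℂ) * √(1 - γ), 0; 0, (√ν : ℂ)],
    !![0, 0; (√ν : ℂ) * √γ, 0]]

theorem sqrt_mul_self_c {x : ℝ} (hx : 0 ≤ x) : (√x : ℂ) * (√x : ℂ) = x := by
  rw [← Complex.ofReal_mul, Real.mul_self_sqrt hx]

theorem gad_single {γ ν : ℝ} (hγ : 0 ≤ γ) (hγ1 : γ ≤ 1) (hν : 0 ≤ ν) (hν1 : ν ≤ 1)
    (c d a b : Fin 2) :
    gad γ ν (Matrix.single c d 1) a b = ∑ j, kr γ ν j a c * star (kr γ ν j b d) := by
  have h1 := sqrt_mul_self_c hγ
  have h2 := sqrt_mul_self_c (by linarith : 0 ≤ 1 - γ)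
  have h3 := sqrt_mul_self_c hν
  have h4 := sqrt_mul_self_c (by linarith : 0 ≤ 1 - ν)
  push_cast at h1 h2 h3 h4
  fin_cases a <;> fin_cases b <;> fin_cases c <;> fin_cases d <;>
    simp [gad, kr, Fin.sum_univ_four, Complex.conj_ofReal]
  · linear_combination -h4 - ((√(1 - γ) : ℂ) * √(1 - γ)) * h3 - (ν : ℂ) * h2
  · linear_combination -((√γ : ℂ) * √γ) * h4 - (1 - ν : ℂ) * h1
  · linear_combination -(√(1 - γ) : ℂ) * h4 - (√(1 - γ) : ℂ) * h3
  · linear_combination -(√(1 - γ) : ℂ) * h4 - (√(1 - γ) : ℂ) * h3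
  · linear_combination -((√γ : ℂ) * √γ) * h3 - (ν : ℂ) * h1
  · linear_combination -((√(1 - γ) : ℂ) * √(1 - γ)) * h4 - (1 - ν : ℂ) * h2 - h3

/-- product Kraus operators -/
noncomputable def KK (γ ν : ℝ) {n : ℕ} (j : Fin n → Fin 4) : Matrix (Qb n) (Qb n) ℂ :=
  fun a c => ∏ i, kr γ ν (j i) (a i) (c i)

theorem prod_gad {γ ν : ℝ} (hγ : 0 ≤ γ) (hγ1 : γ ≤ 1) (hν : 0 ≤ ν) (hν1 : ν ≤ 1) {n : ℕ}
    (a b c d : Qb n) :
    ∏ i, gad γ ν (Matrix.single (c i) (d i) 1) (a i) (b i) =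
      ∑ j : Fin n → Fin 4, KK γ ν j a c * star (KK γ ν j b d) := by
  simp_rw [gad_single hγ hγ1 hν hν1]
  rw [Finset.prod_univ_sum, Fintype.piFinset_univ]
  refine Finset.sum_congr rfl fun j _ => ?_
  rw [Finset.prod_mul_distrib, KK, KK, star_prod]

theorem tpow_apply (N : Matrix (Fin 2) (Fin 2) ℂ → Matrix (Fin 2) (Fin 2) ℂ) (n : ℕ)
    (ρ : Matrix (Qb n) (Qb n) ℂ) (a b : Qb n) :
    tpow N n ρ a b = ∑ c, ∑ d, (∏ i, N (Matrix.single (c i) (d i) 1) (a i) (b i)) * ρ c d := rfl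

/-- Kraus form of the channel with an ancilla -/
theorem tpow_kraus {γ ν : ℝ} (hγ : 0 ≤ γ) (hγ1 : γ ≤ 1) (hν : 0 ≤ ν) (hν1 : ν ≤ 1) {n : ℕ}
    (ρ : Matrix (Qb n) (Qb n) ℂ) (a b : Qb n) :
    tpow (gad γ ν) n ρ a b =
      ∑ j : Fin n → Fin 4, ∑ c, ∑ d, KK γ ν j a c * ρ c d * star (KK γ ν j b d) := by
  unfold tpow
  simp_rw [prod_gad hγ hγ1 hν hν1, Finset.sum_mul]
  have h1 : ∀ c, ∑ d, ∑ j : Fin n → Fin 4, KK γ ν j a c * star (KK γ ν j b d) * ρ c d =
      ∑ j : Fin n → Fin 4, ∑ d, KK γ ν j a c * star (KK γ ν j b d) * ρ c d :=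
    fun c => Finset.sum_comm
  simp_rw [h1]
  rw [Finset.sum_comm]
  refine Finset.sum_congr rfl fun j _ => Finset.sum_congr rfl fun c _ =>
    Finset.sum_congr rfl fun d _ => ?_
  ring

/-- block of a matrix indexed by `κ × Qb n` -/
def blk {κ : Type*} {n : ℕ} (ρ : Matrix (κ × Qb n) (κ × Qb n) ℂ) (x y : κ) :
    Matrix (Qb n) (Qb n) ℂ := Matrix.of fun c d => ρ (x, c) (y, d)

/-- blocks of a matrix indexed by `κ × Qb n`, each transformed by the channel -/
noncomputable def ext {κ : Type*} (γ ν : ℝ) (n : ℕ) (ρ : Matrix (κ × Qb n) (κ × Qb n) ℂ) :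
    Matrix (κ × Qb n) (κ × Qb n) ℂ :=
  Matrix.of fun x y => tpow (gad γ ν) n (blk ρ x.1 y.1) x.2 y.2

theorem ext_posSemidef {κ : Type*} [Fintype κ] [DecidableEq κ] {γ ν : ℝ} (hγ : 0 ≤ γ)
    (hγ1 : γ ≤ 1) (hν : 0 ≤ ν) (hν1 : ν ≤ 1) {n : ℕ}
    {ρ : Matrix (κ × Qb n) (κ × Qb n) ℂ} (hρ : ρ.PosSemidef) : (ext γ ν n ρ).PosSemidef := by
  have h1 : ext γ ν n ρ = ∑ j : Fin n → Fin 4,
      (Matrix.of fun x y : κ × Qb n => if x.1 = y.1 then KK γ ν j x.2 y.2 else 0) * ρ *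
      (Matrix.of fun x y : κ × Qb n => if x.1 = y.1 then KK γ ν j x.2 y.2 else 0)ᴴ := by
    ext x y
    rw [ext, Matrix.of_apply, tpow_kraus hγ hγ1 hν hν1, Matrix.sum_apply]
    refine Finset.sum_congr rfl fun j _ => ?_
    simp only [Matrix.mul_apply, Matrix.conjTranspose_apply, Matrix.of_apply, Finset.sum_mul,
      Fintype.sum_prod_type]
    rw [Finset.sum_comm]
    symm
    rw [Finset.sum_eq_single y.1]
    · refine Finset.sum_congr rfl fun d _ => ?_
      rw [Finset.sum_eq_single x.1]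
      · simp [blk]
      · intro b _ hb
        simp [Ne.symm hb]
      · simp
    · intro b _ hb
      refine Finset.sum_eq_zero fun d _ => Finset.sum_eq_zero fun c _ =>
        Finset.sum_eq_zero fun e _ => ?_
      simp [Ne.symm hb]
    · simp
  rw [h1]
  refine Matrix.posSemidef_sum _ fun j _ => ?_
  exact hρ.mul_mul_conjTranspose_same _

theorem tpow_posSemidef {γ ν : ℝ} (hγ : 0 ≤ γ) (hγ1 : γ ≤ 1) (hν : 0 ≤ ν) (hν1 : ν ≤ 1) {n : ℕ}
    {ρ : Matrix (Qb n) (Qb n) ℂ} (hρ : ρ.PosSemidef) : (tpow (gad γ ν) n ρ).PosSemidef := by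
  have h1 : (ext γ ν n (ρ.submatrix (Prod.snd : Unit × Qb n → Qb n) Prod.snd)).PosSemidef :=
    ext_posSemidef hγ hγ1 hν hν1 (hρ.submatrix _)
  exact h1.submatrix (fun a => ((), a))

theorem gad_single_trace (γ ν : ℝ) (c d : Fin 2) :
    ∑ x, gad γ ν (Matrix.single c d 1) x x = if c = d then 1 else 0 := by
  fin_cases c <;> fin_cases d <;> simp [gad, Fin.sum_univ_two]

theorem gad_single_one (γ ν : ℝ) (c d : Fin 2) :
    gad γ ν (Matrix.single c d 1) 1 1 =
      if c = d then ((1 - γ : ℝ) : ℂ) * (if c = 1 then 1 else 0) + ((γ * ν : ℝ) : ℂ) else 0 := by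
  fin_cases c <;> fin_cases d <;> simp [gad]

theorem prod_ite_eq {n : ℕ} (c d : Qb n) :
    ∏ i, (if c i = d i then (1 : ℂ) else 0) = if c = d then 1 else 0 := by
  rw [Finset.prod_ite_zero]
  simp [funext_iff]

theorem tpow_trace (γ ν : ℝ) {n : ℕ} (ρ : Matrix (Qb n) (Qb n) ℂ) :
    (tpow (gad γ ν) n ρ).trace = ρ.trace := by
  unfold Matrix.trace
  simp only [Matrix.diag_apply, tpow_apply]
  rw [Finset.sum_comm]
  refine Finset.sum_congr rfl fun c _ => ?_
  rw [Finset.sum_comm]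
  rw [Finset.sum_eq_single c]
  · rw [← Finset.sum_mul]
    have h1 : ∑ a : Qb n, ∏ i, gad γ ν (Matrix.single (c i) (c i) 1) (a i) (a i) = 1 := by
      have h2 := Finset.prod_univ_sum (fun _ : Fin n => (Finset.univ : Finset (Fin 2)))
        (fun i x => gad γ ν (Matrix.single (c i) (c i) 1) x x)
      rw [Fintype.piFinset_univ] at h2
      rw [← h2]
      simp_rw [gad_single_trace]
      simp
    rw [h1, one_mul]
  · intro d _ hd
    rw [← Finset.sum_mul]
    have h1 : ∑ a : Qb n, ∏ i, gad γ ν (Matrix.single (c i) (d i) 1) (a i) (a i) = 0 := by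
      have h2 := Finset.prod_univ_sum (fun _ : Fin n => (Finset.univ : Finset (Fin 2)))
        (fun i x => gad γ ν (Matrix.single (c i) (d i) 1) x x)
      rw [Fintype.piFinset_univ] at h2
      rw [← h2]
      simp_rw [gad_single_trace]
      rw [prod_ite_eq, if_neg (Ne.symm hd)]
    rw [h1, zero_mul]
  · simp

theorem wt_tpow {γ ν : ℝ} {n : ℕ} (ρ : Matrix (Qb n) (Qb n) ℂ) (i : Fin n) :
    wt (tpow (gad γ ν) n ρ) i 1 = (1 - γ) * wt ρ i 1 + γ * ν * ρ.trace.re := by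
  -- complex version
  have key : ∑ a : Qb n, (if a i = 1 then tpow (gad γ ν) n ρ a a else 0) =
      ∑ c : Qb n, (((1 - γ : ℝ) : ℂ) * (if c i = 1 then 1 else 0) + ((γ * ν : ℝ) : ℂ)) * ρ c c := by
    have h1 : ∀ a : Qb n, (if a i = 1 then tpow (gad γ ν) n ρ a a else 0) =
        ∑ c, ∑ d, (∏ j, ((if j = i then (if a j = 1 then (1 : ℂ) else 0) else 1) *
          gad γ ν (Matrix.single (c j) (d j) 1) (a j) (a j))) * ρ c d := by
      intro a
      rw [tpow_apply]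
      simp_rw [Finset.prod_mul_distrib]
      rw [Finset.prod_ite_eq' Finset.univ i]
      simp only [Finset.mem_univ, if_true]
      split_ifs with h
      · simp
      · simp
    simp_rw [h1]
    rw [Finset.sum_comm]
    refine Finset.sum_congr rfl fun c _ => ?_
    rw [Finset.sum_comm]
    have h3 : ∀ d : Qb n, ∑ a : Qb n, ∏ j, ((if j = i then (if a j = 1 then (1 : ℂ) else 0) else 1) *
          gad γ ν (Matrix.single (c j) (d j) 1) (a j) (a j)) =
          ∏ j, ((if j = i then (((1 - γ : ℝ) : ℂ) * (if c j = 1 then 1 else 0) +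
            ((γ * ν : ℝ) : ℂ)) else 1) * (if c j = d j then (1 : ℂ) else 0)) := by
      intro d
      have h2 := Finset.prod_univ_sum (fun _ : Fin n => (Finset.univ : Finset (Fin 2)))
        (fun j x => (if j = i then (if x = 1 then (1 : ℂ) else 0) else 1) *
          gad γ ν (Matrix.single (c j) (d j) 1) x x)
      rw [Fintype.piFinset_univ] at h2
      rw [← h2]
      refine Finset.prod_congr rfl fun j _ => ?_
      by_cases hj : j = i
      · simp only [hj, if_true, Fin.sum_univ_two]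
        rw [gad_single_one]
        by_cases hcd : c i = d i <;> simp [hcd]
      · simp only [hj, if_false, one_mul]
        exact gad_single_trace γ ν _ _
    rw [Finset.sum_eq_single c]
    · rw [← Finset.sum_mul, h3 c, Finset.prod_mul_distrib, prod_ite_eq,
        Finset.prod_ite_eq' Finset.univ i]
      simp
    · intro d _ hd
      rw [← Finset.sum_mul, h3 d, Finset.prod_mul_distrib, prod_ite_eq, if_neg (Ne.symm hd)]
      simp
    · simp
  have key2 := congrArg Complex.re key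
  rw [Complex.re_sum, Complex.re_sum] at key2
  have e1 : wt (tpow (gad γ ν) n ρ) i 1 =
      ∑ a : Qb n, (if a i = 1 then tpow (gad γ ν) n ρ a a else 0).re := by
    unfold wt
    rw [Finset.sum_filter]
    refine Finset.sum_congr rfl fun a _ => ?_
    split_ifs <;> simp
  rw [e1, key2]
  unfold wt Matrix.trace
  rw [Finset.sum_filter, Complex.re_sum, Finset.mul_sum, Finset.mul_sum, ← Finset.sum_add_distrib]
  refine Finset.sum_congr rfl fun c _ => ?_
  rw [Matrix.diag_apply]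
  split_ifs with h
  · have : (((1 - γ : ℝ) : ℂ) * 1 + ((γ * ν : ℝ) : ℂ)) = ((1 - γ + γ * ν : ℝ) : ℂ) := by
      push_cast; ring
    rw [this, Complex.re_ofReal_mul]; ring
  · have : (((1 - γ : ℝ) : ℂ) * 0 + ((γ * ν : ℝ) : ℂ)) = ((γ * ν : ℝ) : ℂ) := by ring
    rw [this, Complex.re_ofReal_mul]; ring

/-! ### splitting the first qubit -/

/-- the matrix seen as a matrix on `qubit × rest` -/
def pull {n : ℕ} (ρ : Matrix (Qb (n + 1)) (Qb (n + 1)) ℂ) :
    Matrix (Fin 2 × Qb n) (Fin 2 × Qb n) ℂ :=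
  ρ.submatrix (fun p => (Fin.cons p.1 p.2 : Qb (n + 1))) (fun p => (Fin.cons p.1 p.2 : Qb (n + 1)))

theorem sum_Qb_succ {M : Type*} [AddCommMonoid M] {n : ℕ} (f : Qb (n + 1) → M) :
    ∑ a, f a = ∑ x : Fin 2, ∑ a : Qb n, f (Fin.cons x a) := by
  rw [← Fintype.sum_prod_type' (fun (x : Fin 2) (a : Qb n) => f (Fin.cons x a))]
  exact ((Fin.consEquiv (fun _ : Fin (n + 1) => Fin 2)).sum_comp f).symm

theorem tpow_succ (N : Matrix (Fin 2) (Fin 2) ℂ → Matrix (Fin 2) (Fin 2) ℂ) {n : ℕ}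
    (ρ : Matrix (Qb (n + 1)) (Qb (n + 1)) ℂ) (x y : Fin 2) (a b : Qb n) :
    tpow N (n + 1) ρ (Fin.cons x a) (Fin.cons y b) =
      ∑ c0, ∑ d0, N (Matrix.single c0 d0 1) x y * tpow N n (blk (pull ρ) c0 d0) a b := by
  rw [tpow_apply, sum_Qb_succ]
  refine Finset.sum_congr rfl fun c0 _ => ?_
  have h1 : ∀ c : Qb n, ∑ d : Qb (n + 1), (∏ i, N (Matrix.single ((Fin.cons c0 c : Qb (n + 1)) i)
      (d i) 1) ((Fin.cons x a : Qb (n + 1)) i) ((Fin.cons y b : Qb (n + 1)) i)) *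
      ρ (Fin.cons c0 c) d = ∑ d0 : Fin 2, ∑ d : Qb n, N (Matrix.single c0 d0 1) x y *
        ((∏ i, N (Matrix.single (c i) (d i) 1) (a i) (b i)) *
          (blk (pull ρ) c0 d0) c d) := by
    intro c
    rw [sum_Qb_succ]
    refine Finset.sum_congr rfl fun d0 _ => Finset.sum_congr rfl fun d _ => ?_
    rw [Fin.prod_univ_succ]
    simp only [Fin.cons_zero, Fin.cons_succ, mul_assoc]
    rfl
  simp_rw [h1]
  rw [Finset.sum_comm]
  refine Finset.sum_congr rfl fun d0 _ => ?_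
  rw [tpow_apply, Finset.mul_sum]
  refine Finset.sum_congr rfl fun c _ => ?_
  rw [Finset.mul_sum]

theorem wt_zero {n : ℕ} (ρ : Matrix (Qb (n + 1)) (Qb (n + 1)) ℂ) (z : Fin 2) :
    wt ρ 0 z = (blk (pull ρ) z z).trace.re := by
  unfold wt Matrix.trace
  rw [Finset.sum_filter, sum_Qb_succ, Finset.sum_eq_single z]
  · rw [Complex.re_sum]
    refine Finset.sum_congr rfl fun a _ => ?_
    simp only [Fin.cons_zero, if_true]
    rfl
  · intro b _ hb
    refine Finset.sum_eq_zero fun a _ => ?_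
    simp only [Fin.cons_zero, if_neg hb]
  · simp

theorem wt_succ {n : ℕ} (ρ : Matrix (Qb (n + 1)) (Qb (n + 1)) ℂ) (i : Fin n) (z : Fin 2) :
    wt ρ i.succ z = wt (blk (pull ρ) 0 0) i z + wt (blk (pull ρ) 1 1) i z := by
  unfold wt
  rw [Finset.sum_filter, sum_Qb_succ, Fin.sum_univ_two, Finset.sum_filter, Finset.sum_filter]
  simp only [Fin.cons_succ]
  rfl

theorem trace_succ {n : ℕ} (ρ : Matrix (Qb (n + 1)) (Qb (n + 1)) ℂ) :
    ρ.trace = (blk (pull ρ) 0 0).trace + (blk (pull ρ) 1 1).trace := by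
  unfold Matrix.trace
  rw [sum_Qb_succ, Fin.sum_univ_two]
  rfl

/-- `Qb n ⊕ Qb n ≃ Qb (n+1)` -/
def sumE (n : ℕ) : Qb n ⊕ Qb n ≃ Qb (n + 1) where
  toFun := Sum.elim (fun a => Fin.cons 0 a) (fun a => Fin.cons 1 a)
  invFun f := if f 0 = 0 then Sum.inl (Fin.tail f) else Sum.inr (Fin.tail f)
  left_inv s := by
    rcases s with a | a
    · simp
    · simp
  right_inv f := by
    by_cases h : f 0 = 0
    · simp only [h, if_true, Sum.elim_inl]
      rw [← h]; exact Fin.cons_self_tail f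
    · have h1 : f 0 = 1 := by
        have := f 0; omega
      simp only [h, if_false, Sum.elim_inr]
      rw [← h1]; exact Fin.cons_self_tail f

theorem submatrix_eq {γ ν : ℝ} {n : ℕ} (ρ : Matrix (Qb (n + 1)) (Qb (n + 1)) ℂ) :
    (tpow (gad γ ν) (n + 1) ρ).submatrix (sumE n) (sumE n) =
      fromBlocks
        (((1 - γ * ν : ℝ) : ℂ) • tpow (gad γ ν) n (blk (pull ρ) 0 0) +
          ((γ * (1 - ν) : ℝ) : ℂ) • tpow (gad γ ν) n (blk (pull ρ) 1 1))
        ((√(1 - γ) : ℂ) • tpow (gad γ ν) n (blk (pull ρ) 0 1))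
        ((√(1 - γ) : ℂ) • tpow (gad γ ν) n (blk (pull ρ) 1 0))
        (((γ * ν : ℝ) : ℂ) • tpow (gad γ ν) n (blk (pull ρ) 0 0) +
          ((1 - γ * (1 - ν) : ℝ) : ℂ) • tpow (gad γ ν) n (blk (pull ρ) 1 1)) := by
  ext s t
  rcases s with a | a <;> rcases t with b | b
  · rw [Matrix.submatrix_apply, Matrix.fromBlocks_apply₁₁]
    show tpow (gad γ ν) (n + 1) ρ (Fin.cons 0 a) (Fin.cons 0 b) = _
    rw [tpow_succ]
    simp only [Fin.sum_univ_two, gad, Matrix.add_apply, Matrix.smul_apply, smul_eq_mul]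
    simp only [Matrix.single_apply]
    push_cast
    norm_num
    left
    ring
  · rw [Matrix.submatrix_apply, Matrix.fromBlocks_apply₁₂]
    show tpow (gad γ ν) (n + 1) ρ (Fin.cons 0 a) (Fin.cons 1 b) = _
    rw [tpow_succ]
    simp only [Fin.sum_univ_two, gad, Matrix.smul_apply, smul_eq_mul]
    simp
  · rw [Matrix.submatrix_apply, Matrix.fromBlocks_apply₂₁]
    show tpow (gad γ ν) (n + 1) ρ (Fin.cons 1 a) (Fin.cons 0 b) = _
    rw [tpow_succ]
    simp only [Fin.sum_univ_two, gad, Matrix.smul_apply, smul_eq_mul]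
    simp
  · rw [Matrix.submatrix_apply, Matrix.fromBlocks_apply₂₂]
    show tpow (gad γ ν) (n + 1) ρ (Fin.cons 1 a) (Fin.cons 1 b) = _
    rw [tpow_succ]
    simp only [Fin.sum_univ_two, gad, Matrix.add_apply, Matrix.smul_apply, smul_eq_mul]
    simp
    left
    ring

open scoped MatrixOrder in
theorem exists_factor {m : Type*} [Fintype m] [DecidableEq m] {R : Matrix m m ℂ}
    (hR : R.PosSemidef) : ∃ B : Matrix m m ℂ, R = Bᴴ * B := by
  obtain ⟨B, hB⟩ := CStarAlgebra.nonneg_iff_eq_star_mul_self.mp hR.nonneg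
  exact ⟨B, hB⟩

theorem ent_tpow_ge_aux {γ ν : ℝ} (hγ : 0 ≤ γ) (hγ1 : γ ≤ 1) (hν : 0 ≤ ν) (hν1 : ν ≤ 1)
    (hsub : ∀ p k p' k' : ℝ, 0 ≤ p → 0 ≤ k → 0 ≤ p' → 0 ≤ k' →
      sg γ ν (p + p') (k + k') ≤ sg γ ν p k + sg γ ν p' k')
    (hK : Key γ ν) : ∀ {n : ℕ} {ρ : Matrix (Qb n) (Qb n) ℂ}, ρ.PosSemidef →
    Real.negMulLog ρ.trace.re + ∑ i, sg γ ν (wt ρ i 0) (wt ρ i 1) ≤
      ent (tpow (gad γ ν) n ρ) := by
  intro n
  induction n with
  | zero =>
    intro ρ hρ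
    have h1 : tpow (gad γ ν) 0 ρ = ρ := by
      ext a b
      rw [tpow_apply]
      simp only [Finset.univ_eq_empty, Finset.prod_empty, one_mul, Finset.univ_unique,
        Finset.sum_singleton]
      congr 1 <;> exact Subsingleton.elim _ _
    have h2 : ρ = diagonal fun a => ((ρ a a).re : ℂ) := by
      ext a b
      have hab : a = b := Subsingleton.elim _ _
      subst hab
      rw [diagonal_apply_eq]
      have := hρ.diag_nonneg (i := a)
      rw [Complex.le_def] at this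
      exact Complex.ext (by simp) (by simpa using this.2.symm)
    have h3 : ent ρ = ∑ a, Real.negMulLog (ρ a a).re := by
      conv_lhs => rw [h2]
      apply ent_diagonal
      intro a
      have := hρ.diag_nonneg (i := a)
      rw [Complex.le_def] at this
      exact this.1
    rw [h1, h3, Finset.univ_eq_empty, Finset.sum_empty, add_zero]
    unfold Matrix.trace
    simp only [Finset.univ_unique, Finset.sum_singleton, Matrix.diag_apply]
    exact le_rfl
  | succ n ih =>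
    intro ρ hρ
    have hpull : (pull ρ).PosSemidef := hρ.submatrix _
    have hR : (ext γ ν n (pull ρ)).PosSemidef := ext_posSemidef hγ hγ1 hν hν1 hpull
    obtain ⟨B, hB⟩ := exists_factor hR
    let A : Fin 2 → Matrix (Qb n) (Fin 2 × Qb n) ℂ := fun x => Matrix.of fun a k => Bᴴ (x, a) k
    have hA : ∀ x y, A x * (A y)ᴴ = tpow (gad γ ν) n (blk (pull ρ) x y) := by
      intro x y
      ext a b
      have h1 : (ext γ ν n (pull ρ)) (x, a) (y, b) = tpow (gad γ ν) n (blk (pull ρ) x y) a b := rfl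
      rw [← h1, hB, Matrix.mul_apply, Matrix.mul_apply]
      refine Finset.sum_congr rfl fun k _ => ?_
      simp [A]
    have hblk : ∀ x, (blk (pull ρ) x x).PosSemidef := fun x => hpull.submatrix (fun a => (x, a))
    have key := hK (Qb n) (Fin 2 × Qb n) (A 0) (A 1)
    simp only [hA] at key
    rw [← submatrix_eq, ent_submatrix_equiv (sumE n) (tpow_posSemidef hγ hγ1 hν hν1 hρ)] at key
    simp only [tpow_trace] at key
    have i0 := ih (hblk 0)
    have i1 := ih (hblk 1)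
    rw [Fin.sum_univ_succ, wt_zero, wt_zero]
    simp only [wt_succ]
    have hw : ∀ (i : Fin n) (x z : Fin 2), 0 ≤ wt (blk (pull ρ) x x) i z := by
      intro i x z
      refine Finset.sum_nonneg fun a _ => ?_
      have := (hblk x).diag_nonneg (i := a)
      rw [Complex.le_def] at this
      exact this.1
    have hs : ∑ i, sg γ ν (wt (blk (pull ρ) 0 0) i 0 + wt (blk (pull ρ) 1 1) i 0)
        (wt (blk (pull ρ) 0 0) i 1 + wt (blk (pull ρ) 1 1) i 1) ≤
        ∑ i, sg γ ν (wt (blk (pull ρ) 0 0) i 0) (wt (blk (pull ρ) 0 0) i 1) +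
        ∑ i, sg γ ν (wt (blk (pull ρ) 1 1) i 0) (wt (blk (pull ρ) 1 1) i 1) := by
      rw [← Finset.sum_add_distrib]
      exact Finset.sum_le_sum fun i _ => hsub _ _ _ _ (hw i 0 0) (hw i 0 1) (hw i 1 0) (hw i 1 1)
    have ht : ρ.trace.re = (blk (pull ρ) 0 0).trace.re + (blk (pull ρ) 1 1).trace.re := by
      rw [trace_succ, Complex.add_re]
    rw [ht]
    have hsg : sg γ ν (blk (pull ρ) 0 0).trace.re (blk (pull ρ) 1 1).trace.re =
        eta2 ((blk (pull ρ) 0 0).trace.re + (blk (pull ρ) 1 1).trace.re)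
          (detOut γ ν (blk (pull ρ) 0 0).trace.re (blk (pull ρ) 1 1).trace.re) -
        Real.negMulLog ((blk (pull ρ) 0 0).trace.re + (blk (pull ρ) 1 1).trace.re) := rfl
    rw [hsg]
    linarith

theorem ent_tpow_ge {γ ν : ℝ} (hγ : 0 ≤ γ) (hγ1 : γ ≤ 1) (hν : 0 ≤ ν) (hν1 : ν ≤ 1)
    (hK : Key γ ν) {n : ℕ} {ρ : Matrix (Qb n) (Qb n) ℂ} (hρ : ρ.PosSemidef) :
    Real.negMulLog ρ.trace.re + ∑ i, sg γ ν (wt ρ i 0) (wt ρ i 1) ≤
      ent (tpow (gad γ ν) n ρ) :=
  ent_tpow_ge_aux hγ hγ1 hν hν1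
    (fun _ _ _ _ hp hk hp' hk' => sg_subadd hγ hγ1 hν hν1 hp hk hp' hk') hK hρ

end Vale.Agent.P358
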