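import Vale.Agent.P358.Trunc
import Vale.Agent.P358.DetId
import Vale.Agent.P358.DetIneq
import Vale.Agent.P358.Count
import Vale.Agent.P358.Param
import Vale.Agent.P358.KeyDef
import Vale.Agent.P358.Scal
import Vale.Agent.P358.Tens

/-! P358, module K6: the key inequality for all parameters. -/

open Matrix Finset Filter Topology MeasureTheory
open scoped ComplexOrder

namespace Vale.Agent.P358.Gen

variable {m k : Type} [Fintype m] [DecidableEq m] [Fintype k] [DecidableEq k]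

theorem entRel_integral {φ : ℝ → ℝ} {τ e : ℝ} (h : EntRel φ τ e) (hφ : ∀ t, 0 < t → 0 ≤ φ t) :
    ∃ G : ℝ → ℝ, Tendsto (fun t => G t - τ * (Real.log t + 1)) atTop (𝓝 0) ∧
      ∀ T, 0 < T → IntervalIntegrable φ volume 0 T ∧ ∫ s in (0:ℝ)..T, φ s = G T + e := by
  obtain ⟨G, h1, h2, h3, h4⟩ := h
  refine ⟨G, h4, fun T hT => ?_⟩
  have hint : IntervalIntegrable φ volume 0 T := by
    apply intervalIntegral.intervalIntegrable_deriv_of_nonneg (g := G)
    · rw [Set.uIcc_of_le hT.le]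
      exact h1.mono fun x hx => hx.1
    · intro x hx
      rw [min_eq_left hT.le, max_eq_right hT.le] at hx
      exact h3 x hx.1
    · intro x hx
      rw [min_eq_left hT.le, max_eq_right hT.le] at hx
      exact hφ x hx.1
  refine ⟨hint, ?_⟩
  rw [intervalIntegral.integral_eq_sub_of_hasDerivAt_of_le hT.le (h1.mono fun x hx => hx.1)
    (fun x hx => h3 x hx.1) hint, h2]
  ring

theorem entRel_compare {φ ψ : ℝ → ℝ} {τ e e' κ : ℝ} (h : EntRel φ τ e) (h' : EntRel ψ τ e')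
    (hφ : ∀ t, 0 < t → 0 ≤ φ t) (hψ : ∀ t, 0 < t → 0 ≤ ψ t)
    (H : ∀ T, 0 < T → ∀ ε, 0 < ε →
      (∫ s in (0:ℝ)..T, ψ s) - κ - ε ≤ ∫ s in (0:ℝ)..T, φ s) : e' - κ ≤ e := by
  obtain ⟨G, hG, hG'⟩ := entRel_integral h hφ
  obtain ⟨F, hF, hF'⟩ := entRel_integral h' hψ
  have h1 : ∀ T, 0 < T → (F T - τ * (Real.log T + 1)) + e' - κ ≤
      (G T - τ * (Real.log T + 1)) + e := by
    intro T hT
    refine le_of_forall_pos_le_add fun ε hε => ?_
    have := H T hT ε hε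
    rw [(hG' T hT).2, (hF' T hT).2] at this
    linarith
  have h2 : Tendsto (fun T => (F T - τ * (Real.log T + 1)) + e' - κ) atTop (𝓝 (0 + e' - κ)) :=
    (hF.add_const e').sub_const κ
  have h3 : Tendsto (fun T => (G T - τ * (Real.log T + 1)) + e) atTop (𝓝 (0 + e)) :=
    hG.add_const e
  have := le_of_tendsto_of_tendsto h2 h3 (by
    filter_upwards [eventually_gt_atTop 0] with T hT
    exact h1 T hT)
  linarith

theorem sum_eig_smul {P Q : Matrix k k ℂ} (h : P.IsHermitian) (hQ : Q.IsHermitian) (c : ℝ)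
    (hPQ : P = (c : ℂ) • Q) (F : ℝ → ℝ) :
    ∑ i, F (h.eigenvalues i) = ∑ i, F (c * hQ.eigenvalues i) := by
  have h1 : P.charpoly = ∏ i, (Polynomial.X - Polynomial.C ((c * hQ.eigenvalues i : ℝ) : ℂ)) := by
    have hs := hQ.spectral_theorem
    rw [Unitary.conjStarAlgAut_apply] at hs
    set U : Matrix k k ℂ := (hQ.eigenvectorUnitary : Matrix k k ℂ) with hU
    have hUU : star U * U = 1 := Unitary.coe_star_mul_self hQ.eigenvectorUnitary
    have h2 : P = U * (diagonal fun i => ((c * hQ.eigenvalues i : ℝ) : ℂ)) * star U := by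
      rw [hPQ]
      conv_lhs => rw [hs]
      rw [← Matrix.smul_mul, ← Matrix.mul_smul]
      congr 2
      ext i j
      by_cases hij : i = j
      · subst hij
        simp
      · simp [hij]
    rw [h2, charpoly_mul_comm, ← mul_assoc, hUU, one_mul, charpoly_diagonal]
  have h3 := h.roots_charpoly_eq_eigenvalues
  rw [h1, Polynomial.roots_prod _ _ (by
    rw [Finset.prod_ne_zero_iff]
    intro i _
    exact Polynomial.X_sub_C_ne_zero _)] at h3
  simp only [Polynomial.roots_X_sub_C, Multiset.bind_singleton] at h3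
  have h4 := congrArg (Multiset.map (fun z : ℂ => F z.re)) h3
  simp only [Multiset.map_map, Function.comp_def, Complex.ofReal_re] at h4
  have h5 := congrArg Multiset.sum h4
  exact h5.symm

theorem HH_nonneg {p up um z : ℝ} (hp : 0 ≤ p) (hp1 : p ≤ 1) (hz : 0 ≤ z)
    (hup : 0 ≤ z + up) (hum : 0 ≤ z + um) (hz0 : z ≠ 0 → 0 < z + up ∧ 0 < z + um)
    (hd : 0 ≤ (1 - p) * (up * (z + um)) + p * (um * (z + up))) {r : ℝ} (hr : 0 ≤ r) :
    0 ≤ HH p up um z r := by
  have := HH_mono hp hp1 hz hup hum hz0 hd (Set.mem_Ici.2 le_rfl) (Set.mem_Ici.2 hr) hr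
  rwa [HH_zero p up um z hz] at this

/-- lower function for `Σ H(eig (Aᴴ (s+Z)⁻¹ A))`. -/
theorem part (A : Matrix m k ℂ) (Z : Matrix m m ℂ) (hZ : Z.PosSemidef) {p up um z : ℝ}
    (hp : 0 ≤ p) (hp1 : p ≤ 1) (hz : 0 ≤ z) (hup : 0 ≤ z + up) (hum : 0 ≤ z + um)
    (hz0 : z ≠ 0 → 0 < z + up ∧ 0 < z + um)
    (hd : 0 ≤ (1 - p) * (up * (z + um)) + p * (um * (z + up))) (hZ0 : z = 0 → Z = 0)
    {T ε : ℝ} (hT : 0 < T) (hε : 0 < ε) :
    ∃ W : ℝ → ℝ, IntervalIntegrable W volume 0 T ∧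
      (∀ s : ℝ, 0 < s → ∀ h : (Aᴴ * ((s : ℂ) • 1 + Z)⁻¹ * A).IsHermitian,
        W s ≤ ∑ i, HH p up um z (h.eigenvalues i)) ∧
      (∫ s in (0:ℝ)..T, ∑ i, HH p up um z
        ((posSemidef_conjTranspose_mul_self A).1.eigenvalues i / s))
        - ((1 - p) * Real.log (1 + up * z⁻¹) + p * Real.log (1 + um * z⁻¹)) * Z.trace.re - ε ≤
        ∫ s in (0:ℝ)..T, W s := by
  have ha : ∀ i, 0 ≤ (posSemidef_conjTranspose_mul_self A).1.eigenvalues i :=
    (posSemidef_conjTranspose_mul_self A).eigenvalues_nonneg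
  have hnn : ∀ i, ∀ t, 0 < t → 0 ≤ HH p up um z
      ((posSemidef_conjTranspose_mul_self A).1.eigenvalues i / t) := fun i t ht =>
    HH_nonneg hp hp1 hz hup hum hz0 hd (div_nonneg (ha i) ht.le)
  have hint : ∀ i, IntervalIntegrable (fun s => HH p up um z
      ((posSemidef_conjTranspose_mul_self A).1.eigenvalues i / s)) volume 0 T := by
    intro i
    obtain ⟨G, _, hG⟩ := entRel_integral (entRel_HH hp hp1 hz hup hum (ha i) hz0) (hnn i)
    exact (hG T hT).1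
  rw [intervalIntegral.integral_finsetSum fun i _ => hint i]
  rcases eq_or_lt_of_le hz with hz' | hz'
  · have hZz := hZ0 hz'.symm
    refine ⟨fun s => ∑ i, HH p up um z
        ((posSemidef_conjTranspose_mul_self A).1.eigenvalues i / s), ?_, ?_, ?_⟩
    · have := IntervalIntegrable.sum univ (f := fun i s => HH p up um z
        ((posSemidef_conjTranspose_mul_self A).1.eigenvalues i / s)) fun i _ => hint i
      have h3 : (fun s => ∑ i, HH p up um z
          ((posSemidef_conjTranspose_mul_self A).1.eigenvalues i / s)) =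
          ∑ i, fun s => HH p up um z
          ((posSemidef_conjTranspose_mul_self A).1.eigenvalues i / s) := by
        funext s
        simp
      rw [h3]
      exact this
    · intro s hs h
      have h1 : Aᴴ * ((s : ℂ) • 1 + Z)⁻¹ * A = ((s⁻¹ : ℝ) : ℂ) • (Aᴴ * A) := by
        have h2 : ((s : ℂ) • (1 : Matrix m m ℂ) + Z)⁻¹ = ((s⁻¹ : ℝ) : ℂ) • 1 := by
          apply Matrix.inv_eq_right_inv
          rw [hZz, add_zero, smul_mul_smul_comm, one_mul]
          push_cast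
          rw [mul_inv_cancel₀ (by exact_mod_cast hs.ne'), one_smul]
        rw [h2]
        simp
      rw [sum_eig_smul h (posSemidef_conjTranspose_mul_self A).1 s⁻¹ h1 (HH p up um z)]
      refine le_of_eq (Finset.sum_congr rfl fun i _ => ?_)
      rw [div_eq_inv_mul]
    · rw [intervalIntegral.integral_finsetSum fun i _ => hint i, hZz]
      simp
      exact hε.le
  · obtain ⟨h1, h2⟩ := hz0 hz'.ne'
    exact count_lower A Z hZ (HH p up um z) _ (HH_mono hp hp1 hz hup hum hz0 hd)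
      (HH_cont hz hup hum hz0) (HH_zero p up um z hz)
      (fun r hr => HH_le hp hp1 hz' h1 h2 hd hr) hT hε

/-- the output block matrix -/
noncomputable def outM (c0 c1 c2 c3 e : ℝ) (A B : Matrix m k ℂ) : Matrix (m ⊕ m) (m ⊕ m) ℂ :=
  fromBlocks
    ((c0 : ℂ) • (A * Aᴴ) + (c1 : ℂ) • (B * Bᴴ)) ((e : ℂ) • (A * Bᴴ))
    ((e : ℂ) • (B * Aᴴ)) ((c3 : ℂ) • (A * Aᴴ) + (c2 : ℂ) • (B * Bᴴ))

theorem fromRows_self (C D : Matrix m k ℂ) :
    fromRows C D * (fromRows C D)ᴴ = fromBlocks (C * Cᴴ) (C * Dᴴ) (D * Cᴴ) (D * Dᴴ) := by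
  rw [conjTranspose_fromRows_eq_fromCols_conjTranspose, fromRows_mul_fromCols]

theorem outM_posSemidef {c0 c1 c2 c3 e : ℝ} (h0 : 0 < c0) (h1 : 0 ≤ c1) (h2 : 0 ≤ c2)
    (h3 : 0 ≤ c3) (he : e ^ 2 = c0 * c2 - c1 * c3) (A B : Matrix m k ℂ) :
    (outM c0 c1 c2 c3 e A B).PosSemidef := by
  have hc : 0 ≤ c2 - e ^ 2 / c0 := by
    rw [he, sub_nonneg, div_le_iff₀ h0]
    nlinarith [mul_nonneg h1 h3]
  have key : outM c0 c1 c2 c3 e A B =
      fromRows ((√c0 : ℂ) • A) (((e / √c0 : ℝ) : ℂ) • B) *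
        (fromRows ((√c0 : ℂ) • A) (((e / √c0 : ℝ) : ℂ) • B))ᴴ
      + fromRows ((√c1 : ℂ) • B) 0 * (fromRows ((√c1 : ℂ) • B) (0 : Matrix m k ℂ))ᴴ
      + fromRows 0 ((√c3 : ℂ) • A) * (fromRows (0 : Matrix m k ℂ) ((√c3 : ℂ) • A))ᴴ
      + fromRows 0 ((√(c2 - e ^ 2 / c0) : ℂ) • B) *
        (fromRows (0 : Matrix m k ℂ) ((√(c2 - e ^ 2 / c0) : ℂ) • B))ᴴ := by
    have q0 : (√c0 : ℂ) * (√c0 : ℂ) = c0 := sqrt_mul_self_c h0.le
    have q1 := sqrt_mul_self_c h1
    have q3 := sqrt_mul_self_c h3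
    have q2 := sqrt_mul_self_c hc
    have hs : √c0 ≠ 0 := (Real.sqrt_pos.2 h0).ne'
    have q4 : (√c0 : ℂ) * ((e / √c0 : ℝ) : ℂ) = e := by
      rw [← Complex.ofReal_mul]
      congr 1
      field_simp
    have q5 : ((e / √c0 : ℝ) : ℂ) * ((e / √c0 : ℝ) : ℂ) = ((e ^ 2 / c0 : ℝ) : ℂ) := by
      rw [← Complex.ofReal_mul]
      congr 1
      rw [div_mul_div_comm, Real.mul_self_sqrt h0.le]
      ring
    rw [outM]
    simp only [fromRows_self, fromBlocks_add]
    simp only [conjTranspose_smul, RCLike.star_def, Complex.conj_ofReal, Matrix.smul_mul,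
      Matrix.mul_smul, smul_smul, conjTranspose_zero, Matrix.mul_zero, Matrix.zero_mul, add_zero,
      zero_add, smul_zero, q0, q1, q2, q3, q4, q5]
    rw [mul_comm _ (√c0 : ℂ), q4]
    congr 1
    have hc2 : (c2 : ℂ) = ((e ^ 2 / c0 : ℝ) : ℂ) + ((c2 - e ^ 2 / c0 : ℝ) : ℂ) := by
      push_cast
      ring
    rw [hc2, add_smul]
    abel
  rw [key]
  exact (((posSemidef_self_mul_conjTranspose _).add (posSemidef_self_mul_conjTranspose _)).add
    (posSemidef_self_mul_conjTranspose _)).add (posSemidef_self_mul_conjTranspose _)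

theorem outM_trace (c0 c1 c2 c3 e : ℝ) (h03 : c0 + c3 = 1) (h12 : c1 + c2 = 1)
    (A B : Matrix m k ℂ) :
    (outM c0 c1 c2 c3 e A B).trace.re = (A * Aᴴ).trace.re + (B * Bᴴ).trace.re := by
  have htr : ∀ (P Q R S : Matrix m m ℂ), (fromBlocks P Q R S).trace = P.trace + S.trace := by
    intro P Q R S
    simp [Matrix.trace, Fintype.sum_sum_type]
  rw [outM, htr]
  simp only [trace_add, trace_smul, smul_eq_mul, Complex.add_re, Complex.re_ofReal_mul]
  have e1 : c3 = 1 - c0 := by linarith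
  have e2 : c2 = 1 - c1 := by linarith
  rw [e1, e2]
  ring

theorem det_log_split {X : Matrix m m ℂ} (hX : X.PosSemidef) {s : ℝ} (hs : 0 < s) :
    ∃ r : ℝ, 0 < r ∧ (1 + ((s⁻¹ : ℝ) : ℂ) • X).det = (r : ℂ) := by
  exact ⟨_, prod_eig_pos hX hs, det_re_eq hX hs⟩

theorem psd_smul {X : Matrix m m ℂ} (hX : X.PosSemidef) {c : ℝ} (hc : 0 ≤ c) :
    ((c : ℂ) • X).PosSemidef := hX.smul (by exact_mod_cast hc)

theorem posDef_add {Z : Matrix m m ℂ} (hZ : Z.PosSemidef) {s : ℝ} (hs : 0 < s) :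
    ((s : ℂ) • (1 : Matrix m m ℂ) + Z).PosDef := by
  have h1 : ((s : ℂ) • (1 : Matrix m m ℂ)).PosDef :=
    PosDef.one.smul (by exact_mod_cast hs)
  exact h1.add_posSemidef hZ

/-- the pointwise inequality -/
theorem pointwise (A B : Matrix m k ℂ) {s c0 c1 c2 c3 e : ℝ} (hs : 0 < s)
    (h0 : 0 < c0) (h1 : 0 ≤ c1) (h2 : 0 ≤ c2) (h3 : 0 ≤ c3) (he : e ^ 2 = c0 * c2 - c1 * c3)
    {p up um z tm tp z' : ℝ} (hp : 0 ≤ p) (hp1 : p ≤ 1)
    (hz : 0 ≤ z) (hup : 0 ≤ z + up) (hum : 0 ≤ z + um) (hz0 : z ≠ 0 → 0 < z + up ∧ 0 < z + um)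
    (hz' : 0 ≤ z') (htm : 0 ≤ z' + tm) (htp : 0 ≤ z' + tp)
    (hz0' : z' ≠ 0 → 0 < z' + tm ∧ 0 < z' + tp)
    (e0 : (1 - p) * up + p * um = c0) (e2 : (1 - p) * tm + p * tp = c2)
    (e13 : (1 - p) * (up * tm) + p * (um * tp) = c1 * c3) {w1 w2 : ℝ}
    (hw1 : ∀ h : (Aᴴ * ((s : ℂ) • 1 + (c1 : ℂ) • (B * Bᴴ))⁻¹ * A).IsHermitian,
        w1 ≤ ∑ i, HH p up um z (h.eigenvalues i))
    (hw2 : ∀ h : (Bᴴ * ((s : ℂ) • 1 + (c3 : ℂ) • (A * Aᴴ))⁻¹ * B).IsHermitian,
        w2 ≤ ∑ i, HH p tm tp z' (h.eigenvalues i)) :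
    Real.log (1 + ((s⁻¹ : ℝ) : ℂ) • ((c1 : ℂ) • (B * Bᴴ))).det.re +
      Real.log (1 + ((s⁻¹ : ℝ) : ℂ) • ((c3 : ℂ) • (A * Aᴴ))).det.re + (w1 + w2) ≤
      Real.log (1 + ((s⁻¹ : ℝ) : ℂ) • outM c0 c1 c2 c3 e A B).det.re := by
  have hA := psd_smul (posSemidef_self_mul_conjTranspose A) h3
  have hB := psd_smul (posSemidef_self_mul_conjTranspose B) h1
  have hX := posDef_add hB hs
  have hY := posDef_add hA hs
  have hM : (Aᴴ * ((s : ℂ) • 1 + (c1 : ℂ) • (B * Bᴴ))⁻¹ * A).PosSemidef :=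
    hX.inv.posSemidef.conjTranspose_mul_mul_same A
  have hL : (Bᴴ * ((s : ℂ) • 1 + (c3 : ℂ) • (A * Aᴴ))⁻¹ * B).PosSemidef :=
    hY.inv.posSemidef.conjTranspose_mul_mul_same B
  obtain ⟨r1, hr1, hr1'⟩ := det_log_split hB hs
  obtain ⟨r2, hr2, hr2'⟩ := det_log_split hA hs
  obtain ⟨r3, hr3, hr3'⟩ := det_log_split (outM_posSemidef h0 h1 h2 h3 he A B) hs
  have hid := det_identity A B hs h0.le h1 h2 h3 he _ _ rfl rfl
  have hout : outM c0 c1 c2 c3 e A B = fromBlocks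
        ((c0 : ℂ) • (A * Aᴴ) + (c1 : ℂ) • (B * Bᴴ)) ((e : ℂ) • (A * Bᴴ))
        ((e : ℂ) • (B * Aᴴ)) ((c3 : ℂ) • (A * Aᴴ) + (c2 : ℂ) • (B * Bᴴ)) := rfl
  rw [← hout, hr1', hr2', hr3'] at hid
  set z3 := (1 + (c0 : ℂ) • (Aᴴ * ((s : ℂ) • 1 + (c1 : ℂ) • (B * Bᴴ))⁻¹ * A)
    + (c2 : ℂ) • (Bᴴ * ((s : ℂ) • 1 + (c3 : ℂ) • (A * Aᴴ))⁻¹ * B)
    + ((c1 * c3 : ℝ) : ℂ) • ((Aᴴ * ((s : ℂ) • 1 + (c1 : ℂ) • (B * Bᴴ))⁻¹ * A) *
      (Bᴴ * ((s : ℂ) • 1 + (c3 : ℂ) • (A * Aᴴ))⁻¹ * B))).det with hz3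
  have hre : r3 = r1 * r2 * z3.re := by
    have := congrArg Complex.re hid
    rw [← Complex.ofReal_mul, Complex.re_ofReal_mul, Complex.ofReal_re] at this
    exact this
  have hz3pos : 0 < z3.re := by
    by_contra hcon
    push_neg at hcon
    have : r3 ≤ 0 := by
      rw [hre]
      exact mul_nonpos_of_nonneg_of_nonpos (by positivity) hcon
    linarith
  have htau : ∀ {z up um : ℝ}, 0 ≤ z → 0 ≤ z + up → 0 ≤ z + um →
      (z ≠ 0 → 0 < z + up ∧ 0 < z + um) → ∀ r, 0 ≤ r →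
      0 ≤ trn z r ∧ trn z r ≤ r ∧ 0 < 1 + up * trn z r ∧ 0 < 1 + um * trn z r := by
    intro z up um hz hup hum hz0 r hr
    rcases eq_or_lt_of_le hz with h | h
    · rw [trn, if_pos h.symm]
      rw [← h, zero_add] at hup hum
      exact ⟨hr, le_rfl, by positivity, by positivity⟩
    · obtain ⟨q1, q2⟩ := hz0 h.ne'
      rw [trn, if_neg h.ne']
      have hm : 0 ≤ min r z⁻¹ := le_min hr (by positivity)
      have hm1 : z * min r z⁻¹ ≤ 1 := by
        calc z * min r z⁻¹ ≤ z * z⁻¹ := by gcongr; exact min_le_right _ _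
          _ = 1 := mul_inv_cancel₀ h.ne'
      refine ⟨hm, min_le_left _ _, ?_, ?_⟩
      · rcases eq_or_lt_of_le hm with h5 | h5
        · rw [← h5]; norm_num
        · have := mul_pos q1 h5
          linarith
      · rcases eq_or_lt_of_le hm with h5 | h5
        · rw [← h5]; norm_num
        · have := mul_pos q2 h5
          linarith
  have hineq := det_ineq _ _ hM hL (trn z) (trn z') h0.le h2 (mul_nonneg h1 h3) hp hp1 e0 e2 e13
    (htau hz hup hum hz0)
    (fun r hr => by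
      obtain ⟨a1, a2, a3, a4⟩ := htau hz' htm htp hz0' r hr
      exact ⟨a1, a2, a4, a3⟩)
  rw [← hz3] at hineq
  have hw1' := hw1 hM.1
  have hw2' := hw2 hL.1
  rw [hr1', hr2', hr3']
  simp only [Complex.ofReal_re]
  rw [hre, Real.log_mul (by positivity) hz3pos.ne', Real.log_mul hr1.ne' hr2.ne']
  simp only [HH] at hw1' hw2'
  linarith

theorem key_main {γ ν : ℝ} (hγ : 0 ≤ γ) (hγ1 : γ < 1) (hν : 0 ≤ ν) (hν1 : ν ≤ 1)
    (A B : Matrix m k ℂ) (hx : 0 < (A * Aᴴ).trace.re) (hy : 0 < (B * Bᴴ).trace.re) :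
    ent (A * Aᴴ) + ent (B * Bᴴ) - Real.negMulLog (A * Aᴴ).trace.re
        - Real.negMulLog (B * Bᴴ).trace.re
        + eta2 ((A * Aᴴ).trace.re + (B * Bᴴ).trace.re)
            (detOut γ ν (A * Aᴴ).trace.re (B * Bᴴ).trace.re) ≤
      ent (outM (1 - γ * ν) (γ * (1 - ν)) (1 - γ * (1 - ν)) (γ * ν) (√(1 - γ)) A B) := by
  set x := (A * Aᴴ).trace.re with hxd
  set y := (B * Bᴴ).trace.re with hyd
  set β := y / x with hβd
  have hβ : 0 < β := by positivity
  obtain ⟨p, lp, lm, hp, hp1, hlp, hlm, hlm0, hsum, hprod, hpn, hle, e0, e2, e13, hd1, hd2⟩ :=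
    params hγ hγ1 hν hν1 hβ _ _ _ _ rfl rfl rfl rfl
  set c0 := 1 - γ * ν with hc0d
  set c1 := γ * (1 - ν) with hc1d
  set c2 := 1 - γ * (1 - ν) with hc2d
  set c3 := γ * ν with hc3d
  have hγν : γ * ν < 1 := by nlinarith
  have h0 : 0 < c0 := by rw [hc0d]; linarith
  have h1 : 0 ≤ c1 := by
    have : 0 ≤ 1 - ν := by linarith
    positivity
  have h2 : 0 ≤ c2 := by
    have : γ * (1 - ν) ≤ 1 := by nlinarith
    rw [hc2d]; linarith
  have h3 : 0 ≤ c3 := by positivity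
  have h03 : c0 + c3 = 1 := by rw [hc0d, hc3d]; ring
  have h12 : c1 + c2 = 1 := by rw [hc1d, hc2d]; ring
  have he : √(1 - γ) ^ 2 = c0 * c2 - c1 * c3 := by
    rw [Real.sq_sqrt (by linarith)]
    ring
  have hlp' : c1 * β + (lp - c1 * β) = lp := by ring
  have hlm' : c1 * β + (lm - c1 * β) = lm := by ring
  have hlpb : c3 / β + (lp - c3) / β = lp / β := by ring
  have hlmb : c3 / β + (lm - c3) / β = lm / β := by ring
  have hz : 0 ≤ c1 * β := by positivity
  have hz' : 0 ≤ c3 / β := by positivity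
  have hz0 : c1 * β ≠ 0 → 0 < c1 * β + (lp - c1 * β) ∧ 0 < c1 * β + (lm - c1 * β) := by
    intro h
    rw [hlp', hlm']
    exact ⟨hlp, hlm0 (Or.inl fun h' => h (by rw [h', zero_mul]))⟩
  have hz0' : c3 / β ≠ 0 → 0 < c3 / β + (lm - c3) / β ∧ 0 < c3 / β + (lp - c3) / β := by
    intro h
    rw [hlpb, hlmb]
    exact ⟨div_pos (hlm0 (Or.inr fun h' => h (by rw [h', zero_div]))) hβ, div_pos hlp hβ⟩
  have hup : 0 ≤ c1 * β + (lp - c1 * β) := by rw [hlp']; exact hlp.le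
  have hum : 0 ≤ c1 * β + (lm - c1 * β) := by rw [hlm']; exact hlm
  have htp : 0 ≤ c3 / β + (lp - c3) / β := by rw [hlpb]; positivity
  have htm : 0 ≤ c3 / β + (lm - c3) / β := by rw [hlmb]; positivity
  have hd1' : 0 ≤ (1 - p) * ((lp - c1 * β) * (c1 * β + (lm - c1 * β))) +
      p * ((lm - c1 * β) * (c1 * β + (lp - c1 * β))) := by rw [hlp', hlm']; exact hd1
  have hd2' : 0 ≤ (1 - p) * ((lm - c3) / β * (c3 / β + (lp - c3) / β)) +
      p * ((lp - c3) / β * (c3 / β + (lm - c3) / β)) := by rw [hlpb, hlmb]; exact hd2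
  -- eigenvalues
  have hA' := posSemidef_conjTranspose_mul_self A
  have hB' := posSemidef_conjTranspose_mul_self B
  have ha : ∀ i, 0 ≤ hA'.1.eigenvalues i := hA'.eigenvalues_nonneg
  have hb : ∀ i, 0 ≤ hB'.1.eigenvalues i := hB'.eigenvalues_nonneg
  have hAA := posSemidef_self_mul_conjTranspose A
  have hBB := posSemidef_self_mul_conjTranspose B
  have hcA := psd_smul hAA h3
  have hcB := psd_smul hBB h1
  have hsx : ∑ i, hA'.1.eigenvalues i = x := by
    rw [hxd, trace_mul_comm, hA'.1.trace_eq_sum_eigenvalues]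
    simp
  have hsy : ∑ i, hB'.1.eigenvalues i = y := by
    rw [hyd, trace_mul_comm, hB'.1.trace_eq_sum_eigenvalues]
    simp
  -- EntRel of the lower bound
  have E1 : EntRel (fun s => ∑ i, HH p (lp - c1 * β) (lm - c1 * β) (c1 * β)
      (hA'.1.eigenvalues i / s)) _ _ :=
    EntRel.sum univ fun i _ => entRel_HH hp hp1 hz hup hum (ha i) hz0
  have E2 : EntRel (fun s => ∑ i, HH p ((lm - c3) / β) ((lp - c3) / β) (c3 / β)
      (hB'.1.eigenvalues i / s)) _ _ :=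
    EntRel.sum univ fun i _ => entRel_HH hp hp1 hz' htm htp (hb i) hz0'
  have Eψ := ((EntRel.ent hcB).add (EntRel.ent hcA)).add (E1.add E2)
  have hO := outM_posSemidef h0 h1 h2 h3 he A B
  have Eφ := EntRel.ent hO
  have htB : ((c1 : ℂ) • (B * Bᴴ)).trace.re = c1 * y := by
    rw [trace_smul, smul_eq_mul, Complex.re_ofReal_mul]
  have htA : ((c3 : ℂ) • (A * Aᴴ)).trace.re = c3 * x := by
    rw [trace_smul, smul_eq_mul, Complex.re_ofReal_mul]
  have hentB : ent ((c1 : ℂ) • (B * Bᴴ)) = c1 * ent (B * Bᴴ) + Real.negMulLog c1 * y :=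
    ent_smul h1 hBB
  have hentA : ent ((c3 : ℂ) • (A * Aᴴ)) = c3 * ent (A * Aᴴ) + Real.negMulLog c3 * x :=
    ent_smul h3 hAA
  have hφ0 : ∀ t, 0 < t → 0 ≤ Real.log (1 + ((t⁻¹ : ℝ) : ℂ) • outM c0 c1 c2 c3 √(1 - γ) A B).det.re := by
    intro t ht
    rw [det_re_eq hO ht, Complex.ofReal_re]
    apply Real.log_nonneg
    refine le_trans (le_of_eq (Finset.prod_const_one (s := (univ : Finset (m ⊕ m)))).symm)
      (Finset.prod_le_prod (fun _ _ => zero_le_one) fun i _ => ?_)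
    have := hO.eigenvalues_nonneg i
    have : 0 ≤ hO.1.eigenvalues i / t := by positivity
    linarith
  have hlog0 : ∀ {X : Matrix m m ℂ}, X.PosSemidef → ∀ t : ℝ, 0 < t →
      0 ≤ Real.log (1 + ((t⁻¹ : ℝ) : ℂ) • X).det.re := by
    intro X hX t ht
    rw [det_re_eq hX ht, Complex.ofReal_re]
    apply Real.log_nonneg
    refine le_trans (le_of_eq (Finset.prod_const_one (s := (univ : Finset m))).symm)
      (Finset.prod_le_prod (fun _ _ => zero_le_one) fun i _ => ?_)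
    have := hX.eigenvalues_nonneg i
    have : 0 ≤ hX.1.eigenvalues i / t := by positivity
    linarith
  have hH1nn : ∀ t, 0 < t → 0 ≤ ∑ i, HH p (lp - c1 * β) (lm - c1 * β) (c1 * β)
      (hA'.1.eigenvalues i / t) := fun t ht =>
    Finset.sum_nonneg fun i _ => HH_nonneg hp hp1 hz hup hum hz0 hd1' (div_nonneg (ha i) ht.le)
  have hH2nn : ∀ t, 0 < t → 0 ≤ ∑ i, HH p ((lm - c3) / β) ((lp - c3) / β) (c3 / β)
      (hB'.1.eigenvalues i / t) := fun t ht =>
    Finset.sum_nonneg fun i _ => HH_nonneg hp hp1 hz' htm htp hz0' hd2' (div_nonneg (hb i) ht.le)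
  set F1 := (1 - p) * Real.log (1 + (lp - c1 * β) * (c1 * β)⁻¹) +
    p * Real.log (1 + (lm - c1 * β) * (c1 * β)⁻¹) with hF1
  set F2 := (1 - p) * Real.log (1 + (lm - c3) / β * (c3 / β)⁻¹) +
    p * Real.log (1 + (lp - c3) / β * (c3 / β)⁻¹) with hF2
  have hkap1 : kap p (lp - c1 * β) (lm - c1 * β) (c1 * β) = c1 * β * F1 := rfl
  have hkap2 : kap p ((lm - c3) / β) ((lp - c3) / β) (c3 / β) = c3 / β * F2 := rfl
  -- the comparison
  have hcomp := entRel_compare (κ := F1 * (c1 * y) + F2 * (c3 * x)) (τ := x + y)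
    (e := ent (outM c0 c1 c2 c3 √(1 - γ) A B))
    (e' := (c1 * ent (B * Bᴴ) + Real.negMulLog c1 * y) +
      (c3 * ent (A * Aᴴ) + Real.negMulLog c3 * x) +
      ((c0 * ent (A * Aᴴ) + x * (c1 * β * F1 + (1 - p) * Real.negMulLog lp +
        p * Real.negMulLog lm - Real.negMulLog (c1 * β))) +
      (c2 * ent (B * Bᴴ) + y * (c3 / β * F2 + (1 - p) * Real.negMulLog (lm / β) +
        p * Real.negMulLog (lp / β) - Real.negMulLog (c3 / β)))))
    (φ := fun t => Real.log (1 + ((t⁻¹ : ℝ) : ℂ) • outM c0 c1 c2 c3 √(1 - γ) A B).det.re)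
    (ψ := fun t => Real.log (1 + ((t⁻¹ : ℝ) : ℂ) • ((c1 : ℂ) • (B * Bᴴ))).det.re +
      Real.log (1 + ((t⁻¹ : ℝ) : ℂ) • ((c3 : ℂ) • (A * Aᴴ))).det.re +
      (∑ i, HH p (lp - c1 * β) (lm - c1 * β) (c1 * β) (hA'.1.eigenvalues i / t) +
       ∑ i, HH p ((lm - c3) / β) ((lp - c3) / β) (c3 / β) (hB'.1.eigenvalues i / t)))
    (by
      have := Eφ
      rw [outM_trace _ _ _ _ _ h03 h12] at this
      exact this)
    (by
      convert Eψ using 1
      · rw [htB, htA, ← Finset.mul_sum, ← Finset.mul_sum, hsx, hsy, e0, e2]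
        linear_combination (-x) * h03 - y * h12
      · rw [hentB, hentA, hkap1, hkap2, hlp', hlm', hlmb, hlpb, Finset.sum_add_distrib,
          Finset.sum_add_distrib, ← Finset.mul_sum, ← Finset.mul_sum, ← Finset.sum_mul,
          ← Finset.sum_mul, hsx, hsy, e0, e2, ← ent_of_isHermitian hA'.1,
          ← ent_of_isHermitian hB'.1, ent_mul_conjTranspose A, ent_mul_conjTranspose B])
    hφ0
    (fun t ht => add_nonneg (add_nonneg (hlog0 hcB t ht) (hlog0 hcA t ht))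
      (add_nonneg (hH1nn t ht) (hH2nn t ht)))
    (by
      intro T hT ε hε
      obtain ⟨W1, hW1i, hW1, hW1'⟩ := part A ((c1 : ℂ) • (B * Bᴴ)) hcB hp hp1 hz hup hum hz0 hd1'
        (fun h => by
          have : c1 = 0 := by
            rcases mul_eq_zero.1 h with h | h
            · exact h
            · exact absurd h hβ.ne'
          rw [this]
          simp) hT (half_pos hε)
      obtain ⟨W2, hW2i, hW2, hW2'⟩ := part B ((c3 : ℂ) • (A * Aᴴ)) hcA hp hp1 hz' htm htp hz0' hd2'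
        (fun h => by
          have : c3 = 0 := by
            rcases div_eq_zero_iff.1 h with h | h
            · exact h
            · exact absurd h hβ.ne'
          rw [this]
          simp) hT (half_pos hε)
      rw [htB] at hW1'
      rw [htA] at hW2'
      rw [← hF1] at hW1'
      rw [← hF2] at hW2'
      obtain ⟨_, _, hGφ⟩ := entRel_integral Eφ hφ0
      obtain ⟨_, _, hGB⟩ := entRel_integral (EntRel.ent hcB) (hlog0 hcB)
      obtain ⟨_, _, hGA⟩ := entRel_integral (EntRel.ent hcA) (hlog0 hcA)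
      obtain ⟨_, _, hG1⟩ := entRel_integral E1 hH1nn
      obtain ⟨_, _, hG2⟩ := entRel_integral E2 hH2nn
      have iφ := (hGφ T hT).1
      have iB := (hGB T hT).1
      have iA := (hGA T hT).1
      have i1 := (hG1 T hT).1
      have i2 := (hG2 T hT).1
      have hm := intervalIntegral.integral_mono_on_of_le_Ioo hT.le ((iB.add iA).add (hW1i.add hW2i))
        iφ (fun s hs => pointwise A B hs.1 h0 h1 h2 h3 he hp hp1 hz hup hum hz0 hz' htm htp hz0'
          e0 e2 e13 (hW1 s hs.1) (hW2 s hs.1))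
      rw [intervalIntegral.integral_add (iB.add iA) (hW1i.add hW2i),
        intervalIntegral.integral_add hW1i hW2i] at hm
      rw [intervalIntegral.integral_add (iB.add iA) (i1.add i2),
        intervalIntegral.integral_add i1 i2]
      linarith)
  refine le_trans (le_of_eq ?_) hcomp
  have hyx : y = x * β := by rw [hβd]; field_simp
  have hdet : detOut γ ν x y = x ^ 2 * detOut γ ν 1 β := by
    rw [hyx, detOut, detOut]; ring
  have heta : eta2 (x + y) (detOut γ ν x y) =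
      x * (Real.negMulLog lp + Real.negMulLog lm) + Real.negMulLog x * (1 + β) := by
    rw [hdet, ← hprod, show x + y = x * (lp + lm) by rw [hsum, hyx]; ring,
      eta2_smul hx.le, eta2_prod, hsum]
  rw [heta]
  have hfy : Real.negMulLog y = β * Real.negMulLog x + x * Real.negMulLog β := by
    rw [hyx, Real.negMulLog_mul]
  have hfc1 : Real.negMulLog (c1 * β) = β * Real.negMulLog c1 + c1 * Real.negMulLog β :=
    Real.negMulLog_mul _ _
  have hinv : ∀ a : ℝ, y * Real.negMulLog (a / β) = x * Real.negMulLog a + x * a * Real.log β := by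
    intro a
    rw [div_eq_mul_inv, Real.negMulLog_mul, hyx]
    simp only [Real.negMulLog, Real.log_inv]
    field_simp
  have hfβ : Real.negMulLog β = -β * Real.log β := rfl
  have hyc : y * (c3 / β) = x * c3 := by rw [hyx]; field_simp
  have h4 : y * (c3 / β * F2 + (1 - p) * Real.negMulLog (lm / β) +
        p * Real.negMulLog (lp / β) - Real.negMulLog (c3 / β)) = x * c3 * F2 +
        (1 - p) * (x * Real.negMulLog lm + x * lm * Real.log β) +
        p * (x * Real.negMulLog lp + x * lp * Real.log β) -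
        (x * Real.negMulLog c3 + x * c3 * Real.log β) := by
    rw [← hinv lm, ← hinv lp, ← hinv c3, ← hyc]
    ring
  rw [h4, hfy, hfc1, hfβ]
  have e1' : c2 = 1 - c1 := by linarith
  have e0' : c0 = 1 - c3 := by linarith
  rw [hyx]
  rw [e1'] at hpn ⊢
  rw [e0']
  linear_combination (-(x * Real.log β)) * hpn

theorem fromBlocks_diag_posSemidef {P Q : Matrix m m ℂ} (hP : P.PosSemidef)
    (hQ : Q.PosSemidef) : (fromBlocks P 0 0 Q).PosSemidef := by
  obtain ⟨C, hC⟩ := exists_factor hP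
  obtain ⟨D, hD⟩ := exists_factor hQ
  have h : fromBlocks P 0 0 Q = (fromBlocks C 0 0 D)ᴴ * fromBlocks C 0 0 D := by
    rw [fromBlocks_conjTranspose, fromBlocks_multiply]
    simp [hC, hD]
  rw [h]
  exact posSemidef_conjTranspose_mul_self _

theorem ent_fromBlocks_diag {P Q : Matrix m m ℂ} (hP : P.PosSemidef) (hQ : Q.PosSemidef) :
    ent (fromBlocks P 0 0 Q) = ent P + ent Q := by
  refine ((EntRel.ent (fromBlocks_diag_posSemidef hP hQ)).unique
    ((EntRel.ent hP).add (EntRel.ent hQ)) fun t ht => ?_).2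
  have h : (1 + ((t⁻¹ : ℝ) : ℂ) • fromBlocks P 0 0 Q : Matrix (m ⊕ m) (m ⊕ m) ℂ).det =
      (1 + ((t⁻¹ : ℝ) : ℂ) • P).det * (1 + ((t⁻¹ : ℝ) : ℂ) • Q).det := by
    rw [← fromBlocks_one, fromBlocks_smul, fromBlocks_add]
    simp only [smul_zero, add_zero]
    rw [det_fromBlocks_zero₂₁]
  obtain ⟨r1, hr1, h1⟩ := det_log_split hP ht
  obtain ⟨r2, hr2, h2⟩ := det_log_split hQ ht
  rw [h, h1, h2, ← Complex.ofReal_mul]
  simp only [Complex.ofReal_re]
  rw [Real.log_mul hr1.ne' hr2.ne']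

theorem eq_zero_of_trace {A : Matrix m k ℂ} (h : (A * Aᴴ).trace.re = 0) : A = 0 := by
  rw [← trace_mul_conjTranspose_self_eq_zero_iff]
  have h1 := (posSemidef_self_mul_conjTranspose A).trace_nonneg
  rw [Complex.le_def] at h1
  exact Complex.ext h h1.2.symm

theorem ent_zero : ent (0 : Matrix m m ℂ) = 0 := by
  have h := ent_diagonal (ι := m) (fun _ => 0) fun _ => le_rfl
  simpa using h

/-- key for `γ < 1` -/
theorem key_lt {γ ν : ℝ} (hγ : 0 ≤ γ) (hγ1 : γ < 1) (hν : 0 ≤ ν) (hν1 : ν ≤ 1)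
    (A B : Matrix m k ℂ) :
    ent (A * Aᴴ) + ent (B * Bᴴ) - Real.negMulLog (A * Aᴴ).trace.re
        - Real.negMulLog (B * Bᴴ).trace.re
        + eta2 ((A * Aᴴ).trace.re + (B * Bᴴ).trace.re)
            (detOut γ ν (A * Aᴴ).trace.re (B * Bᴴ).trace.re) ≤
      ent (outM (1 - γ * ν) (γ * (1 - ν)) (1 - γ * (1 - ν)) (γ * ν) (√(1 - γ)) A B) := by
  have hAA := posSemidef_self_mul_conjTranspose A
  have hBB := posSemidef_self_mul_conjTranspose B
  have hx : 0 ≤ (A * Aᴴ).trace.re := by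
    have := hAA.trace_nonneg
    rw [Complex.le_def] at this
    exact this.1
  have hy : 0 ≤ (B * Bᴴ).trace.re := by
    have := hBB.trace_nonneg
    rw [Complex.le_def] at this
    exact this.1
  have hc0 : 0 ≤ 1 - γ * ν := by nlinarith
  have hc1 : 0 ≤ γ * (1 - ν) := mul_nonneg hγ (by linarith)
  have hc2 : 0 ≤ 1 - γ * (1 - ν) := by nlinarith
  have hc3 : 0 ≤ γ * ν := mul_nonneg hγ hν
  rcases eq_or_lt_of_le hx with hx | hx
  · have hA := eq_zero_of_trace hx.symm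
    subst hA
    have h1 : outM (1 - γ * ν) (γ * (1 - ν)) (1 - γ * (1 - ν)) (γ * ν) (√(1 - γ))
        (0 : Matrix m k ℂ) B = fromBlocks (((γ * (1 - ν) : ℝ) : ℂ) • (B * Bᴴ)) 0 0
          (((1 - γ * (1 - ν) : ℝ) : ℂ) • (B * Bᴴ)) := by
      simp [outM]
    rw [h1, ent_fromBlocks_diag (psd_smul hBB hc1) (psd_smul hBB hc2), ent_smul hc1 hBB,
      ent_smul hc2 hBB]
    have h2 : detOut γ ν 0 (B * Bᴴ).trace.re = (B * Bᴴ).trace.re ^ 2 *
        ((γ * (1 - ν)) * (1 - γ * (1 - ν))) := by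
      rw [detOut]; ring
    simp only [Matrix.zero_mul, trace_zero, Complex.zero_re, zero_add, ent_zero,
      Real.negMulLog_zero, sub_zero]
    rw [h2]
    have h3 : eta2 (B * Bᴴ).trace.re ((B * Bᴴ).trace.re ^ 2 *
        ((γ * (1 - ν)) * (1 - γ * (1 - ν)))) = (B * Bᴴ).trace.re *
        (Real.negMulLog (γ * (1 - ν)) + Real.negMulLog (1 - γ * (1 - ν))) +
        Real.negMulLog (B * Bᴴ).trace.re := by
      have := eta2_smul hy (γ * (1 - ν) + (1 - γ * (1 - ν)))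
        ((γ * (1 - ν)) * (1 - γ * (1 - ν)))
      rw [eta2_prod] at this
      rw [show γ * (1 - ν) + (1 - γ * (1 - ν)) = 1 by ring, mul_one, mul_one] at this
      exact this
    rw [h3]
    nlinarith
  rcases eq_or_lt_of_le hy with hy | hy
  · have hB := eq_zero_of_trace hy.symm
    subst hB
    have h1 : outM (1 - γ * ν) (γ * (1 - ν)) (1 - γ * (1 - ν)) (γ * ν) (√(1 - γ))
        A (0 : Matrix m k ℂ) = fromBlocks (((1 - γ * ν : ℝ) : ℂ) • (A * Aᴴ)) 0 0
          (((γ * ν : ℝ) : ℂ) • (A * Aᴴ)) := by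
      simp [outM]
    rw [h1, ent_fromBlocks_diag (psd_smul hAA hc0) (psd_smul hAA hc3), ent_smul hc0 hAA,
      ent_smul hc3 hAA]
    have h2 : detOut γ ν (A * Aᴴ).trace.re 0 = (A * Aᴴ).trace.re ^ 2 *
        ((1 - γ * ν) * (γ * ν)) := by
      rw [detOut]; ring
    simp only [Matrix.zero_mul, trace_zero, Complex.zero_re, add_zero, ent_zero,
      Real.negMulLog_zero, sub_zero]
    rw [h2]
    have h3 : eta2 (A * Aᴴ).trace.re ((A * Aᴴ).trace.re ^ 2 *
        ((1 - γ * ν) * (γ * ν))) = (A * Aᴴ).trace.re *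
        (Real.negMulLog (1 - γ * ν) + Real.negMulLog (γ * ν)) +
        Real.negMulLog (A * Aᴴ).trace.re := by
      have := eta2_smul hx.le (1 - γ * ν + γ * ν) ((1 - γ * ν) * (γ * ν))
      rw [eta2_prod] at this
      rw [show 1 - γ * ν + γ * ν = 1 by ring, mul_one, mul_one] at this
      exact this
    rw [h3]
    nlinarith
  exact key_main hγ hγ1 hν hν1 A B hx hy

/-- concavity of the entropy -/
theorem ent_superadd (A B : Matrix m k ℂ) :
    ent (A * Aᴴ) + ent (B * Bᴴ) - Real.negMulLog (A * Aᴴ).trace.re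
        - Real.negMulLog (B * Bᴴ).trace.re
        + Real.negMulLog ((A * Aᴴ).trace.re + (B * Bᴴ).trace.re) ≤
      ent (A * Aᴴ + B * Bᴴ) := by
  have h := key_lt (γ := 0) (ν := 0) le_rfl one_pos le_rfl zero_le_one Aᴴ Bᴴ
  have h1 : outM (1 - 0 * 0) (0 * (1 - 0)) (1 - 0 * (1 - 0)) (0 * 0) (√(1 - 0)) Aᴴ Bᴴ =
      fromRows Aᴴ Bᴴ * (fromRows Aᴴ Bᴴ)ᴴ := by
    rw [fromRows_self]
    simp [outM]
  have h2 : ent (fromRows Aᴴ Bᴴ * (fromRows Aᴴ Bᴴ)ᴴ) = ent (A * Aᴴ + B * Bᴴ) := by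
    rw [ent_mul_conjTranspose, conjTranspose_fromRows_eq_fromCols_conjTranspose,
      fromCols_mul_fromRows]
    simp
  rw [h1, h2] at h
  simp only [conjTranspose_conjTranspose] at h
  have h3 : detOut 0 0 (Aᴴ * A).trace.re (Bᴴ * B).trace.re = 0 := by
    rw [detOut]; ring
  have h4 : ∀ w : ℝ, 0 ≤ w → eta2 w 0 = Real.negMulLog w := by
    intro w _
    have := eta2_prod (l := w) (r := 0)
    simpa using this
  have hx : 0 ≤ (Aᴴ * A).trace.re := by
    have := (posSemidef_conjTranspose_mul_self A).trace_nonneg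
    rw [Complex.le_def] at this
    exact this.1
  have hy : 0 ≤ (Bᴴ * B).trace.re := by
    have := (posSemidef_conjTranspose_mul_self B).trace_nonneg
    rw [Complex.le_def] at this
    exact this.1
  rw [h3, h4 _ (add_nonneg hx hy), ← ent_mul_conjTranspose A, ← ent_mul_conjTranspose B,
    trace_mul_comm Aᴴ A, trace_mul_comm Bᴴ B] at h
  exact h

theorem key_gamma_one {ν : ℝ} (hν : 0 ≤ ν) (hν1 : ν ≤ 1) (A B : Matrix m k ℂ) :
    ent (A * Aᴴ) + ent (B * Bᴴ) - Real.negMulLog (A * Aᴴ).trace.re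
        - Real.negMulLog (B * Bᴴ).trace.re
        + eta2 ((A * Aᴴ).trace.re + (B * Bᴴ).trace.re)
            (detOut 1 ν (A * Aᴴ).trace.re (B * Bᴴ).trace.re) ≤
      ent (outM (1 - 1 * ν) (1 * (1 - ν)) (1 - 1 * (1 - ν)) (1 * ν) (√(1 - 1)) A B) := by
  have hAA := posSemidef_self_mul_conjTranspose A
  have hBB := posSemidef_self_mul_conjTranspose B
  have hx : 0 ≤ (A * Aᴴ).trace.re := by
    have := hAA.trace_nonneg
    rw [Complex.le_def] at this
    exact this.1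
  have hy : 0 ≤ (B * Bᴴ).trace.re := by
    have := hBB.trace_nonneg
    rw [Complex.le_def] at this
    exact this.1
  have hν' : 0 ≤ 1 - ν := by linarith
  have h1 : outM (1 - 1 * ν) (1 * (1 - ν)) (1 - 1 * (1 - ν)) (1 * ν) (√(1 - 1)) A B =
      fromBlocks (((1 - ν : ℝ) : ℂ) • (A * Aᴴ + B * Bᴴ)) 0 0
        (((ν : ℝ) : ℂ) • (A * Aᴴ + B * Bᴴ)) := by
    simp [outM]
  rw [h1, ent_fromBlocks_diag (psd_smul (hAA.add hBB) hν') (psd_smul (hAA.add hBB) hν),
    ent_smul hν' (hAA.add hBB), ent_smul hν (hAA.add hBB), trace_add, Complex.add_re]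
  have h2 := ent_superadd A B
  have h3 : detOut 1 ν (A * Aᴴ).trace.re (B * Bᴴ).trace.re =
      ((A * Aᴴ).trace.re + (B * Bᴴ).trace.re) ^ 2 * ((1 - ν) * ν) := by
    rw [detOut]; ring
  have h4 := eta2_smul (add_nonneg hx hy) ((1 - ν) + ν) ((1 - ν) * ν)
  rw [eta2_prod, show 1 - ν + ν = 1 by ring, mul_one, mul_one] at h4
  rw [h3, h4]
  nlinarith

/-- **The key inequality for all parameters.** -/
theorem key_all {γ ν : ℝ} (hγ : 0 ≤ γ) (hγ1 : γ ≤ 1) (hν : 0 ≤ ν) (hν1 : ν ≤ 1) :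
    Key γ ν := by
  intro m k _ _ _ _ A B
  rcases eq_or_lt_of_le hγ1 with h | h
  · subst h
    exact key_gamma_one hν hν1 A B
  · exact key_lt hγ h hν hν1 A B

end Vale.Agent.P358.Gen
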