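import Vale.Agent.P358.EntRel

/-!
# Truncated logarithms (module K4)
-/

open Finset Filter Topology

namespace Vale.Agent.P358.Gen

/-- truncation at `1/z` (no truncation if `z = 0`). -/
noncomputable def trn (z r : ℝ) : ℝ := if z = 0 then r else min r z⁻¹

/-- `H p up um z r = (1-p) log(1+up r̃) + p log(1+um r̃)`, `r̃ = trn z r`. -/
noncomputable def HH (p up um z r : ℝ) : ℝ :=
  (1 - p) * Real.log (1 + up * trn z r) + p * Real.log (1 + um * trn z r)

/-- `z * H(∞)` (is `0` for `z = 0`). -/
noncomputable def kap (p up um z : ℝ) : ℝ :=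
  z * ((1 - p) * Real.log (1 + up * z⁻¹) + p * Real.log (1 + um * z⁻¹))

theorem trn_zero_left (r : ℝ) : trn 0 r = r := by simp [trn]

theorem trn_of_ne {z : ℝ} (hz : z ≠ 0) (r : ℝ) : trn z r = min r z⁻¹ := by simp [trn, hz]

theorem trn_nonneg {z r : ℝ} (hz : 0 ≤ z) (hr : 0 ≤ r) : 0 ≤ trn z r := by
  rw [trn]
  split_ifs
  · exact hr
  · exact le_min hr (inv_nonneg.2 hz)

theorem trn_zero {z : ℝ} (hz : 0 ≤ z) : trn z 0 = 0 := by
  rw [trn]
  split_ifs
  · rfl
  · exact min_eq_left (inv_nonneg.2 hz)

theorem pos_of_le {z u x : ℝ} (hz : 0 < z) (hu : 0 < z + u) (hx : 0 ≤ x) (hx1 : x ≤ z⁻¹) :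
    0 < 1 + u * x := by
  rcases le_total 0 u with h | h
  · positivity
  · have h1 : u * z⁻¹ ≤ u * x := mul_le_mul_of_nonpos_left hx1 h
    have h2 : 0 < 1 + u * z⁻¹ := by
      have : 1 + u * z⁻¹ = (z + u) * z⁻¹ := by field_simp
      rw [this]
      positivity
    linarith

theorem trn_pos {z u r : ℝ} (hz : 0 ≤ z) (hu : 0 ≤ z + u) (hz0 : z ≠ 0 → 0 < z + u)
    (hr : 0 ≤ r) : 0 < 1 + u * trn z r := by
  rcases eq_or_ne z 0 with h | h
  · subst h
    rw [trn_zero_left]
    rw [zero_add] at hu
    positivity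
  · rw [trn_of_ne h]
    have hz' : 0 < z := lt_of_le_of_ne hz (Ne.symm h)
    exact pos_of_le hz' (hz0 h) (le_min hr (inv_nonneg.2 hz)) (min_le_right _ _)

theorem HH_zero (p up um z : ℝ) (hz : 0 ≤ z) : HH p up um z 0 = 0 := by
  rw [HH, trn_zero hz]
  simp

/-- the asymptotics for all real `x`. -/
theorem tendsto_aux (x : ℝ) : Tendsto (fun t : ℝ => (-Real.negMulLog (t + x) + Real.negMulLog t)
    - x * (Real.log t + 1)) atTop (𝓝 0) := by
  have h1 : Tendsto (fun t : ℝ => t * Real.log (1 + x / t)) atTop (𝓝 x) :=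
    Real.tendsto_mul_log_one_add_div_atTop x
  have h2 : Tendsto (fun t : ℝ => 1 + x / t) atTop (𝓝 (1 + 0)) :=
    tendsto_const_nhds.add (tendsto_const_nhds.div_atTop tendsto_id)
  have h3 := (h2.mul h1).sub (tendsto_const_nhds (x := x))
  simp only [add_zero, one_mul, sub_self] at h3
  refine h3.congr' ?_
  filter_upwards [eventually_gt_atTop 0, eventually_gt_atTop (-x)] with t ht ht'
  have h5 : 0 < t + x := by linarith
  have : 1 + x / t = (t + x) / t := by field_simp
  rw [this, Real.log_div (by positivity) ht.ne', Real.negMulLog, Real.negMulLog]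
  field_simp
  ring

theorem hasDerivAt_aux {x t : ℝ} (ht : 0 < t) (hx : 0 < t + x) :
    HasDerivAt (fun t : ℝ => -Real.negMulLog (t + x) + Real.negMulLog t)
      (Real.log (1 + x / t)) t := by
  have h1 : HasDerivAt (fun t : ℝ => Real.negMulLog (t + x)) (-Real.log (t + x) - 1) t := by
    have := Real.hasDerivAt_negMulLog (x := t + x) hx.ne'
    simpa using this.comp_add_const t x
  have h2 := (Real.hasDerivAt_negMulLog ht.ne')
  have h3 := h1.neg.add h2
  have h4 : -(-Real.log (t + x) - 1) + (-Real.log t - 1) = Real.log (1 + x / t) := by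
    have : 1 + x / t = (t + x) / t := by field_simp
    rw [this, Real.log_div (by positivity) ht.ne']
    ring
  rw [← h4]
  exact h3

theorem entRel_HH {p up um z a : ℝ} (hp : 0 ≤ p) (hp1 : p ≤ 1) (hz : 0 ≤ z)
    (hup : 0 ≤ z + up) (hum : 0 ≤ z + um) (ha : 0 ≤ a)
    (hz0 : z ≠ 0 → 0 < z + up ∧ 0 < z + um) :
    EntRel (fun s => HH p up um z (a / s)) (((1 - p) * up + p * um) * a)
      (((1 - p) * up + p * um) * Real.negMulLog a + a * (kap p up um z
        + (1 - p) * Real.negMulLog (z + up) + p * Real.negMulLog (z + um)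
        - Real.negMulLog z)) := by
  rcases ha.eq_or_lt with h0 | ha
  · subst h0
    have : EntRel (fun _ => 0) 0 0 := EntRel.zero
    simp only [zero_div, HH_zero p up um z hz, mul_zero, Real.negMulLog_zero, zero_mul, add_zero]
    exact this
  rcases eq_or_ne z 0 with h | h
  · subst h
    rw [zero_add] at hup hum
    have h1 := ((EntRel.scalar (mul_nonneg hup ha.le)).smul (1 - p)).add
      ((EntRel.scalar (mul_nonneg hum ha.le)).smul p)
    have e1 : ((1 - p) * up + p * um) * a = (1 - p) * (up * a) + p * (um * a) := by ring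
    have e2 : ((1 - p) * up + p * um) * Real.negMulLog a + a * (kap p up um 0
        + (1 - p) * Real.negMulLog (0 + up) + p * Real.negMulLog (0 + um)
        - Real.negMulLog 0) = (1 - p) * Real.negMulLog (up * a) + p * Real.negMulLog (um * a) := by
      rw [Real.negMulLog_mul, Real.negMulLog_mul, kap]
      simp only [zero_mul, zero_add, Real.negMulLog_zero]
      ring
    rw [e1, e2]
    refine h1.congr fun t _ => ?_
    rw [HH, trn_zero_left, mul_div_assoc, mul_div_assoc]
  · have hz' : 0 < z := lt_of_le_of_ne hz (Ne.symm h)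
    obtain ⟨hup', hum'⟩ := hz0 h
    set t0 : ℝ := a * z with ht0
    have ht0' : 0 < t0 := by positivity
    set c : ℝ := (1 - p) * Real.log (1 + up * z⁻¹) + p * Real.log (1 + um * z⁻¹) with hc
    set G1 : ℝ → ℝ := fun t => (1 - p) * (-Real.negMulLog (t + up * a) + Real.negMulLog t)
      + p * (-Real.negMulLog (t + um * a) + Real.negMulLog t) with hG1
    set G : ℝ → ℝ := fun t => if t ≤ t0 then G1 t0 + (t - t0) * c else G1 t with hG
    have hGle : ∀ t, t ≤ t0 → G t = G1 t0 + (t - t0) * c := fun t ht => by simp [hG, ht]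
    have hGge : ∀ t, t0 ≤ t → G t = G1 t := by
      intro t ht
      rcases ht.eq_or_lt with h1 | h1
      · rw [← h1, hGle t0 le_rfl]; ring
      · simp [hG, not_le.2 h1]
    have hd1 : ∀ t, t0 ≤ t → HasDerivAt G1
        ((1 - p) * Real.log (1 + up * a / t) + p * Real.log (1 + um * a / t)) t := by
      intro t ht
      have htp : 0 < t := lt_of_lt_of_le ht0' ht
      have q1 : 0 < t + up * a := by
        have : 0 < a * (z + up) := by positivity
        nlinarith
      have q2 : 0 < t + um * a := by
        have : 0 < a * (z + um) := by positivity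
        nlinarith
      exact ((hasDerivAt_aux htp q1).const_mul (1 - p)).add ((hasDerivAt_aux htp q2).const_mul p)
    have hphi_ge : ∀ t, t0 ≤ t → HH p up um z (a / t) =
        (1 - p) * Real.log (1 + up * a / t) + p * Real.log (1 + um * a / t) := by
      intro t ht
      have htp : 0 < t := lt_of_lt_of_le ht0' ht
      have h1 : a / t ≤ z⁻¹ := by
        rw [div_le_iff₀ htp]
        have : a = z⁻¹ * t0 := by rw [ht0]; field_simp
        calc a = z⁻¹ * t0 := this
          _ ≤ z⁻¹ * t := by gcongr
      rw [HH, trn_of_ne h, min_eq_left h1, mul_div_assoc, mul_div_assoc]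
    have hphi_le : ∀ t, 0 < t → t ≤ t0 → HH p up um z (a / t) = c := by
      intro t htp ht
      have h1 : z⁻¹ ≤ a / t := by
        rw [le_div_iff₀ htp]
        have : a = z⁻¹ * t0 := by rw [ht0]; field_simp
        calc z⁻¹ * t ≤ z⁻¹ * t0 := by gcongr
          _ = a := this.symm
      rw [HH, trn_of_ne h, min_eq_right h1]
    have haff : ∀ t, HasDerivAt (fun t => G1 t0 + (t - t0) * c) c t := by
      intro t
      have := (((hasDerivAt_id t).sub_const t0).mul_const c).const_add (G1 t0)
      simpa using this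
    have hderiv : ∀ t, 0 < t → HasDerivAt G (HH p up um z (a / t)) t := by
      intro t htp
      rcases lt_trichotomy t t0 with h1 | h1 | h1
      · rw [hphi_le t htp h1.le]
        refine (haff t).congr_of_eventuallyEq ?_
        filter_upwards [Iio_mem_nhds h1] with x hx
        exact hGle x (le_of_lt hx)
      · subst h1
        rw [← hasDerivWithinAt_univ, ← Set.Iic_union_Ici (a := t0)]
        refine HasDerivWithinAt.union ?_ ?_
        · rw [hphi_le t0 htp le_rfl]
          exact (haff t0).hasDerivWithinAt.congr (fun x hx => hGle x hx) (hGle t0 le_rfl)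
        · rw [hphi_ge t0 le_rfl]
          exact (hd1 t0 le_rfl).hasDerivWithinAt.congr (fun x hx => hGge x hx) (hGge t0 le_rfl)
      · rw [hphi_ge t h1.le]
        refine (hd1 t h1.le).congr_of_eventuallyEq ?_
        filter_upwards [Ioi_mem_nhds h1] with x hx
        exact hGge x (le_of_lt hx)
    refine ⟨G, ?_, ?_, hderiv, ?_⟩
    · intro t ht
      rcases (show (0:ℝ) ≤ t from ht).eq_or_lt with h1 | h1
      · rw [← h1]
        have : ContinuousAt G 0 := by
          refine ((haff 0).continuousAt).congr ?_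
          filter_upwards [Iio_mem_nhds ht0'] with x hx
          exact (hGle x (le_of_lt hx)).symm
        exact this.continuousWithinAt
      · exact (hderiv t h1).continuousAt.continuousWithinAt
    · rw [hGle 0 ht0'.le, hG1]
      have e1 : t0 + up * a = a * (z + up) := by rw [ht0]; ring
      have e2 : t0 + um * a = a * (z + um) := by rw [ht0]; ring
      simp only [e1, e2]
      rw [ht0, Real.negMulLog_mul, Real.negMulLog_mul, Real.negMulLog_mul, kap, ← hc]
      ring
    · have h1 := ((tendsto_aux (up * a)).const_mul (1 - p)).add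
        ((tendsto_aux (um * a)).const_mul p)
      rw [mul_zero, mul_zero, add_zero] at h1
      refine h1.congr' ?_
      filter_upwards [eventually_ge_atTop t0] with t ht
      rw [hGge t ht, hG1]
      ring

theorem HH_mono {p up um z : ℝ} (hp : 0 ≤ p) (hp1 : p ≤ 1) (hz : 0 ≤ z)
    (hup : 0 ≤ z + up) (hum : 0 ≤ z + um) (hz0 : z ≠ 0 → 0 < z + up ∧ 0 < z + um)
    (hd : 0 ≤ (1 - p) * (up * (z + um)) + p * (um * (z + up))) :
    MonotoneOn (HH p up um z) (Set.Ici 0) := by
  rcases eq_or_ne z 0 with h | h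
  · subst h
    rw [zero_add] at hup hum
    intro r hr r' hr' hrr
    rw [Set.mem_Ici] at hr hr'
    rw [HH, HH, trn_zero_left, trn_zero_left]
    have : 0 ≤ 1 - p := by linarith
    gcongr
  · have hz' : 0 < z := lt_of_le_of_ne hz (Ne.symm h)
    obtain ⟨hup', hum'⟩ := hz0 h
    set f : ℝ → ℝ := fun x => (1 - p) * Real.log (1 + up * x) + p * Real.log (1 + um * x) with hf
    have hder : ∀ x, 0 ≤ x → x ≤ z⁻¹ → HasDerivAt f
        ((1 - p) * (up / (1 + up * x)) + p * (um / (1 + um * x))) x := by
      intro x hx hx1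
      have q1 := pos_of_le hz' hup' hx hx1
      have q2 := pos_of_le hz' hum' hx hx1
      have d1 : HasDerivAt (fun x => Real.log (1 + up * x)) (up / (1 + up * x)) x := by
        have := (((hasDerivAt_id x).const_mul up).const_add 1).log q1.ne'
        simpa using this
      have d2 : HasDerivAt (fun x => Real.log (1 + um * x)) (um / (1 + um * x)) x := by
        have := (((hasDerivAt_id x).const_mul um).const_add 1).log q2.ne'
        simpa using this
      exact (d1.const_mul (1 - p)).add (d2.const_mul p)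
    have hcomp : ∀ u x, 0 < z + u → 0 ≤ x → x ≤ z⁻¹ → u / (1 + u * z⁻¹) ≤ u / (1 + u * x) := by
      intro u x hu hx hx1
      have q1 := pos_of_le hz' hu hx hx1
      have q2 := pos_of_le hz' hu (inv_nonneg.2 hz) le_rfl
      rw [div_le_div_iff₀ q2 q1]
      nlinarith [mul_nonneg (sq_nonneg u) (sub_nonneg.2 hx1)]
    have hend : 0 ≤ (1 - p) * (up / (1 + up * z⁻¹)) + p * (um / (1 + um * z⁻¹)) := by
      have e1 : 1 + up * z⁻¹ = (z + up) / z := by field_simp
      have e2 : 1 + um * z⁻¹ = (z + um) / z := by field_simp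
      have : (1 - p) * (up / (1 + up * z⁻¹)) + p * (um / (1 + um * z⁻¹)) =
          z * ((1 - p) * (up * (z + um)) + p * (um * (z + up))) / ((z + up) * (z + um)) := by
        rw [e1, e2]
        field_simp
      rw [this]
      positivity
    have hfm : MonotoneOn f (Set.Icc 0 z⁻¹) := by
      refine monotoneOn_of_deriv_nonneg (convex_Icc _ _) ?_ ?_ ?_
      · exact fun x hx => (hder x hx.1 hx.2).continuousAt.continuousWithinAt
      · rw [interior_Icc]
        exact fun x hx => (hder x hx.1.le hx.2.le).differentiableAt.differentiableWithinAt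
      · rw [interior_Icc]
        intro x hx
        rw [(hder x hx.1.le hx.2.le).deriv]
        have h1 := hcomp up x hup' hx.1.le hx.2.le
        have h2 := hcomp um x hum' hx.1.le hx.2.le
        have : 0 ≤ 1 - p := by linarith
        nlinarith [mul_le_mul_of_nonneg_left h1 this, mul_le_mul_of_nonneg_left h2 hp]
    intro r hr r' hr' hrr
    rw [Set.mem_Ici] at hr hr'
    have hzi : 0 ≤ z⁻¹ := inv_nonneg.2 hz
    have := hfm (a := min r z⁻¹) (b := min r' z⁻¹) ⟨le_min hr hzi, min_le_right _ _⟩
      ⟨le_min hr' hzi, min_le_right _ _⟩ (min_le_min_right _ hrr)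
    rw [HH, HH, trn_of_ne h, trn_of_ne h]
    exact this

theorem HH_cont {p up um z : ℝ} (hz : 0 ≤ z) (hup : 0 ≤ z + up) (hum : 0 ≤ z + um)
    (hz0 : z ≠ 0 → 0 < z + up ∧ 0 < z + um) : ContinuousOn (HH p up um z) (Set.Ici 0) := by
  have htc : Continuous (trn z) := by
    unfold trn
    split_ifs
    · exact continuous_id
    · exact continuous_id.min continuous_const
  have h1 : ContinuousOn (fun r => Real.log (1 + up * trn z r)) (Set.Ici 0) :=
    ContinuousOn.log (by fun_prop) fun r hr => (trn_pos hz hup (fun h => (hz0 h).1) hr).ne'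
  have h2 : ContinuousOn (fun r => Real.log (1 + um * trn z r)) (Set.Ici 0) :=
    ContinuousOn.log (by fun_prop) fun r hr => (trn_pos hz hum (fun h => (hz0 h).2) hr).ne'
  exact (continuousOn_const.mul h1).add (continuousOn_const.mul h2)

/-- bounded by `kap/z` if `z > 0` -/
theorem HH_le {p up um z : ℝ} (hp : 0 ≤ p) (hp1 : p ≤ 1) (hz : 0 < z)
    (hup : 0 < z + up) (hum : 0 < z + um)
    (hd : 0 ≤ (1 - p) * (up * (z + um)) + p * (um * (z + up))) {r : ℝ} (hr : 0 ≤ r) :
    HH p up um z r ≤ (1 - p) * Real.log (1 + up * z⁻¹) + p * Real.log (1 + um * z⁻¹) := by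
  have h1 := HH_mono hp hp1 hz.le hup.le hum.le (fun _ => ⟨hup, hum⟩) hd
    (a := r) (b := max r z⁻¹) hr (le_max_of_le_left hr) (le_max_left _ _)
  refine h1.trans (le_of_eq ?_)
  rw [HH, trn_of_ne hz.ne', min_eq_right (le_max_right _ _)]

end Vale.Agent.P358.Gen
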